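import Mathlib

/-! Task R66-Angle: pairwise almost orthogonal subspaces (Dymara–Januszkiewicz, Kassabov). -/
set_option autoImplicit false
namespace Crest.Agent.R66
open scoped RealInnerProductSpace

/-
PLAN.  `P a = (V a).starProjection`, `Q a = 1 - P a`, `ε ≤ 1/2` small.
(1) `‖P b (P a x) - Π x‖ ≤ ε ‖x‖` for `Π` the projection on `V a ⊓ V b` (WLOG `Π x = 0`; `u = P a x` is
`⊥ V a ⊓ V b`, `‖P b u‖² = ⟪u, P b u⟫ ≤ ε ‖u‖ ‖P b u‖`).  So `‖P a P b x - P b P a x‖ ≤ 2ε‖x‖`.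
(2) `⟪Q a x, Q b x⟫ ≥ -6ε (‖Q a x‖² + ‖Q b x‖²)`: WLOG `Π x = 0`; then
`‖x‖ ≤ ‖Q b x‖ + ‖Q a x‖ + ε‖x‖`, and `⟪Q a x, Q b x⟫ = ‖Q b Q a x‖² + ⟪P a Q b Q a x, P a x⟫` with
`‖P a Q b Q a x‖ = ‖P a P b Q a x‖ ≤ 2ε ‖Q a x‖` (as `P b P a Q a = 0`).
(3) gap: `T = ∑_{a ∈ S} Q a` is symmetric, `⟪T x, x⟫ = ∑ ‖Q a x‖²`, `‖T x‖² ≥ c ⟪T x, x⟫`, `c = 1 - 12 n ε ≥ 1/2`.
`ker T = ⨅ V a`, `(ker T)ᗮ = range T` (`LinearMap.IsSymmetric.orthogonal_range`, `orthogonal_orthogonal`).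
For `x = T y`: `‖x‖² = ∑ ⟪Q a x, Q a y⟫ ≤ √(∑‖Q a x‖²) √(∑‖Q a y‖²)` and `c ∑‖Q a y‖² ≤ ‖x‖²`, so
`c ‖x‖² ≤ ∑_{a ∈ S} ‖Q a x‖²` for `x ⊥ ⨅_{a ∈ S} V a`.
(4) for a list `l` of indices, `R_l = ∏ P a`: `‖Q a (R_l x)‖ ≤ 2ε |l| ‖x‖` if `a ∈ l` or `x ∈ V a` (induction).  With
`l = S'.toList`, `y = R_l u`: `⟪u, v⟫ = ⟪y, v⟫` for `v ∈ ⨅_{S'} V`, `y ⊥ ⨅_{S ∪ S'} V` (as `u` is), and
`‖Q a y‖ ≤ 2εn‖u‖` for all `a ∈ S ∪ S'`; (3) for `S ∪ S'` gives `‖y‖² ≤ 2 n (2εn)² ‖u‖²`.
-/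
section AngleAux
variable {E : Type} [NormedAddCommGroup E] [InnerProductSpace ℝ E] [FiniteDimensional ℝ E]

theorem angle_norm_Q (A : Submodule ℝ E) (x : E) : ‖x - A.starProjection x‖ ≤ ‖x‖ := by
  rw [← Submodule.starProjection_orthogonal_val]
  exact Submodule.norm_starProjection_apply_le _ _

theorem angle_PP {A B : Submodule ℝ E} {ε : ℝ} (hε : 0 ≤ ε)
    (h : ∀ u ∈ A, u ∈ (A ⊓ B)ᗮ → ∀ v ∈ B, ⟪u, v⟫ ≤ ε * (‖u‖ * ‖v‖)) (x : E) :
    ‖B.starProjection (A.starProjection x) - (A ⊓ B).starProjection x‖ ≤ ε * ‖x‖ := by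
  set w := (A ⊓ B).starProjection x with hw
  have hwm : w ∈ A ⊓ B := Submodule.starProjection_apply_mem _ _
  set u := A.starProjection (x - w) with hu
  have e1 : u = A.starProjection x - w := by
    rw [hu, map_sub, Submodule.starProjection_eq_self_iff.mpr hwm.1]
  have e2 : B.starProjection u = B.starProjection (A.starProjection x) - w := by
    rw [e1, map_sub, Submodule.starProjection_eq_self_iff.mpr hwm.2]
  have h1 : u ∈ (A ⊓ B)ᗮ := by
    intro y hy
    rw [hu, ← Submodule.inner_starProjection_left_eq_right,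
      Submodule.starProjection_eq_self_iff.mpr hy.1]
    exact Submodule.sub_starProjection_mem_orthogonal x y hy
  have h2 : ‖u‖ ≤ ‖x‖ := (Submodule.norm_starProjection_apply_le _ _).trans (angle_norm_Q _ _)
  have h3 := h u (Submodule.starProjection_apply_mem _ _) h1 (B.starProjection u)
    (Submodule.starProjection_apply_mem _ _)
  have h4 : ⟪u, B.starProjection u⟫ = ‖B.starProjection u‖ * ‖B.starProjection u‖ := by
    rw [← real_inner_self_eq_norm_mul_norm, B.inner_starProjection_left_eq_right u,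
      Submodule.starProjection_eq_self_iff.mpr (Submodule.starProjection_apply_mem _ _)]
  rw [← e2]
  rcases (norm_nonneg (B.starProjection u)).eq_or_lt with h0 | h0
  · rw [← h0]; positivity
  · have : ‖B.starProjection u‖ ≤ ε * ‖u‖ := by
      refine le_of_mul_le_mul_right ?_ h0
      rw [← h4, mul_assoc]; exact h3
    exact this.trans (mul_le_mul_of_nonneg_left h2 hε)

theorem angle_QQ {A B : Submodule ℝ E} {ε : ℝ} (hε : 0 ≤ ε) (hε' : ε ≤ 1 / 2)
    (h : ∀ u ∈ A, u ∈ (A ⊓ B)ᗮ → ∀ v ∈ B, ⟪u, v⟫ ≤ ε * (‖u‖ * ‖v‖))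
    (h' : ∀ u ∈ B, u ∈ (B ⊓ A)ᗮ → ∀ v ∈ A, ⟪u, v⟫ ≤ ε * (‖u‖ * ‖v‖)) (x : E) :
    -(3 * ε * (‖x - A.starProjection x‖ ^ 2 + ‖x - B.starProjection x‖ ^ 2)) ≤
      ⟪x - A.starProjection x, x - B.starProjection x⟫ := by
  -- reduce to `x ⊥ A ⊓ B`
  have key : ∀ x : E, (A ⊓ B).starProjection x = 0 →
      -(3 * ε * (‖x - A.starProjection x‖ ^ 2 + ‖x - B.starProjection x‖ ^ 2)) ≤
      ⟪x - A.starProjection x, x - B.starProjection x⟫ := by
    intro x hx
    set y := x - A.starProjection x with hy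
    set z := x - B.starProjection x with hz
    have hyA : y ∈ Aᗮ := Submodule.sub_starProjection_mem_orthogonal x
    have h1 := angle_PP hε h x
    rw [hx, sub_zero] at h1
    have h2 : ‖x‖ ≤ ‖z‖ + ‖y‖ + ε * ‖x‖ := by
      have e : x = z + B.starProjection y + B.starProjection (A.starProjection x) := by
        rw [hz, hy, map_sub]; abel
      calc ‖x‖ = ‖z + B.starProjection y + B.starProjection (A.starProjection x)‖ := by rw [← e]
        _ ≤ ‖z‖ + ‖B.starProjection y‖ + ‖B.starProjection (A.starProjection x)‖ := norm_add₃_le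
        _ ≤ _ := by
          have := Submodule.norm_starProjection_apply_le (K := B) y
          linarith
    have h3 := angle_PP hε h' y
    have h4 : (B ⊓ A).starProjection y = 0 :=
      (Submodule.starProjection_apply_eq_zero_iff _).mpr (Submodule.orthogonal_le inf_le_right hyA)
    rw [h4, sub_zero] at h3
    have e1 : ⟪y, z⟫ = ⟪y - B.starProjection y, x⟫ := by
      rw [hz, inner_sub_right, inner_sub_left y, B.inner_starProjection_left_eq_right]
    have e2 : ⟪y - B.starProjection y, x⟫ = ⟪y - B.starProjection y, y⟫ -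
        ⟪A.starProjection (B.starProjection y), x⟫ := by
      have e : x = y + A.starProjection x := by rw [hy]; abel
      have e3 : ⟪y, A.starProjection x⟫ = 0 := by
        rw [real_inner_comm]; exact hyA _ (Submodule.starProjection_apply_mem _ _)
      conv_lhs => rw [e, inner_add_right, inner_sub_left _ _ (A.starProjection x), e3]
      rw [A.inner_starProjection_left_eq_right]; ring
    have e3 : 0 ≤ ⟪y - B.starProjection y, y⟫ := by
      have e : y = (y - B.starProjection y) + B.starProjection y := by abel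
      have e4 : ⟪y - B.starProjection y, B.starProjection y⟫ = 0 :=
        Submodule.starProjection_inner_eq_zero _ _ (Submodule.starProjection_apply_mem _ _)
      conv_rhs => enter [3]; rw [e]
      rw [inner_add_right, e4, add_zero]
      exact real_inner_self_nonneg
    have e4 : ⟪A.starProjection (B.starProjection y), x⟫ ≤ ε * ‖y‖ * ‖x‖ :=
      (real_inner_le_norm _ _).trans (mul_le_mul_of_nonneg_right h3 (norm_nonneg _))
    have h5 : ‖x‖ ≤ 2 * (‖z‖ + ‖y‖) := by nlinarith [norm_nonneg x]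
    have h6 : ε * ‖y‖ * ‖x‖ ≤ ε * ‖y‖ * (2 * (‖z‖ + ‖y‖)) :=
      mul_le_mul_of_nonneg_left h5 (by positivity)
    have h7 : 0 ≤ ε * (‖y‖ - ‖z‖) ^ 2 := by positivity
    have h8 : 0 ≤ ε * ‖z‖ ^ 2 := by positivity
    rw [e1, e2]
    nlinarith
  set w := (A ⊓ B).starProjection x with hw
  have hwm : w ∈ A ⊓ B := Submodule.starProjection_apply_mem _ _
  have := key (x - w) (by rw [map_sub, Submodule.starProjection_eq_self_iff.mpr hwm, ← hw, sub_self])
  rwa [map_sub, map_sub, Submodule.starProjection_eq_self_iff.mpr hwm.1,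
    Submodule.starProjection_eq_self_iff.mpr hwm.2, sub_sub_sub_cancel_right,
    sub_sub_sub_cancel_right] at this

theorem angle_gap {I : Type} [DecidableEq I] (V : I → Submodule ℝ E) {ε : ℝ} (hε : 0 ≤ ε)
    (hε' : ε ≤ 1 / 2)
    (h : ∀ a b, ∀ u ∈ V a, u ∈ (V a ⊓ V b)ᗮ → ∀ v ∈ V b, ⟪u, v⟫ ≤ ε * (‖u‖ * ‖v‖))
    (S : Finset I) (hS : 12 * ε * S.card ≤ 1) (x : E) (hx : x ∈ (⨅ a ∈ S, V a)ᗮ) :
    ‖x‖ ^ 2 ≤ 2 * ∑ a ∈ S, ‖x - (V a).starProjection x‖ ^ 2 := by
  let Q : I → E →ₗ[ℝ] E := fun a => LinearMap.id - ((V a).starProjection : E →ₗ[ℝ] E)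
  have hQ : ∀ a x, Q a x = x - (V a).starProjection x := fun a x => rfl
  have hQs : ∀ a x y, ⟪Q a x, y⟫ = ⟪x, Q a y⟫ := fun a x y => by
    rw [hQ, hQ, inner_sub_left, inner_sub_right, Submodule.inner_starProjection_left_eq_right]
  have hQ2 : ∀ a x y, ⟪Q a x, y⟫ = ⟪Q a x, Q a y⟫ := fun a x y => by
    rw [hQ a y, inner_sub_right, hQ,
      Submodule.starProjection_inner_eq_zero _ _ (Submodule.starProjection_apply_mem _ _), sub_zero]
  let T : E →ₗ[ℝ] E := ∑ a ∈ S, Q a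
  have hT : ∀ x, T x = ∑ a ∈ S, Q a x := fun x => by simp [T]
  have hTs : T.IsSymmetric := fun x y => by
    rw [hT, hT, sum_inner, inner_sum]; exact Finset.sum_congr rfl fun a _ => hQs a x y
  have hk : LinearMap.ker T ≤ ⨅ a ∈ S, V a := by
    intro y hy
    have h0 : ∑ a ∈ S, ‖Q a y‖ ^ 2 = 0 := by
      have : ⟪T y, y⟫ = 0 := by rw [LinearMap.mem_ker.mp hy, inner_zero_left]
      rw [hT, sum_inner] at this
      rw [← this]
      exact Finset.sum_congr rfl fun a _ => by rw [hQ2, real_inner_self_eq_norm_sq]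
    simp only [Submodule.mem_iInf]
    intro a ha
    have := (Finset.sum_eq_zero_iff_of_nonneg fun a _ => sq_nonneg _).mp h0 a ha
    rw [sq_eq_zero_iff, norm_eq_zero, hQ, sub_eq_zero] at this
    exact Submodule.starProjection_eq_self_iff.mp this.symm
  have hr : x ∈ LinearMap.range T := by
    rw [← Submodule.orthogonal_orthogonal (LinearMap.range T), hTs.orthogonal_range]
    exact Submodule.orthogonal_le hk hx
  obtain ⟨y, rfl⟩ := hr
  set x := T y with hxy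
  have h1 : ∑ a ∈ S, ‖Q a y‖ ^ 2 ≤ 2 * ‖x‖ ^ 2 := by
    have e : ‖x‖ ^ 2 = ∑ a ∈ S, ∑ b ∈ S, ⟪Q a y, Q b y⟫ := by
      rw [← real_inner_self_eq_norm_sq, hxy, hT, sum_inner]
      exact Finset.sum_congr rfl fun a _ => inner_sum _ _ _
    have h2 : ∀ a ∈ S, ∑ b ∈ S, ((if a = b then ‖Q a y‖ ^ 2 else 0) -
        3 * ε * (‖Q a y‖ ^ 2 + ‖Q b y‖ ^ 2)) ≤ ∑ b ∈ S, ⟪Q a y, Q b y⟫ := fun a _ =>
      Finset.sum_le_sum fun b _ => by
        split_ifs with hab
        · subst hab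
          rw [real_inner_self_eq_norm_sq]
          have : 0 ≤ 3 * ε * (‖Q a y‖ ^ 2 + ‖Q a y‖ ^ 2) := by positivity
          linarith
        · have := angle_QQ hε hε' (h a b) (h b a) y
          simp only [hQ]; linarith
    have h3 := Finset.sum_le_sum h2
    rw [← e] at h3
    simp only [Finset.sum_sub_distrib, Finset.sum_ite_eq, ← Finset.mul_sum, Finset.sum_add_distrib,
      Finset.sum_const, nsmul_eq_mul] at h3
    rw [Finset.sum_congr rfl fun a ha => if_pos ha] at h3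
    have h4 : 0 ≤ ∑ a ∈ S, ‖Q a y‖ ^ 2 := Finset.sum_nonneg fun a _ => sq_nonneg _
    nlinarith
  have h2 : ‖x‖ ^ 2 = ∑ a ∈ S, ⟪Q a y, Q a x⟫ := by
    rw [← real_inner_self_eq_norm_sq]
    conv_lhs => enter [2]; rw [hxy, hT]
    rw [sum_inner]
    exact Finset.sum_congr rfl fun a _ => hQ2 _ _ _
  have h3 : ∑ a ∈ S, ⟪Q a y, Q a x⟫ ≤ ∑ a ∈ S, (‖Q a y‖ ^ 2 / 4 + ‖Q a x‖ ^ 2) :=
    Finset.sum_le_sum fun a _ => by
      have := real_inner_le_norm (Q a y) (Q a x)
      nlinarith [sq_nonneg (‖Q a y‖ / 2 - ‖Q a x‖)]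
  rw [Finset.sum_add_distrib, ← Finset.sum_div] at h3
  simp only [← hQ]
  linarith

theorem angle_push {I : Type} [DecidableEq I] (V : I → Submodule ℝ E) {ε : ℝ} (hε : 0 ≤ ε)
    (h : ∀ a b, ∀ u ∈ V a, u ∈ (V a ⊓ V b)ᗮ → ∀ v ∈ V b, ⟪u, v⟫ ≤ ε * (‖u‖ * ‖v‖))
    (u : E) (S : Finset I) : ∃ y : E, ‖y‖ ≤ ‖u‖ ∧ (∀ v, (∀ a ∈ S, v ∈ V a) → ⟪y, v⟫ = ⟪u, v⟫) ∧
      ∀ a, a ∈ S ∨ u ∈ V a → ‖y - (V a).starProjection y‖ ≤ 2 * ε * S.card * ‖u‖ := by
  induction S using Finset.induction_on with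
  | empty =>
    refine ⟨u, le_rfl, fun _ _ => rfl, fun a ha => ?_⟩
    rw [Submodule.starProjection_eq_self_iff.mpr (by simpa using ha)]; simp
  | insert b S hb ih =>
    obtain ⟨y, h1, h2, h3⟩ := ih
    refine ⟨(V b).starProjection y, (Submodule.norm_starProjection_apply_le _ _).trans h1,
      fun v hv => ?_, fun a ha => ?_⟩
    · rw [Submodule.inner_starProjection_left_eq_right,
        Submodule.starProjection_eq_self_iff.mpr (hv b (by simp)),
        h2 v fun a ha => hv a (by simp [ha])]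
    · by_cases hab : a = b
      · subst hab
        rw [Submodule.starProjection_eq_self_iff.mpr (Submodule.starProjection_apply_mem _ _)]
        simp only [sub_self, norm_zero]; positivity
      have h4 := h3 a (by simpa [hab] using ha)
      have h5 := angle_PP hε (h a b) y
      have h6 := angle_PP hε (h b a) y
      have e0 : (V b ⊓ V a).starProjection y = (V a ⊓ V b).starProjection y := by
        simp only [inf_comm (V b) (V a)]
      rw [e0] at h6
      have e : (V b).starProjection y - (V a).starProjection ((V b).starProjection y) =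
          (V b).starProjection (y - (V a).starProjection y) +
          ((V b).starProjection ((V a).starProjection y) - (V a ⊓ V b).starProjection y) -
          ((V a).starProjection ((V b).starProjection y) - (V a ⊓ V b).starProjection y) := by
        rw [map_sub]; abel
      rw [e, Finset.card_insert_of_notMem hb]
      refine (norm_sub_le _ _).trans ?_
      have h7 := norm_add_le ((V b).starProjection (y - (V a).starProjection y))
        ((V b).starProjection ((V a).starProjection y) - (V a ⊓ V b).starProjection y)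
      have h8 := Submodule.norm_starProjection_apply_le (K := V b) (y - (V a).starProjection y)
      have h9 : ε * ‖y‖ ≤ ε * ‖u‖ := mul_le_mul_of_nonneg_left h1 hε
      push_cast
      nlinarith

end AngleAux

theorem angle (n : ℕ) (lam : ℝ) (hlam : 0 < lam) : ∃ ε : ℝ, 0 < ε ∧
    ∀ (E : Type) [NormedAddCommGroup E] [InnerProductSpace ℝ E] [FiniteDimensional ℝ E]
      (I : Type) [Fintype I] [DecidableEq I] (V : I → Submodule ℝ E), Fintype.card I ≤ n →
      (∀ a b, ∀ u ∈ V a, u ∈ (V a ⊓ V b)ᗮ → ∀ v ∈ V b, ⟪u, v⟫ ≤ ε * (‖u‖ * ‖v‖)) →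
      ∀ S S' : Finset I, ∀ u ∈ ⨅ a ∈ S, V a, u ∈ (⨅ a ∈ S ∪ S', V a)ᗮ →
        ∀ v ∈ ⨅ a ∈ S', V a, ⟪u, v⟫ ≤ lam * (‖u‖ * ‖v‖) := by
  refine ⟨min (1 / (12 * (n + 1))) (lam / (3 * (n + 1) ^ 2)), by positivity, ?_⟩
  intro E _ _ _ I _ _ V hn h S S' u hu hu' v hv
  set ε : ℝ := min (1 / (12 * (n + 1))) (lam / (3 * (n + 1) ^ 2)) with hεd
  have hε : 0 < ε := by positivity
  have hn0 : (0 : ℝ) ≤ n := Nat.cast_nonneg n
  have h1 : ε * (12 * (n + 1)) ≤ 1 := by
    rw [← le_div_iff₀ (by positivity)]; exact min_le_left _ _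
  have h2 : ε * (3 * (n + 1) ^ 2) ≤ lam := by
    rw [← le_div_iff₀ (by positivity)]; exact min_le_right _ _
  have hc : ∀ T : Finset I, (T.card : ℝ) ≤ n := fun T => by
    exact_mod_cast (Finset.card_le_univ T).trans hn
  obtain ⟨y, -, y2, y3⟩ := angle_push V hε.le h u S'
  simp only [Submodule.mem_iInf] at hu hv
  have y4 : y ∈ (⨅ a ∈ S ∪ S', V a)ᗮ := by
    intro w hw
    rw [real_inner_comm, y2 w fun a ha => ?_, real_inner_comm]
    · exact hu' w hw
    · simp only [Submodule.mem_iInf] at hw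
      exact hw a (by simp [ha])
  have h3 := angle_gap V hε.le (by nlinarith) h (S ∪ S') (by nlinarith [hc (S ∪ S')]) y y4
  have h4 : ∑ a ∈ S ∪ S', ‖y - (V a).starProjection y‖ ^ 2 ≤
      ∑ a ∈ S ∪ S', (2 * ε * (n + 1) * ‖u‖) ^ 2 := Finset.sum_le_sum fun a ha => by
    refine pow_le_pow_left₀ (norm_nonneg _) ((y3 a ?_).trans ?_) 2
    · rcases Finset.mem_union.mp ha with ha | ha
      exacts [Or.inr (hu a ha), Or.inl ha]
    · gcongr; linarith [hc S']
  rw [Finset.sum_const, nsmul_eq_mul] at h4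
  have h5 : ‖y‖ ≤ lam * ‖u‖ := by
    refine (pow_le_pow_iff_left₀ (norm_nonneg _) (by positivity) two_ne_zero).mp ?_
    have h6 : ((S ∪ S').card : ℝ) * (2 * ε * (n + 1) * ‖u‖) ^ 2 ≤
        (n + 1) ^ 2 * (2 * ε * (n + 1) * ‖u‖) ^ 2 := by
      gcongr; nlinarith [hc (S ∪ S')]
    have h7 : (ε * (3 * (n + 1) ^ 2) * ‖u‖) ^ 2 ≤ (lam * ‖u‖) ^ 2 := by gcongr
    have h8 : 0 ≤ (ε * (n + 1) ^ 2 * ‖u‖) ^ 2 := by positivity
    nlinarith
  rw [← y2 v hv, ← mul_assoc]
  exact (real_inner_le_norm _ _).trans (mul_le_mul_of_nonneg_right h5 (norm_nonneg _))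

end Crest.Agent.R66
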