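import Crest.Agent.R66.Defs

/-! Basic calculus of invariant cochains. -/
set_option autoImplicit false
set_option linter.unusedSectionVars false
namespace Crest.Agent.R66
open Finset

variable {I G M : Type} [DecidableEq I] [Group G] [AddCommGroup M]

theorem add_self2 [Module (ZMod 2) M] (x : M) : x + x = 0 := by
  have h : (1 : ZMod 2) + 1 = 0 := by decide
  calc x + x = ((1 : ZMod 2) + 1) • x := by rw [add_smul, one_smul]
    _ = 0 := by rw [h, zero_smul]

theorem neg_self2 [Module (ZMod 2) M] (x : M) : -x = x := by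
  rw [neg_eq_iff_add_eq_zero]; exact add_self2 x

theorem sub_eq_add2 [Module (ZMod 2) M] (x y : M) : x - y = x + y := by
  rw [sub_eq_add_neg, neg_self2]

theorem dW_dW {W : Type} [DecidableEq W] [Module (ZMod 2) M] (φ : Finset W → M) (τ : Finset W) :
    dW (dW φ) τ = 0 := by
  unfold dW
  have : ∑ v ∈ τ, ∑ w ∈ τ.erase v, φ ((τ.erase v).erase w)
      = ∑ x ∈ τ.offDiag, φ ((τ.erase x.1).erase x.2) := by
    rw [Finset.sum_sigma']
    refine Finset.sum_bij' (fun x _ => (x.1, x.2)) (fun x _ => ⟨x.1, x.2⟩) ?_ ?_ ?_ ?_ ?_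
    · intro x hx
      simp only [mem_sigma, mem_erase] at hx
      simp only [mem_offDiag]
      exact ⟨hx.1, hx.2.2, fun h => hx.2.1 h.symm⟩
    · intro x hx
      simp only [mem_offDiag] at hx
      simp only [mem_sigma, mem_erase]
      exact ⟨hx.1, fun h => hx.2.2 h.symm, hx.2.1⟩
    · intro x _; rfl
    · intro x _; rfl
    · intro x _; rfl
  rw [this]
  refine Finset.sum_involution (fun x _ => x.swap) ?_ ?_ ?_ ?_
  · intro x _
    simp only [Prod.fst_swap, Prod.snd_swap]
    rw [Finset.erase_right_comm (a := x.2)]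
    exact add_self2 _
  · intro x hx _ h
    simp only [mem_offDiag] at hx
    exact hx.2.2 (congrArg Prod.snd h)
  · intro x hx
    simp only [mem_offDiag, Prod.fst_swap, Prod.snd_swap] at hx ⊢
    exact ⟨hx.2.1, hx.1, fun h => hx.2.2 h.symm⟩
  · intro x _; rfl

theorem dl_dl [Module (ZMod 2) M] (f : Finset I → G → M) (J : Finset I) (g : G) :
    dl (dl f) J g = 0 := dW_dW (fun J => f J g) J

theorem dl_add (f f' : Finset I → G → M) : dl (f + f') = dl f + dl f' := by
  funext J g; simp [dl, Finset.sum_add_distrib]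

theorem dl_sub (f f' : Finset I → G → M) : dl (f - f') = dl f - dl f' := by
  funext J g; simp [dl, Finset.sum_sub_distrib]

theorem dl_zero : dl (0 : Finset I → G → M) = 0 := by
  funext J g; simp [dl]

theorem dl_empty (f : Finset I → G → M) (g : G) : dl f ∅ g = 0 := by simp [dl]

variable {K : I → Subgroup G} {H H' : Subgroup G}

theorem Inv.dl {f : Finset I → G → M} (h : Inv K H f) : Inv K H (dl f) := by
  intro J g k hk hJ
  exact Finset.sum_congr rfl fun j _ => h _ g k hk fun i hi => hJ i (mem_of_mem_erase hi)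

theorem Inv.add {f f' : Finset I → G → M} (h : Inv K H f) (h' : Inv K H f') : Inv K H (f + f') := by
  intro J g k hk hJ
  simp only [Pi.add_apply, h J g k hk hJ, h' J g k hk hJ]

theorem Inv.sub {f f' : Finset I → G → M} (h : Inv K H f) (h' : Inv K H f') : Inv K H (f - f') := by
  intro J g k hk hJ
  simp only [Pi.sub_apply, h J g k hk hJ, h' J g k hk hJ]

theorem Inv.zero : Inv K H (0 : Finset I → G → M) := fun _ _ _ _ _ => rfl

theorem Inv.mono {N : Type} {f : Finset I → G → N} (h : Inv K H f) (hle : H' ≤ H) : Inv K H' f :=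
  fun J g k hk hJ => h J g k (hle hk) hJ

theorem Inv.transl {N : Type} {f : Finset I → G → N} (h : Inv K H f) (x : G) :
    Inv K H (fun J g => f J (x * g)) := by
  intro J g k hk hJ
  show f J (x * (g * k)) = f J (x * g)
  rw [← mul_assoc]; exact h J _ k hk hJ

theorem Inv.sum {ι : Type} (s : Finset ι) {f : ι → Finset I → G → M} (h : ∀ i ∈ s, Inv K H (f i)) :
    Inv K H (fun J g => ∑ i ∈ s, f i J g) := by
  intro J g k hk hJ
  exact Finset.sum_congr rfl fun i hi => h i hi J g k hk hJ

variable {A A' : Finset I → G → Prop} {m : ℕ}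

theorem Cocyc.mono {f : Finset I → G → M} (h : Cocyc A m f) (hA : ∀ J g, A' J g → A J g) :
    Cocyc A' m f := fun J g hJ ha => h J g hJ (hA J g ha)

theorem Cocyc.dl [Module (ZMod 2) M] (f : Finset I → G → M) : Cocyc A m (dl f) :=
  fun J g _ _ => dl_dl f J g

theorem Cocyc.sub {f f' : Finset I → G → M} (h : Cocyc A m f) (h' : Cocyc A m f') :
    Cocyc A m (f - f') := by
  intro J g hJ ha
  rw [dl_sub, Pi.sub_apply, Pi.sub_apply, h J g hJ ha, h' J g hJ ha, sub_zero]

theorem Cocyc.add {f f' : Finset I → G → M} (h : Cocyc A m f) (h' : Cocyc A m f') :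
    Cocyc A m (f + f') := by
  intro J g hJ ha
  rw [dl_add, Pi.add_apply, Pi.add_apply, h J g hJ ha, h' J g hJ ha, add_zero]

theorem Cocyc.transl {T : Finset I} {f : Finset I → G → M} (h : Cocyc (full H T) m f) {x : G}
    (hx : x ∈ H) : Cocyc (full H T) m (fun J g => f J (x * g)) :=
  fun J g hJ ha => h J (x * g) hJ ⟨ha.1, H.mul_mem hx ha.2.1, fun _ _ => trivial⟩

theorem full_mono {T T' : Finset I} (hH : H' ≤ H) (hT : T' ⊆ T) (J : Finset I) (g : G)
    (h : full H' T' J g) : full H T J g := ⟨h.1.trans hT, hH h.2.1, fun _ _ => trivial⟩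

theorem Cob.mono {f : Finset I → G → M} (h : Cob K H A m f) (hH : H' ≤ H)
    (hA : ∀ J g, A' J g → A J g) : Cob K H' A' m f := by
  obtain ⟨y, hy, e⟩ := h
  exact ⟨y, hy.mono hH, fun J g hJ ha => e J g hJ (hA J g ha)⟩

theorem Cob.congr {f f' : Finset I → G → M} (h : Cob K H A m f)
    (e : ∀ J g, J.card = m → A J g → f' J g = f J g) : Cob K H A m f' := by
  obtain ⟨y, hy, e'⟩ := h
  exact ⟨y, hy, fun J g hJ ha => (e J g hJ ha).trans (e' J g hJ ha)⟩

theorem Cob.zero : Cob K H A m (0 : Finset I → G → M) :=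
  ⟨0, Inv.zero, fun J g _ _ => by rw [dl_zero]⟩

theorem Cob.of_dl {y : Finset I → G → M} (hy : Inv K H y) : Cob K H A m (dl y) :=
  ⟨y, hy, fun _ _ _ _ => rfl⟩

theorem Cob.add {f f' : Finset I → G → M} (h : Cob K H A m f) (h' : Cob K H A m f') :
    Cob K H A m (f + f') := by
  obtain ⟨y, hy, e⟩ := h
  obtain ⟨y', hy', e'⟩ := h'
  refine ⟨y + y', hy.add hy', fun J g hJ ha => ?_⟩
  rw [dl_add, Pi.add_apply, Pi.add_apply, Pi.add_apply, Pi.add_apply, e J g hJ ha, e' J g hJ ha]

theorem Cob.sub {f f' : Finset I → G → M} (h : Cob K H A m f) (h' : Cob K H A m f') :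
    Cob K H A m (f - f') := by
  obtain ⟨y, hy, e⟩ := h
  obtain ⟨y', hy', e'⟩ := h'
  refine ⟨y - y', hy.sub hy', fun J g hJ ha => ?_⟩
  rw [dl_sub, Pi.sub_apply, Pi.sub_apply, Pi.sub_apply, Pi.sub_apply, e J g hJ ha, e' J g hJ ha]

theorem Cob.sum {ι : Type} (s : Finset ι) {f : ι → Finset I → G → M}
    (h : ∀ i ∈ s, Cob K H A m (f i)) : Cob K H A m (fun J g => ∑ i ∈ s, f i J g) := by
  classical
  induction s using Finset.induction_on with
  | empty => exact Cob.zero.congr fun J g _ _ => by simp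
  | insert a s ha ih =>
    refine ((h a (mem_insert_self _ _)).add (ih fun i hi => h i (mem_insert_of_mem hi))).congr ?_
    intro J g _ _
    rw [Finset.sum_insert ha]; rfl

theorem Cob.transl {T : Finset I} {f : Finset I → G → M} (h : Cob K H (full H T) m f) {x : G}
    (hx : x ∈ H) : Cob K H (full H T) m (fun J g => f J (x * g)) := by
  obtain ⟨y, hy, e⟩ := h
  exact ⟨fun J g => y J (x * g), hy.transl x,
    fun J g hJ ha => e J (x * g) hJ ⟨ha.1, H.mul_mem hx ha.2.1, fun _ _ => trivial⟩⟩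

theorem Ex.congr (h : Ex M K H A m) (e : ∀ J g, A' J g ↔ A J g) : Ex M K H A' m :=
  fun f hf hc => (h f hf (hc.mono fun J g => (e J g).2)).mono le_rfl fun J g => (e J g).1

theorem KJ_empty : KJ K ∅ = ⊤ := by ext; simp [mem_KJ]
theorem KJ_singleton (j : I) : KJ K {j} = K j := by ext; simp [mem_KJ]
theorem KJ_anti {J J' : Finset I} (h : J ⊆ J') : KJ K J' ≤ KJ K J :=
  fun _ hg => mem_KJ.2 fun j hj => mem_KJ.1 hg j (h hj)

theorem alw_mul {T : Finset I} {ok : I → G → Prop} (hok : OkInv K H T ok) {J : Finset I} {g k : G}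
    (hk : k ∈ H) (hJ : ∀ j ∈ J, k ∈ K j) : alw H T ok J (g * k) ↔ alw H T ok J g := by
  constructor
  · rintro ⟨h1, h2, h3⟩
    have hg : g ∈ H := by simpa using H.mul_mem h2 (H.inv_mem hk)
    exact ⟨h1, hg, fun j hj => (hok j (h1 hj) g hg k hk (hJ j hj)).1 (h3 j hj)⟩
  · rintro ⟨h1, h2, h3⟩
    exact ⟨h1, H.mul_mem h2 hk, fun j hj => (hok j (h1 hj) g h2 k hk (hJ j hj)).2 (h3 j hj)⟩

theorem alw_subset {T : Finset I} {ok : I → G → Prop} {J J' : Finset I} {g : G}
    (h : alw H T ok J g) (hJ : J' ⊆ J) : alw H T ok J' g :=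
  ⟨hJ.trans h.1, h.2.1, fun j hj => h.2.2 j (hJ hj)⟩

theorem okInv_true (T : Finset I) : OkInv K H T (fun _ _ => True) := fun _ _ _ _ _ _ _ => Iff.rfl

/-- exactness in cardinality zero only needs one type -/
theorem ex_zero {T : Finset I} (hT : T.Nonempty) : Ex M K H (full H T) 0 := by
  intro f _ hc
  obtain ⟨j, hj⟩ := hT
  refine Cob.zero.congr fun J g hJ ha => ?_
  obtain rfl := Finset.card_eq_zero.1 hJ
  have := hc {j} g (by simp) ⟨by simpa using hj, ha.2.1, fun _ _ => trivial⟩
  simpa [dl] using this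

/-- the coefficient field containing all roots of unity of odd order -/
abbrev FF : Type := AlgebraicClosure (ZMod 2)

/-- the constants produced by `coneP` -/
def ConeConst (r N κ : ℕ) : Prop :=
  ∀ (W : Type) [DecidableEq W] (lt : W → W → Prop) (ty : W → ℕ) (val : W → Prop) (r' : ℕ),
    r' ≤ r → TPos lt ty val r' → Gen lt ty val N → ∀ ρ : Finset W, Frame lt ty val r' ρ →
      PCone lt val ρ (r' + 2 - ρ.card) κ

/-- Heisenberg commutation relation -/
def Heis {p : ℕ} (x y : ZMod p → G) : Prop :=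
  ∃ z : ZMod p → G, (∀ a b, z (a + b) = z a * z b) ∧ (∀ a b, Commute (z a) (x b)) ∧
    (∀ a b, Commute (z a) (y b)) ∧ ∀ a b, x a * y b = y b * x a * z (a * b)

/-- maximal level of a vertex of the simplex `(J, g)` -/
def mxl (lam : I → G → ℕ) (J : Finset I) (g : G) : ℕ := J.sup fun j => lam j g

/-- the vertices of maximal level -/
def tp (lam : I → G → ℕ) (J : Finset I) (g : G) : Finset I := J.filter fun j => lam j g = mxl lam J g

/-- lexicographic level (maximal vertex level, number of vertices attaining it) -/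
def lev (T : Finset I) (lam : I → G → ℕ) (J : Finset I) (g : G) : ℕ :=
  mxl lam J g * (T.card + 1) + (tp lam J g).card

end Crest.Agent.R66
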