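import Crest.Agent.R66.Shell

/-! Task R66-ConeJoin: cones, redundant types, joins. -/
set_option autoImplicit false
set_option linter.unusedSectionVars false
namespace Crest.Agent.R66
open Finset

variable {I G M : Type} [DecidableEq I] [Group G] [AddCommGroup M] [Module (ZMod 2) M]
  {K : I → Subgroup G} {H : Subgroup G} {T : Finset I}

/- PLAN: cone with apex the vertex `x K_a`.  `y J g := f (insert a J) g'` for allowed `(J,g)` with `a ∉ J`, `g'` as
in `h1` (the value does not depend on the choice: two choices differ by `H ⊓ K_J ⊓ K_a`); `0` otherwise.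
If `a ∈ J` only the face `J.erase a` contributes, and `g` itself is an admissible `g'` (h2).  If `a ∉ J`
use the cocycle condition at `(insert a J, g')` (`g'` is admissible for all faces). -/
theorem ex_cone {ok : I → G → Prop} (hok : OkInv K H T ok) {a : I} (ha : a ∈ T) (x : G)
    (h1 : ∀ J g, alw H T ok J g → a ∉ J →
      ∃ g' ∈ H, (∀ j ∈ J, g⁻¹ * g' ∈ K j) ∧ x⁻¹ * g' ∈ K a ∧ ok a g')
    (h2 : ∀ g ∈ H, ok a g → x⁻¹ * g ∈ K a) (m : ℕ) : Ex M K H (alw H T ok) m := by
  classical
  intro f hf hc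
  choose! γ hγH hγJ hγa hγok using h1
  let y : Finset I → G → M := fun J g =>
    if alw H T ok J g ∧ a ∉ J then f (insert a J) (γ J g) else 0
  have key : ∀ J g, alw H T ok J g → a ∉ J → ∀ g' ∈ H, (∀ j ∈ J, g⁻¹ * g' ∈ K j) →
      x⁻¹ * g' ∈ K a → y J g = f (insert a J) g' := by
    intro J g hA haJ g' hg' h3 h4
    have e : g' = γ J g * ((γ J g)⁻¹ * g') := by group
    simp only [y, hA, haJ, not_false_eq_true, and_self, if_true]
    rw [e]
    refine (hf _ _ _ (H.mul_mem (H.inv_mem (hγH J g hA haJ)) hg') fun j hj => ?_).symm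
    rcases Finset.mem_insert.1 hj with rfl | hj
    · have : (γ J g)⁻¹ * g' = (x⁻¹ * γ J g)⁻¹ * (x⁻¹ * g') := by group
      rw [this]
      exact (K j).mul_mem ((K j).inv_mem (hγa J g hA haJ)) h4
    · have : (γ J g)⁻¹ * g' = (g⁻¹ * γ J g)⁻¹ * (g⁻¹ * g') := by group
      rw [this]
      exact (K j).mul_mem ((K j).inv_mem (hγJ J g hA haJ j hj)) (h3 j hj)
  refine ⟨y, ?_, ?_⟩
  · intro J g k hk hJ
    by_cases h : alw H T ok J g ∧ a ∉ J
    · rw [key J g h.1 h.2 _ (hγH J g h.1 h.2) (hγJ J g h.1 h.2) (hγa J g h.1 h.2)]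
      refine key J (g * k) ((alw_mul hok hk hJ).2 h.1) h.2 _ (hγH J g h.1 h.2) (fun j hj => ?_)
        (hγa J g h.1 h.2)
      have : (g * k)⁻¹ * γ J g = k⁻¹ * (g⁻¹ * γ J g) := by group
      rw [this]
      exact (K j).mul_mem ((K j).inv_mem (hJ j hj)) (hγJ J g h.1 h.2 j hj)
    · have h' : ¬ (alw H T ok J (g * k) ∧ a ∉ J) := fun h' =>
        h ⟨(alw_mul hok hk hJ).1 h'.1, h'.2⟩
      simp only [y, h, h', if_false]
  · intro J g hJ hA
    by_cases haJ : a ∈ J
    · rw [dl, Finset.sum_eq_single a]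
      · rw [key (J.erase a) g (alw_subset hA (Finset.erase_subset _ _)) (Finset.notMem_erase _ _) g
          hA.2.1 (fun j _ => by simp) (h2 g hA.2.1 (hA.2.2 a haJ)), Finset.insert_erase haJ]
      · intro j _ hja
        have : a ∈ J.erase j := Finset.mem_erase.2 ⟨hja.symm, haJ⟩
        simp only [y, this, not_true_eq_false, and_false, if_false]
      · intro h
        exact absurd haJ h
    · have hg' := hγH J g hA haJ
      have h3 := hγJ J g hA haJ
      have h4 := hγa J g hA haJ
      have h5 := hγok J g hA haJ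
      set g' := γ J g with hg'def
      have hk : g⁻¹ * g' ∈ H := H.mul_mem (H.inv_mem hA.2.1) hg'
      have e : g * (g⁻¹ * g') = g' := by group
      have hA' : alw H T ok J g' := by
        rw [← e]
        exact (alw_mul hok hk h3).2 hA
      have hA'' : alw H T ok (insert a J) g' := by
        refine ⟨Finset.insert_subset ha hA.1, hg', fun j hj => ?_⟩
        rcases Finset.mem_insert.1 hj with rfl | hj
        · exact h5
        · exact hA'.2.2 j hj
      have h0 := hc (insert a J) g' (by rw [Finset.card_insert_of_notMem haJ, hJ]) hA''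
      rw [dl, Finset.sum_insert haJ, Finset.erase_insert haJ] at h0
      have e1 : f J g' = f J g := by
        rw [← e]
        exact hf J g _ hk h3
      have e2 : ∑ j ∈ J, f ((insert a J).erase j) g' = dl y J g := by
        refine Finset.sum_congr rfl fun j hj => ?_
        have hja : a ≠ j := fun h => haJ (h ▸ hj)
        rw [Finset.erase_insert_of_ne hja]
        exact (key (J.erase j) g (alw_subset hA (Finset.erase_subset _ _))
          (fun h => haJ (Finset.mem_of_mem_erase h)) g' hg'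
          (fun i hi => h3 i (Finset.mem_of_mem_erase hi)) h4).symm
      rw [e1, e2] at h0
      rw [eq_neg_of_add_eq_zero_left h0, neg_self2]

open Classical in
/-- a `0/1` level function -/
private noncomputable def ConeJoin_lam (q : I → G → Prop) : I → G → ℕ :=
  fun i g => if q i g then 1 else 0

private theorem ConeJoin_lev_lt (q : I → G → Prop) {J : Finset I} {g : G}
    (h : lev T (ConeJoin_lam q) J g < T.card + 2) : ∀ j ∈ J, ¬ q j g := by
  intro j hj hq
  have h1 : mxl (ConeJoin_lam q) J g = 1 := by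
    apply le_antisymm
    · refine Finset.sup_le fun i _ => ?_
      unfold ConeJoin_lam
      split_ifs <;> omega
    · have := Finset.le_sup (f := fun i => ConeJoin_lam q i g) hj
      simpa [ConeJoin_lam, hq, mxl] using this
  have h2 : j ∈ tp (ConeJoin_lam q) J g := by
    rw [tp, Finset.mem_filter, h1]
    exact ⟨hj, by simp [ConeJoin_lam, hq]⟩
  have h3 : 0 < (tp (ConeJoin_lam q) J g).card := Finset.card_pos.2 ⟨j, h2⟩
  rw [lev, h1] at h
  omega

private theorem ConeJoin_link (q : I → G → Prop) {a : I} (hq : ∀ j g, q j g → j = a)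
    {ρ : Finset I} (hρ : ρ ⊆ T) (hne : ρ.Nonempty) {g : G} {c : ℕ}
    (hc : ∀ j ∈ ρ, ConeJoin_lam q j g = c) (hL : T.card + 2 ≤ c * (T.card + 1) + ρ.card) :
    c = 1 ∧ ρ = {a} := by
  have h0 : c ≠ 0 := by
    rintro rfl
    have := Finset.card_le_card hρ
    omega
  have key : ∀ j ∈ ρ, j = a ∧ c = 1 := by
    intro j hj
    have := hc j hj
    unfold ConeJoin_lam at this
    split_ifs at this with h
    · exact ⟨hq j g h, this.symm⟩
    · exact absurd this.symm h0
  obtain ⟨j, hj⟩ := hne
  refine ⟨(key j hj).2, Finset.eq_singleton_iff_nonempty_unique_mem.2 ⟨⟨j, hj⟩, ?_⟩⟩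
  exact fun i hi => (key i hi).1

private theorem ConeJoin_fin {A : Finset I → G → Prop} {m : ℕ} {f y₀ y : Finset I → G → M}
    (hy₀ : Inv K H y₀) (hy : Inv K H y)
    (e : ∀ J g, J.card = m → A J g → (f - dl y₀) J g = dl y J g) : Cob K H A m f := by
  refine ⟨y₀ + y, hy₀.add hy, fun J g hJ ha => ?_⟩
  have := e J g hJ ha
  rw [Pi.sub_apply, Pi.sub_apply, sub_eq_iff_eq_add'] at this
  rw [dl_add, Pi.add_apply, Pi.add_apply, this]

/- PLAN: subtract `dl y₀`; `shell` with `lam i _ = if i = a then 1 else 0`, `L₀ = T.card + 2`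
(`L₀ ≤ lev ↔ a ∈ J`); the links (`ρ = {a}`) are cones with apex `K_b` (`ex_cone`, `x = 1`, `g' = g`). -/
theorem cob_of_red1 [Finite G] {a b : I} (ha : a ∈ T) (hb : b ∈ T) (hab : b ≠ a)
    (hK : ∀ k ∈ H, k ∈ K a → k ∈ K b) {m : ℕ} {f : Finset I → G → M} (hf : Inv K H f)
    (hc : Cocyc (full H T) m f) (h : Cob K H (full H (T.erase a)) m f) :
    Cob K H (full H T) m f := by
  obtain ⟨y₀, hy₀, e₀⟩ := h
  obtain ⟨y, hy, -, e⟩ := shell (K := K) (H := H) (T := T) (ok := fun _ _ => True)
    (lam := ConeJoin_lam fun i (_ : G) => i = a) (okInv_true _) (fun _ _ _ _ _ _ _ => rfl)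
    (L₀ := T.card + 2) (by omega) (m := m) (f := f - dl y₀) (by
      intro ρ g₀ c hA hne hcst hL hρm
      obtain ⟨rfl, rfl⟩ := ConeJoin_link (a := a) _ (fun _ _ h => h) hA.1 hne hcst hL
      have hb' : b ∈ T \ {a} := Finset.mem_sdiff.2 ⟨hb, by simpa using hab⟩
      have hKb : ∀ g ∈ H ⊓ KJ K {a}, (1 : G)⁻¹ * g ∈ K b := by
        intro g hg
        rw [inv_one, one_mul]
        exact hK g hg.1 (mem_KJ.1 hg.2 a (Finset.mem_singleton_self a))
      refine ex_cone (fun _ _ _ _ _ _ _ => Iff.rfl) hb' 1 ?_ (fun g hg _ => hKb g hg) _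
      intro J g hJ _
      refine ⟨g, hJ.2.1, fun j _ => by simp, hKb g hJ.2.1, trivial, ?_⟩
      simp [ConeJoin_lam, hab])
    (hf.sub hy₀.dl) (hc.sub (Cocyc.dl _)) (by
      intro J g hJ hA hlt
      have hq := ConeJoin_lev_lt _ hlt
      have hJ' : J ⊆ T.erase a := fun j hj => Finset.mem_erase.2 ⟨hq j hj, hA.1 hj⟩
      rw [Pi.sub_apply, Pi.sub_apply, e₀ J g hJ ⟨hJ', hA.2.1, fun _ _ => trivial⟩, sub_self])
  exact ConeJoin_fin hy₀ hy e

/- PLAN: induction on `τ` (generalising `T`), `cob_of_red1`. -/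
theorem cob_of_red [Finite G] {τ : Finset I}
    (hτ : ∀ a ∈ τ, ∃ b ∈ T, b ∉ τ ∧ ∀ k ∈ H, k ∈ K a → k ∈ K b) {m : ℕ} {f : Finset I → G → M}
    (hf : Inv K H f) (hc : Cocyc (full H T) m f) (h : Cob K H (full H (T \ τ)) m f) :
    Cob K H (full H T) m f := by
  induction τ using Finset.induction_on with
  | empty => simpa using h
  | insert a τ haτ ih =>
    refine ih (fun a' ha' => ?_) ?_
    · obtain ⟨b, h1, h2, h3⟩ := hτ a' (Finset.mem_insert_of_mem ha')
      exact ⟨b, h1, fun h => h2 (Finset.mem_insert_of_mem h), h3⟩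
    · by_cases haT : a ∈ T
      · obtain ⟨b, h1, h2, h3⟩ := hτ a (Finset.mem_insert_self _ _)
        refine cob_of_red1 (a := a) (b := b) (Finset.mem_sdiff.2 ⟨haT, haτ⟩)
          (Finset.mem_sdiff.2 ⟨h1, fun h => h2 (Finset.mem_insert_of_mem h)⟩)
          (fun h => h2 (h ▸ Finset.mem_insert_self _ _)) h3 hf
          (hc.mono (full_mono le_rfl Finset.sdiff_subset)) ?_
        rwa [← Finset.sdiff_insert]
      · rwa [Finset.sdiff_insert_of_notMem haT] at h

/- PLAN: induction on `T` (generalising `H`, `m`).  Pick `a ∈ T`.  The subcomplex with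
`ok i g := (i = a → g ∈ K a)` is a cone with apex `K_a` (`hj` applied to `τ = J`, `k = g⁻¹`, `g' = g k'`).
Subtract, then `shell` with `lam i g = if i = a ∧ g ∉ K a then 1 else 0`, `L₀ = T.card + 2`; the links
(`ρ = {a}`) are the full complexes of `(H ⊓ K_a, T.erase a)`, which again satisfy `hj` (use `insert a τ`). -/
theorem ex_join [Finite G]
    (hj : ∀ τ ⊆ T, ∀ a ∈ T, a ∉ τ → ∀ k ∈ H, ∃ k' ∈ H, (∀ b ∈ τ, k' ∈ K b) ∧ k'⁻¹ * k ∈ K a)
    {m : ℕ} (hm : m < T.card) : Ex M K H (full H T) m := by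
  induction T using Finset.induction_on generalizing H m with
  | empty => simp at hm
  | insert a T haT ih =>
    intro f hf hc
    have ha : a ∈ insert a T := Finset.mem_insert_self _ _
    have hok : OkInv K H (insert a T) (fun i g => i = a → g ∈ K a) := by
      intro j _ g _ k _ hk
      refine forall_congr' fun hja => ?_
      subst hja
      exact (K j).mul_mem_cancel_right hk
    obtain ⟨y₀, hy₀, e₀⟩ := ex_cone (M := M) hok ha 1 (by
      intro J g hA haJ
      obtain ⟨k', h1, h2, h3⟩ := hj J hA.1 a ha haJ g⁻¹ (H.inv_mem hA.2.1)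
      have h4 : g * k' ∈ K a := by
        have : g * k' = (k'⁻¹ * g⁻¹)⁻¹ := by group
        rw [this]
        exact (K a).inv_mem h3
      refine ⟨g * k', H.mul_mem hA.2.1 h1, fun j hj => ?_, by simpa using h4, fun _ => h4⟩
      rw [inv_mul_cancel_left]
      exact h2 j hj) (fun g _ h => by simpa using h rfl) m f hf
      (hc.mono fun J g hA => ⟨hA.1, hA.2.1, fun _ _ => trivial⟩)
    obtain ⟨y, hy, -, e⟩ := shell (K := K) (H := H) (T := insert a T) (ok := fun _ _ => True)
      (lam := ConeJoin_lam fun i g => i = a ∧ g ∉ K a) (okInv_true _) (by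
        intro j _ g _ k _ hk
        have : (j = a ∧ g * k ∉ K a) ↔ (j = a ∧ g ∉ K a) := by
          refine and_congr_right fun hja => ?_
          subst hja
          rw [(K j).mul_mem_cancel_right hk]
        unfold ConeJoin_lam
        by_cases h : j = a ∧ g ∉ K a
        · rw [if_pos h, if_pos (this.2 h)]
        · rw [if_neg h, if_neg (fun h' => h (this.1 h'))])
      (L₀ := (insert a T).card + 2) (by omega) (m := m) (f := f - dl y₀) (by
        intro ρ g₀ c hA hne hcst hL hρm
        obtain ⟨rfl, rfl⟩ := ConeJoin_link (a := a) _ (fun _ _ h => h.1) hA.1 hne hcst hL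
        rw [Finset.card_insert_of_notMem haT] at hm
        rw [Finset.card_singleton] at hρm ⊢
        refine (ih (H := H ⊓ KJ K {a}) (m := m - 1) ?_ (by omega)).congr ?_
        · intro τ hτ a' ha' haτ k hk
          have hne : a' ≠ a := fun h => haT (h ▸ ha')
          obtain ⟨k', h1, h2, h3⟩ := hj (insert a τ) (Finset.insert_subset_insert _ hτ) a'
            (Finset.mem_insert_of_mem ha') (by simp [hne, haτ]) k hk.1
          refine ⟨k', ⟨h1, mem_KJ.2 fun j hj => ?_⟩,
            fun b hb => h2 b (Finset.mem_insert_of_mem hb), h3⟩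
          rw [Finset.mem_singleton.1 hj]
          exact h2 a (Finset.mem_insert_self _ _)
        · intro J g
          have hT : insert a T \ {a} = T := by
            rw [Finset.sdiff_singleton_eq_erase, Finset.erase_insert haT]
          rw [hT]
          constructor
          · exact fun h => ⟨h.1, h.2.1, fun _ _ => trivial⟩
          · refine fun h => ⟨h.1, h.2.1, fun j hj => ⟨trivial, ?_⟩⟩
            have hne : j ≠ a := fun h' => haT (h' ▸ h.1 hj)
            simp [ConeJoin_lam, hne])
      (hf.sub hy₀.dl) (hc.sub (Cocyc.dl _)) (by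
        intro J g hJ hA hlt
        have hq := ConeJoin_lev_lt _ hlt
        rw [Pi.sub_apply, Pi.sub_apply, e₀ J g hJ ⟨hA.1, hA.2.1, fun j hj hja => ?_⟩, sub_self]
        by_contra h
        exact hq j hj ⟨hja, h⟩)
    exact ConeJoin_fin hy₀ hy e

end Crest.Agent.R66
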