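import Crest.Agent.R66.Basic

/-! Task R66-ConeP: bounded cone functions on links in typed posets with generic raising. -/
set_option autoImplicit false
set_option linter.unusedSectionVars false
namespace Crest.Agent.R66
open Finset

/-
PLAN.  Chains are `Multiset (Finset W)`; `z` is a *cycle* if `(z.map (dW ψ)).sum = 0` for all
`M`, `ψ : Finset W → M` (M a `ZMod 2`-module, Type 0), `c` *fills* `z` if
`(c.map (dW φ)).sum = (z.map φ).sum` for all `M`, `φ`.  (`dW_dW`, `add_self2` are in Basic.)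
(1) CONE: `z` cycle, `x ∉ σ` for all `σ ∈ z`  ⇒ `z.map (insert x)` fills `z`
    (`dW φ (insert x σ) = φ σ + dW (φ ∘ insert x) σ`).
(2) link cycle: `z_u := (z.filter (u ∈ ·)).map (·.erase u)` is a cycle (test function
    `ψ̂ σ = if u ∈ σ then ψ (σ.erase u) else 0`).
(3) PUSH: `P : W → Prop` (vertices of a given type; every `σ ∈ z` has at most one `P`-vertex),
    `U` = finite set of `P`-vertices occurring in `z`, `c_u` fills `z_u`, `u ∉ τ` for `τ ∈ c_u`.  Then
    `C = ∑ u ∈ U, (c_u).map (insert u)` satisfies `∑_C dW φ = ∑_z φ + ∑_{z'} φ` with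
    `z' = z.filter (no P-vertex) + ∑ u ∈ U, c_u`, and `z'` is a cycle.
    SWAP is the case `c_u = z_u.map (insert (g u))`: `z'` is `z.map (image s)`,
    `s v = if P v then g v else v` (or prove SWAP directly:
    `C = (z.filter (has a P-vertex u)).map (insert (g u))`).
(4) FILL (induction on `k` = number of free types `= r' + 2 - ρ.card`):
    `∀ k s, ∃ N L, ∀ W …, TPos → Gen N → Frame ρ → r' + 2 = ρ.card + k → ∀ m < k, ∀ z`, all members
    `Simp ρ` of card `m`, `z.card ≤ s`, cycle → `∃ c`, `c.card ≤ L`, members `Simp ρ` of card `m+1`,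
    `c` fills `z`.  (`Gen` is antitone in `N`.)  Types of elements of a chain are pairwise distinct,
    vertices of `Simp ρ σ` have types in `range (r'+2) \ ρ.image ty` (the free types, `k` of them).
    Step: `t` = largest free type.  PUSH the type `t` vertices `u` using the induction hypothesis for
    the frame `insert u ρ` (`z_u` has members of card `m-1 < k-1`; `Simp (insert u ρ) τ` ⇒
    `Simp ρ τ`, `Simp ρ (insert u τ)`, no vertex of type `t`).  Now `z'` (card `≤ s + s L =: s'`;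
    `U.card ≤ s`) has no type `t` vertex.  `Z ∈ ρ` := the element of type `t+1` (it is not free and
    `t + 1 ≤ r'+1`), `t₀ < t` := the largest non-free type below `t`, `b ∈ ρ` of type `t₀`.
    Apply `Gen` to `Z` and `A = insert b {vertices of z' with type > t₀}` (card `≤ 1 + s' k`).
    For `l = t-1, …, t₀+1` SWAP the type-`l` vertices `u ↦ φ u` (after the stages `> l` the chain is
    `z'.map (image ψ_l)`, `ψ_l u = if l < ty u then φ u else u`; it has no vertex of type `l+1`;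
    `φ u` is comparable with `ρ`: above `b` and everything below `b`, below `Z` and everything above
    `Z`; elements of `ρ` have type `≤ t₀` or `≥ t+1`).  Finally CONE with apex `x = φ b` (type
    `t₀+1`; `lt x (φ u)` by monotonicity since `lt b u`; vertices `v` of type `< t₀` have `lt v b`).
    `L' = s L + (k+1) s'`.
(5) the cone function `c` by induction on the cardinality: for `σ` of card `m < k`,
    `z = {σ} + ∑ v ∈ σ, c (σ.erase v)` is a cycle (use the identity for the faces and a double-erase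
    cancellation as in `dW_dW`), of size `≤ 1 + m κ_{m-1}`; put `c σ :=` a filling.  Do it as
    `∀ Mx, ∃ N κ, ∀ W … ρ, r' ≤ r → Mx ≤ r'+2-ρ.card → PCone lt val ρ Mx κ` by induction on `Mx`
    (uniformly in `k ≤ r + 2`; `PCone` is monotone in `κ`), then take the max over `Mx ≤ r+2`.
-/
namespace ConeP
variable {W : Type} [DecidableEq W]

/-- evaluation of a cochain on a chain -/
def ev {M : Type} [AddCommGroup M] (φ : Finset W → M) (z : Multiset (Finset W)) : M :=
  (z.map φ).sum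

section ev
variable {M : Type} [AddCommGroup M]

theorem ev_zero (φ : Finset W → M) : ev φ 0 = 0 := by simp [ev]

theorem ev_add (φ : Finset W → M) (z z' : Multiset (Finset W)) :
    ev φ (z + z') = ev φ z + ev φ z' := by simp [ev]

theorem ev_single (φ : Finset W → M) (σ : Finset W) : ev φ {σ} = φ σ := by simp [ev]

theorem ev_sum {ι : Type} (φ : Finset W → M) (s : Finset ι) (c : ι → Multiset (Finset W)) :
    ev φ (∑ i ∈ s, c i) = ∑ i ∈ s, ev φ (c i) := by
  classical
  induction s using Finset.induction_on with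
  | empty => simp [ev]
  | insert a s ha ih => rw [sum_insert ha, sum_insert ha, ev_add, ih]

theorem ev_congr {φ ψ : Finset W → M} {z : Multiset (Finset W)} (h : ∀ σ ∈ z, φ σ = ψ σ) :
    ev φ z = ev ψ z := by
  unfold ev; rw [Multiset.map_congr rfl h]

theorem ev_map (φ : Finset W → M) (f : Finset W → Finset W) (z : Multiset (Finset W)) :
    ev φ (z.map f) = ev (fun σ => φ (f σ)) z := by
  unfold ev; rw [Multiset.map_map]; rfl

theorem ev_fadd (φ ψ : Finset W → M) (z : Multiset (Finset W)) :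
    ev (fun σ => φ σ + ψ σ) z = ev φ z + ev ψ z := by
  unfold ev; exact Multiset.sum_map_add

theorem ev_fsum {ι : Type} (s : Finset ι) (φ : ι → Finset W → M) (z : Multiset (Finset W)) :
    ev (fun σ => ∑ i ∈ s, φ i σ) z = ∑ i ∈ s, ev (φ i) z := by
  classical
  induction s using Finset.induction_on with
  | empty => simp [ev]
  | insert a s ha ih => simp only [sum_insert ha]; rw [ev_fadd, ih]

theorem ev_filter (φ : Finset W → M) (p : Finset W → Prop) [DecidablePred p]
    (z : Multiset (Finset W)) : ev φ (z.filter p) = ev (fun σ => if p σ then φ σ else 0) z := by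
  induction z using Multiset.induction_on with
  | empty => simp [ev]
  | cons a z ih =>
    unfold ev at ih ⊢
    by_cases h : p a <;> simp [Multiset.filter_cons, h, ih]

theorem ev_bind (φ : Finset W → M) (f : Finset W → Multiset (Finset W)) (z : Multiset (Finset W)) :
    ev φ (z.bind f) = ev (fun σ => ev φ (f σ)) z := by
  unfold ev; rw [Multiset.map_bind, Multiset.sum_bind]

theorem dW_insert (φ : Finset W → M) {x : W} {σ : Finset W} (hx : x ∉ σ) :
    dW φ (insert x σ) = φ σ + dW (fun τ => φ (insert x τ)) σ := by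
  unfold dW
  rw [sum_insert hx, erase_insert hx]
  congr 1
  refine sum_congr rfl fun v hv => ?_
  rw [erase_insert_of_ne (by rintro rfl; exact hx hv)]

end ev

/-- cycles -/
def Cyc (z : Multiset (Finset W)) : Prop :=
  ∀ (M : Type) [AddCommGroup M] [Module (ZMod 2) M] (ψ : Finset W → M), ev (dW ψ) z = 0

/-- the boundary of `C` is `z + z'` -/
def Hom (C z z' : Multiset (Finset W)) : Prop :=
  ∀ (M : Type) [AddCommGroup M] [Module (ZMod 2) M] (φ : Finset W → M),
    ev (dW φ) C = ev φ z + ev φ z'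

theorem Hom.cyc {C z z' : Multiset (Finset W)} (h : Hom C z z') (hz : Cyc z) : Cyc z' := by
  intro M _ _ ψ
  have h1 := h M (dW ψ)
  rw [hz M ψ, zero_add, ev_congr (ψ := fun _ => 0) fun σ _ => dW_dW ψ σ] at h1
  rw [← h1]; simp [ev]

theorem Hom.trans {C C' z z' z'' : Multiset (Finset W)} (h : Hom C z z') (h' : Hom C' z' z'') :
    Hom (C + C') z z'' := by
  intro M _ _ φ
  rw [ev_add, h M φ, h' M φ, add_assoc, ← add_assoc (ev φ z'), add_self2, zero_add]

theorem Hom.refl (z : Multiset (Finset W)) : Hom 0 z z := by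
  intro M _ _ φ
  rw [ev_zero, add_self2]

theorem cone {z : Multiset (Finset W)} (hz : Cyc z) {x : W} (hx : ∀ σ ∈ z, x ∉ σ) :
    Hom (z.map (insert x)) z 0 := by
  intro M _ _ φ
  rw [ev_map, ev_congr fun σ hσ => dW_insert φ (hx σ hσ), ev_fadd, hz M, ev_zero]

/-- the link of a vertex -/
def lk (z : Multiset (Finset W)) (u : W) : Multiset (Finset W) :=
  (z.filter (u ∈ ·)).map (·.erase u)

theorem ev_lk {M : Type} [AddCommGroup M] (φ : Finset W → M) (z : Multiset (Finset W)) (u : W) :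
    ev φ (lk z u) = ev (fun σ => if u ∈ σ then φ (σ.erase u) else 0) z := by
  rw [lk, ev_map, ev_filter]

theorem lk_cyc {z : Multiset (Finset W)} (hz : Cyc z) (u : W) : Cyc (lk z u) := by
  intro M _ _ ψ
  rw [ev_lk]
  refine Eq.trans (ev_congr fun σ _ => ?_) (hz M fun σ => if u ∈ σ then ψ (σ.erase u) else 0)
  simp only [dW]
  split_ifs with h
  · rw [← Finset.add_sum_erase σ _ h, if_neg (notMem_erase u σ), zero_add]
    refine sum_congr rfl fun v hv => ?_
    rw [if_pos (mem_erase.2 ⟨(ne_of_mem_erase hv).symm, h⟩), erase_right_comm]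
  · exact (sum_eq_zero fun v _ => if_neg fun h' => h (mem_of_mem_erase h')).symm

theorem push (z : Multiset (Finset W)) (U : Finset W)
    (hU : ∀ σ ∈ z, ∀ u ∈ σ, ∀ v ∈ σ, u ∈ U → v ∈ U → u = v) (c : W → Multiset (Finset W))
    (hc : ∀ u ∈ U, Hom (c u) (lk z u) 0) (hu : ∀ u ∈ U, ∀ τ ∈ c u, u ∉ τ) :
    Hom (∑ u ∈ U, (c u).map (insert u)) z (z.filter (fun σ => ∀ u ∈ U, u ∉ σ) + ∑ u ∈ U, c u) := by
  intro M _ _ φ
  have h1 : ∀ u ∈ U, ev (dW φ) ((c u).map (insert u)) =
      ev (fun σ => if u ∈ σ then φ σ else 0) z + ev φ (c u) := fun u h => by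
    rw [ev_map, ev_congr fun τ hτ => dW_insert φ (hu u h τ hτ), ev_fadd, hc u h M, ev_zero, add_zero,
      ev_lk, add_comm]
    congr 1
    refine ev_congr fun σ _ => ?_
    split_ifs with h'
    · rw [insert_erase h']
    · rfl
  rw [ev_sum, sum_congr rfl h1, sum_add_distrib, ev_add, ev_sum, ← add_assoc, ev_filter, ← ev_fadd,
    ← ev_fsum]
  congr 1
  refine ev_congr fun σ hσ => ?_
  split_ifs with h
  · rw [add_self2]
    exact sum_eq_zero fun u hu => if_neg (h u hu)
  · push Not at h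
    obtain ⟨u, hu1, hu2⟩ := h
    rw [add_zero, sum_eq_single u, if_pos hu2]
    · intro v hv hvu
      exact if_neg fun h' => hvu (hU σ hσ v h' u hu2 hv hu1)
    · intro h; exact absurd hu1 h

theorem swap {z : Multiset (Finset W)} (hz : Cyc z) (P : W → Prop) [DecidablePred P] (g : W → W)
    (hP : ∀ σ ∈ z, ∀ u ∈ σ, ∀ v ∈ σ, P u → P v → u = v)
    (hg : ∀ σ ∈ z, ∀ u ∈ σ, P u → g u ∉ σ) :
    ∃ C : Multiset (Finset W), C.card ≤ z.card ∧
      (∀ τ ∈ C, ∃ σ ∈ z, ∃ u ∈ σ, P u ∧ τ = insert (g u) σ) ∧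
      Hom C z (z.map (image fun v => if P v then g v else v)) := by
  have hf : ∀ σ ∈ z, ∀ u ∈ σ, P u → ∀ τ ⊆ σ, u ∈ τ → τ.filter P = {u} := by
    intro σ hσ u hu hPu τ hτ huτ
    ext v
    rw [mem_filter, mem_singleton]
    exact ⟨fun h => hP σ hσ v (hτ h.1) u hu h.2 hPu, by rintro rfl; exact ⟨huτ, hPu⟩⟩
  refine ⟨z.bind fun σ => (σ.filter P).val.map fun u => insert (g u) σ, ?_, ?_, ?_⟩
  · rw [Multiset.card_bind]
    refine (Multiset.sum_le_card_nsmul _ 1 fun n hn => ?_).trans (by simp)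
    obtain ⟨σ, hσ, rfl⟩ := Multiset.mem_map.1 hn
    simp only [Function.comp, Multiset.card_map, card_val]
    exact card_le_one.2 fun u hu v hv => hP σ hσ u (mem_filter.1 hu).1 v (mem_filter.1 hv).1
      (mem_filter.1 hu).2 (mem_filter.1 hv).2
  · intro τ hτ
    obtain ⟨σ, hσ, h⟩ := Multiset.mem_bind.1 hτ
    obtain ⟨u, hu, rfl⟩ := Multiset.mem_map.1 h
    exact ⟨σ, hσ, u, (mem_filter.1 hu).1, (mem_filter.1 hu).2, rfl⟩
  · intro M _ _ φ
    have h0 := hz M fun τ => ∑ u ∈ τ.filter P, φ (insert (g u) τ)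
    rw [ev_bind, ev_map, ← add_zero (ev φ z + _), ← h0, ← ev_fadd, ← ev_fadd]
    refine ev_congr fun σ hσ => ?_
    by_cases h : ∃ u ∈ σ, P u
    · obtain ⟨u, hu, hPu⟩ := h
      have h1 : (σ.image fun v => if P v then g v else v) = insert (g u) (σ.erase u) := by
        conv_lhs => rw [← insert_erase hu]
        rw [image_insert, if_pos hPu]
        congr 1
        conv_rhs => rw [← image_id (s := σ.erase u)]
        refine image_congr fun v hv => ?_
        have hv' := mem_erase.1 (mem_coe.1 hv)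
        exact if_neg fun hPv => hv'.1 (hP σ hσ v hv'.2 u hu hPv hPu)
      rw [hf σ hσ u hu hPu σ subset_rfl hu, h1]
      simp only [singleton_val, Multiset.map_singleton, ev_single]
      rw [dW_insert φ (hg σ hσ u hu hPu), add_assoc]
      congr 1
      simp only [dW]
      rw [← Finset.add_sum_erase σ _ hu, ← Finset.add_sum_erase σ _ hu]
      have h2 : (σ.erase u).filter P = ∅ := filter_eq_empty_iff.2 fun v hv hPv =>
        (mem_erase.1 hv).1 (hP σ hσ v (mem_erase.1 hv).2 u hu hPv hPu)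
      rw [h2, sum_empty, zero_add]
      congr 1
      refine sum_congr rfl fun v hv => ?_
      rw [hf σ hσ u hu hPu _ (erase_subset v σ) (mem_erase.2 ⟨(ne_of_mem_erase hv).symm, hu⟩),
        sum_singleton]
    · push Not at h
      have h1 : (σ.image fun v => if P v then g v else v) = σ := by
        conv_rhs => rw [← image_id (s := σ)]
        exact image_congr fun v hv => if_neg (h v (mem_coe.1 hv))
      have h2 : ∀ τ ⊆ σ, τ.filter P = ∅ := fun τ hτ =>
        filter_eq_empty_iff.2 fun v hv => h v (hτ hv)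
      rw [h1, h2 σ subset_rfl, add_self2, zero_add]
      simp only [dW]
      rw [sum_eq_zero fun v _ => by rw [h2 _ (erase_subset v σ), sum_empty]]
      simp [ev]

/-- the vertices of a chain -/
def vs (z : Multiset (Finset W)) : Finset W := z.toFinset.biUnion id

theorem mem_vs {z : Multiset (Finset W)} {v : W} : v ∈ vs z ↔ ∃ σ ∈ z, v ∈ σ := by
  simp [vs]

theorem card_vs {z : Multiset (Finset W)} {m : ℕ} (h : ∀ σ ∈ z, σ.card ≤ m) :
    (vs z).card ≤ z.card * m :=
  (card_biUnion_le_card_mul _ _ m fun σ hσ => h σ (Multiset.mem_toFinset.1 hσ)).trans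
    (Nat.mul_le_mul_right _ (Multiset.toFinset_card_le z))

variable {lt : W → W → Prop} {ty : W → ℕ} {val : W → Prop} {r : ℕ} {ρ : Finset W}

theorem lt_of_cmp (hT : TPos lt ty val r) {u v : W} (h : lt u v ∨ lt v u) (h' : ty u ≤ ty v) :
    lt u v := h.resolve_right fun h => absurd (hT.ty_lt _ _ h) (not_lt.2 h')

theorem ty_ne (hT : TPos lt ty val r) {u v : W} (h : lt u v ∨ lt v u) : ty u ≠ ty v := by
  rcases h with h | h
  · exact (hT.ty_lt _ _ h).ne
  · exact (hT.ty_lt _ _ h).ne'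

theorem simp_inj (hT : TPos lt ty val r) {σ : Finset W} (h : Simp lt val ρ σ) {u v : W}
    (hu : u ∈ σ) (hv : v ∈ σ) (e : ty u = ty v) : u = v := by
  by_contra hne
  exact ty_ne hT (h.2 u hu v hv hne) e

theorem simp_mono {σ τ : Finset W} (h : Simp lt val ρ σ) (hτ : τ ⊆ σ) : Simp lt val ρ τ :=
  ⟨fun v hv => h.1 v (hτ hv), fun u hu v hv => h.2 u (hτ hu) v (hτ hv)⟩

theorem gen_mono {N N' : ℕ} (h : Gen lt ty val N) (hN : N' ≤ N) : Gen lt ty val N' :=
  fun Z hZ A hA => h Z hZ A (hA.trans hN)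

theorem frame_gap (hT : TPos lt ty val r) (hρ : Frame lt ty val r ρ) (hk : ρ.card < r + 2) :
    ∃ t b Z, b ∈ ρ ∧ Z ∈ ρ ∧ ty b < t ∧ ty Z = t + 1 ∧ (∀ x ∈ ρ, ty x ≤ ty b ∨ t + 1 ≤ ty x) ∧
      ∀ v, val v → (∀ x ∈ ρ, lt v x ∨ lt x v) → ty v ≤ t := by
  obtain ⟨-, -, ⟨b0, hb0, hb0'⟩, ⟨z0, hz0, hz0'⟩⟩ := hρ
  have hne : (range (r + 2) \ ρ.image ty).Nonempty := by
    rw [← card_pos]
    have h1 := le_card_sdiff (ρ.image ty) (range (r + 2))
    have h2 : (ρ.image ty).card ≤ ρ.card := card_image_le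
    rw [card_range] at h1
    omega
  obtain ⟨t, ht, hmax⟩ := exists_max_image _ id hne
  simp only [id] at hmax
  rw [mem_sdiff, mem_range] at ht
  have hfree : ∀ x ∈ ρ, ty x ≠ t := fun x hx e => ht.2 (mem_image.2 ⟨x, hx, e⟩)
  have h1 := hfree z0 hz0
  have h2 := hfree b0 hb0
  have hZ : t + 1 ∈ ρ.image ty := by
    by_contra hc
    have := hmax (t + 1) (mem_sdiff.2 ⟨mem_range.2 (by omega), hc⟩)
    omega
  obtain ⟨Z, hZ, hZ'⟩ := mem_image.1 hZ
  obtain ⟨b, hb, hbmax⟩ := exists_max_image (ρ.filter fun x => ty x < t) ty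
    ⟨b0, mem_filter.2 ⟨hb0, by omega⟩⟩
  rw [mem_filter] at hb
  refine ⟨t, b, Z, hb.1, hZ, hb.2, hZ', fun x hx => ?_, fun v hv hc => ?_⟩
  · by_cases h : ty x < t
    · exact Or.inl (hbmax x (mem_filter.2 ⟨hx, h⟩))
    · have := hfree x hx
      omega
  · refine hmax _ (mem_sdiff.2 ⟨mem_range.2 (by have := hT.ty_le v hv; omega), fun h => ?_⟩)
    obtain ⟨x, hx, e⟩ := mem_image.1 h
    exact ty_ne hT (hc x hx) e.symm

/-- filling of a cycle that avoids the top free type -/
theorem sweep (hT : TPos lt ty val r) (hρ : Frame lt ty val r ρ) {t : ℕ} {b Z : W} (hb : b ∈ ρ)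
    (hZ : Z ∈ ρ) (hbt : ty b < t) (hZt : ty Z = t + 1)
    (hgap : ∀ x ∈ ρ, ty x ≤ ty b ∨ t + 1 ≤ ty x) {m : ℕ} {z : Multiset (Finset W)}
    (hz : ∀ σ ∈ z, Simp lt val ρ σ ∧ σ.card = m) (hzt : ∀ σ ∈ z, ∀ v ∈ σ, ty v < t) (hc : Cyc z)
    (hG : Gen lt ty val (z.card * m + 1)) :
    ∃ c : Multiset (Finset W), c.card ≤ (t + 1) * z.card ∧
      (∀ τ ∈ c, Simp lt val ρ τ ∧ τ.card = m + 1) ∧ Hom c z 0 := by
  obtain ⟨φ, hφ, hmono⟩ := hG Z (hρ.1 Z hZ) (insert b (vs z))
    ((card_insert_le _ _).trans (Nat.succ_le_succ (card_vs fun σ hσ => (hz σ hσ).2.le))) (by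
      intro u hu
      rcases mem_insert.1 hu with rfl | hu
      · exact ⟨hρ.1 u hb, lt_of_cmp hT (hρ.2.1 u hb Z hZ (by rintro rfl; omega)) (by omega), by omega⟩
      · obtain ⟨σ, hσ, hu⟩ := mem_vs.1 hu
        have := hzt σ hσ u hu
        exact ⟨((hz σ hσ).1.1 u hu).1, lt_of_cmp hT (((hz σ hσ).1.1 u hu).2 Z hZ) (by omega),
          by omega⟩)
  have hA : ∀ σ ∈ z, ∀ u ∈ insert b σ, u ∈ insert b (vs z) := fun σ hσ u hu =>
    mem_insert.2 ((mem_insert.1 hu).imp id fun h => mem_vs.2 ⟨σ, hσ, h⟩)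
  have hch : ∀ σ ∈ z, ∀ u ∈ insert b σ, ∀ v ∈ insert b σ, u ≠ v → lt u v ∨ lt v u := by
    intro σ hσ u hu v hv hne
    rcases mem_insert.1 hu with rfl | hu' <;> rcases mem_insert.1 hv with rfl | hv'
    · exact absurd rfl hne
    · exact (((hz σ hσ).1.1 v hv').2 u hb).symm
    · exact ((hz σ hσ).1.1 u hu').2 v hb
    · exact (hz σ hσ).1.2 u hu' v hv' hne
  have hup : ∀ σ ∈ z, ∀ u ∈ insert b σ, ∀ v ∈ insert b σ, ty v ≤ ty u → lt v (φ u) := by
    intro σ hσ u hu v hv hle
    have h1 := (hφ u (hA σ hσ u hu)).2.1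
    by_cases e : v = u
    · rw [e]; exact h1
    · exact hT.trans _ _ _ (lt_of_cmp hT (hch σ hσ v hv u hu e) hle) h1
  have hS : ∀ σ ∈ z, ∀ l, ty b ≤ l → ∀ τ : Finset W,
      (∀ v ∈ τ, (v ∈ σ ∧ ty v ≤ l) ∨ ∃ u ∈ insert b σ, l ≤ ty u ∧ v = φ u) → Simp lt val ρ τ := by
    intro σ hσ l hl τ hτ
    refine ⟨fun v hv => ?_, fun v hv w hw hne => ?_⟩
    · rcases hτ v hv with h | ⟨u, hu, hlu, rfl⟩
      · exact (hz σ hσ).1.1 v h.1
      · have h1 := hφ u (hA σ hσ u hu)
        refine ⟨h1.1, fun x hx => ?_⟩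
        rcases hgap x hx with h | h
        · right
          have h2 := hup σ hσ u hu b (mem_insert_self _ _) (hl.trans hlu)
          by_cases e : x = b
          · rw [e]; exact h2
          · exact hT.trans _ _ _ (lt_of_cmp hT (hρ.2.1 x hx b hb e) h) h2
        · left
          by_cases e : Z = x
          · rw [← e]; exact h1.2.2.1
          · exact hT.trans _ _ _ h1.2.2.1 (lt_of_cmp hT (hρ.2.1 Z hZ x hx e) (by omega))
    · rcases hτ v hv with h | ⟨u, hu, hlu, rfl⟩ <;> rcases hτ w hw with h' | ⟨u', hu', hlu', rfl⟩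
      · exact (hz σ hσ).1.2 v h.1 w h'.1 hne
      · exact Or.inl (hup σ hσ u' hu' v (mem_insert_of_mem h.1) (h.2.trans hlu'))
      · exact Or.inr (hup σ hσ u hu w (mem_insert_of_mem h'.1) (h'.2.trans hlu))
      · exact (hch σ hσ u hu u' hu' (by rintro rfl; exact hne rfl)).imp
          (hmono u (hA σ hσ u hu) u' (hA σ hσ u' hu')) (hmono u' (hA σ hσ u' hu') u (hA σ hσ u hu))
  obtain ⟨ψ, hψ⟩ : ∃ ψ : ℕ → W → W, ∀ l u, ψ l u = if l ≤ ty u then φ u else u := ⟨_, fun _ _ => rfl⟩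
  have hty : ∀ σ ∈ z, ∀ u ∈ σ, ∀ l, ty (ψ l u) = if l ≤ ty u then ty u + 1 else ty u := by
    intro σ hσ u hu l
    rw [hψ]
    split_ifs
    · exact (hφ u (hA σ hσ u (mem_insert_of_mem hu))).2.2.2
    · rfl
  have hcard : ∀ σ ∈ z, ∀ l, (σ.image (ψ l)).card = m := by
    intro σ hσ l
    rw [card_image_of_injOn, (hz σ hσ).2]
    intro u hu v hv e
    have h1 := hty σ hσ u hu l
    have h2 := hty σ hσ v hv l
    rw [e, h2] at h1
    refine simp_inj hT (hz σ hσ).1 hu hv ?_
    split_ifs at h1 <;> omega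
  have hins : ∀ σ ∈ z, ∀ l, ty b ≤ l → ∀ u ∈ insert b σ, ty u = l →
      φ u ∉ σ.image (ψ (l + 1)) ∧ Simp lt val ρ (insert (φ u) (σ.image (ψ (l + 1)))) ∧
        (insert (φ u) (σ.image (ψ (l + 1)))).card = m + 1 := by
    intro σ hσ l hl u hu e
    have h0 : φ u ∉ σ.image (ψ (l + 1)) := fun h => by
      obtain ⟨w, hw, e'⟩ := mem_image.1 h
      have h1 := hty σ hσ w hw (l + 1)
      rw [e', (hφ u (hA σ hσ u hu)).2.2.2] at h1
      split_ifs at h1 <;> omega
    refine ⟨h0, hS σ hσ l hl _ fun v hv => ?_, by rw [card_insert_of_notMem h0, hcard σ hσ]⟩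
    rcases mem_insert.1 hv with rfl | hv
    · exact Or.inr ⟨u, hu, e.ge, rfl⟩
    · obtain ⟨w, hw, rfl⟩ := mem_image.1 hv
      rw [hψ]
      split_ifs with h
      · exact Or.inr ⟨w, mem_insert_of_mem hw, by omega, rfl⟩
      · exact Or.inl ⟨hw, by omega⟩
  have main : ∀ j l, l + j = t → ty b < l → ∃ C : Multiset (Finset W), C.card ≤ j * z.card ∧
      (∀ τ ∈ C, Simp lt val ρ τ ∧ τ.card = m + 1) ∧ Hom C z (z.map (image (ψ l))) := by
    intro j
    induction j with
    | zero =>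
      intro l hl _
      refine ⟨0, by simp, by simp, ?_⟩
      have : z.map (image (ψ l)) = z := by
        conv_rhs => rw [← Multiset.map_id z]
        refine Multiset.map_congr rfl fun σ hσ => ?_
        conv_rhs => rw [id, ← image_id (s := σ)]
        refine image_congr fun v hv => ?_
        have := hzt σ hσ v (mem_coe.1 hv)
        rw [hψ, if_neg (by omega)]; rfl
      rw [this]; exact Hom.refl z
    | succ j ih =>
      intro l hl hbl
      obtain ⟨C, h1, h2, h3⟩ := ih (l + 1) (by omega) (by omega)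
      have hown : ∀ σ ∈ z, ∀ u ∈ σ.image (ψ (l + 1)), ty u = l → u ∈ σ := by
        intro σ hσ u hu e
        obtain ⟨w, hw, rfl⟩ := mem_image.1 hu
        have h1 := hty σ hσ w hw (l + 1)
        rw [hψ, if_neg (by split_ifs at h1 <;> omega)]
        exact hw
      obtain ⟨C', h4, h5, h6⟩ := swap (h3.cyc hc) (fun v => ty v = l) φ (by
        intro σ' hσ' u hu v hv e e'
        obtain ⟨σ, hσ, rfl⟩ := Multiset.mem_map.1 hσ'
        exact simp_inj hT (hz σ hσ).1 (hown σ hσ u hu e) (hown σ hσ v hv e') (e.trans e'.symm)) (by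
        intro σ' hσ' u hu e
        obtain ⟨σ, hσ, rfl⟩ := Multiset.mem_map.1 hσ'
        exact (hins σ hσ l hbl.le u (mem_insert_of_mem (hown σ hσ u hu e)) e).1)
      refine ⟨C + C', ?_, fun τ hτ => ?_, ?_⟩
      · rw [Multiset.card_map] at h4
        rw [Multiset.card_add, Nat.succ_mul]; omega
      · rcases Multiset.mem_add.1 hτ with hτ | hτ
        · exact h2 τ hτ
        · obtain ⟨σ', hσ', u, hu, e, rfl⟩ := h5 τ hτ
          obtain ⟨σ, hσ, rfl⟩ := Multiset.mem_map.1 hσ'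
          exact (hins σ hσ l hbl.le u (mem_insert_of_mem (hown σ hσ u hu e)) e).2
      · have : (z.map (image (ψ (l + 1)))).map (image fun v => if ty v = l then φ v else v) =
            z.map (image (ψ l)) := by
          rw [Multiset.map_map]
          refine Multiset.map_congr rfl fun σ hσ => ?_
          rw [Function.comp, image_image]
          refine image_congr fun v hv => ?_
          have h7 := hty σ hσ v (mem_coe.1 hv) (l + 1)
          simp only [Function.comp]
          by_cases h8 : l + 1 ≤ ty v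
          · rw [if_pos h8] at h7
            rw [if_neg (by omega), hψ, hψ, if_pos h8, if_pos (by omega)]
          · rw [hψ (l + 1), if_neg h8, hψ]
            split_ifs <;> first | rfl | omega
        rw [← this]
        exact h3.trans h6
  obtain ⟨C, h1, h2, h3⟩ := main (t - (ty b + 1)) (ty b + 1) (by omega) (by omega)
  have h4 := cone (h3.cyc hc) (x := φ b) fun σ' hσ' => by
    obtain ⟨σ, hσ, rfl⟩ := Multiset.mem_map.1 hσ'
    exact (hins σ hσ _ le_rfl b (mem_insert_self _ _) rfl).1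
  refine ⟨_, ?_, fun τ hτ => ?_, h3.trans h4⟩
  · rw [Multiset.card_add, Multiset.card_map, Multiset.card_map, Nat.succ_mul]
    exact Nat.add_le_add_right (h1.trans (Nat.mul_le_mul_right _ (Nat.sub_le _ _))) _
  · rcases Multiset.mem_add.1 hτ with hτ | hτ
    · exact h2 τ hτ
    · obtain ⟨σ', hσ', rfl⟩ := Multiset.mem_map.1 hτ
      obtain ⟨σ, hσ, rfl⟩ := Multiset.mem_map.1 hσ'
      exact (hins σ hσ _ le_rfl b (mem_insert_self _ _) rfl).2

/-- bounded fillings when at most `k` types are free -/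
def FillSt (r k s N L : ℕ) : Prop :=
  ∀ (W : Type) [DecidableEq W] (lt : W → W → Prop) (ty : W → ℕ) (val : W → Prop) (r' : ℕ),
    r' ≤ r → TPos lt ty val r' → Gen lt ty val N → ∀ ρ : Finset W, Frame lt ty val r' ρ →
      r' + 2 ≤ ρ.card + k → ∀ m, m + ρ.card < r' + 2 → ∀ z : Multiset (Finset W),
        (∀ σ ∈ z, Simp lt val ρ σ ∧ σ.card = m) → z.card ≤ s → Cyc z →
          ∃ c : Multiset (Finset W), c.card ≤ L ∧ (∀ τ ∈ c, Simp lt val ρ τ ∧ τ.card = m + 1) ∧
            Hom c z 0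

theorem card_sum_le {ι α : Type} (U : Finset ι) (c : ι → Multiset α) {L : ℕ}
    (h : ∀ u ∈ U, (c u).card ≤ L) : (∑ u ∈ U, c u).card ≤ U.card * L := by
  rw [Multiset.card_sum]
  exact sum_le_card_nsmul U _ L h

theorem fill (r k s : ℕ) : ∃ N L, FillSt r k s N L := by
  induction k with
  | zero => exact ⟨0, 0, fun W _ lt ty val r' _ _ _ ρ _ h m h' => by omega⟩
  | succ k ih =>
    obtain ⟨N, L, ih⟩ := ih
    refine ⟨N + ((s + s * (r + 1) * L) * (r + 1) + 1),
      s * (r + 1) * L + (r + 1) * (s + s * (r + 1) * L), ?_⟩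
    intro W _ lt ty val r' hr hT hG ρ hρ hk m hm z hz hs hc
    obtain ⟨t, b, Z, hb, hZ, hbt, hZt, hgap, htop⟩ := frame_gap hT hρ (by omega)
    have ht : t ≤ r := by have := hT.ty_le Z (hρ.1 Z hZ); omega
    have hm' : m ≤ r + 1 := by omega
    set U := (vs z).filter fun v => ty v = t with hUdef
    have hU : U.card ≤ s * (r + 1) :=
      (card_filter_le _ _).trans ((card_vs fun σ hσ => (hz σ hσ).2.le).trans
        (Nat.mul_le_mul hs hm'))
    have hex : ∀ u, ∃ c : Multiset (Finset W), u ∈ U → c.card ≤ L ∧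
        (∀ τ ∈ c, Simp lt val (insert u ρ) τ ∧ τ.card = m) ∧ Hom c (lk z u) 0 := by
      intro u
      by_cases hu : u ∈ U
      swap
      · exact ⟨0, fun h => absurd h hu⟩
      obtain ⟨σ0, hσ0, hu0⟩ := mem_vs.1 (mem_filter.1 hu).1
      have h1 := (hz σ0 hσ0).1.1 u hu0
      have hm0 : 0 < m := by rw [← (hz σ0 hσ0).2]; exact card_pos.2 ⟨u, hu0⟩
      have huρ : u ∉ ρ := fun h => ty_ne hT (h1.2 u h) rfl
      have hF : Frame lt ty val r' (insert u ρ) := by
        obtain ⟨f1, f2, ⟨b0, f3, f4⟩, ⟨z0, f5, f6⟩⟩ := hρ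
        refine ⟨fun v hv => ?_, fun v hv w hw hne => ?_, ⟨b0, mem_insert_of_mem f3, f4⟩,
          ⟨z0, mem_insert_of_mem f5, f6⟩⟩
        · rcases mem_insert.1 hv with rfl | hv
          · exact h1.1
          · exact f1 v hv
        · rcases mem_insert.1 hv with rfl | hv' <;> rcases mem_insert.1 hw with rfl | hw'
          · exact absurd rfl hne
          · exact h1.2 w hw'
          · exact (h1.2 v hv').symm
          · exact f2 v hv' w hw' hne
      obtain ⟨c, c1, c2, c3⟩ := ih W lt ty val r' hr hT (gen_mono hG (Nat.le_add_right _ _)) _ hF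
        (by rw [card_insert_of_notMem huρ]; omega) (m - 1)
        (by rw [card_insert_of_notMem huρ]; omega) (lk z u) (by
          intro τ hτ
          obtain ⟨σ, hσ', rfl⟩ := Multiset.mem_map.1 hτ
          obtain ⟨hσ, huσ⟩ := Multiset.mem_filter.1 hσ'
          have h2 := simp_mono (hz σ hσ).1 (erase_subset u σ)
          refine ⟨⟨fun v hv => ⟨(h2.1 v hv).1, fun x hx => ?_⟩, h2.2⟩, ?_⟩
          · rcases mem_insert.1 hx with rfl | hx
            · exact (hz σ hσ).1.2 v (mem_of_mem_erase hv) x huσ (ne_of_mem_erase hv)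
            · exact (h2.1 v hv).2 x hx
          · rw [card_erase_of_mem huσ, (hz σ hσ).2])
        (by
          rw [lk, Multiset.card_map]
          exact (Multiset.card_le_card (Multiset.filter_le _ _)).trans hs) (lk_cyc hc u)
      exact ⟨c, fun _ => ⟨c1, fun τ hτ => ⟨(c2 τ hτ).1, by rw [(c2 τ hτ).2]; omega⟩, c3⟩⟩
    choose c hcU using hex
    have hnot : ∀ u ∈ U, ∀ τ ∈ c u, ∀ v ∈ τ, ty v ≠ ty u := fun u hu τ hτ v hv =>
      ty_ne hT ((((hcU u hu).2.1 τ hτ).1.1 v hv).2 u (mem_insert_self _ _))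
    have hsimp : ∀ u ∈ U, ∀ τ ∈ c u, Simp lt val ρ τ := fun u hu τ hτ =>
      ⟨fun v hv => ⟨(((hcU u hu).2.1 τ hτ).1.1 v hv).1, fun x hx =>
        (((hcU u hu).2.1 τ hτ).1.1 v hv).2 x (mem_insert_of_mem hx)⟩, ((hcU u hu).2.1 τ hτ).1.2⟩
    have hp := push z U (fun σ hσ u hu v hv hu' hv' => simp_inj hT (hz σ hσ).1 hu hv
      ((mem_filter.1 hu').2.trans (mem_filter.1 hv').2.symm)) c (fun u hu => (hcU u hu).2.2)
      fun u hu τ hτ h => hnot u hu τ hτ u h rfl
    set z' := z.filter (fun σ => ∀ u ∈ U, u ∉ σ) + ∑ u ∈ U, c u with hz'def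
    have hz' : ∀ σ ∈ z', (Simp lt val ρ σ ∧ σ.card = m) ∧ ∀ v ∈ σ, ty v ≠ t := by
      intro σ hσ
      rcases Multiset.mem_add.1 hσ with hσ | hσ
      · obtain ⟨h1, h2⟩ := Multiset.mem_filter.1 hσ
        exact ⟨hz σ h1, fun v hv e => h2 v (mem_filter.2 ⟨mem_vs.2 ⟨σ, h1, hv⟩, e⟩) hv⟩
      · obtain ⟨u, hu, hσ⟩ := (Multiset.mem_sum).1 hσ
        exact ⟨⟨hsimp u hu σ hσ, ((hcU u hu).2.1 σ hσ).2⟩, fun v hv e =>
          hnot u hu σ hσ v hv (e.trans (mem_filter.1 hu).2.symm)⟩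
    have hcard : z'.card ≤ s + s * (r + 1) * L := by
      rw [hz'def, Multiset.card_add]
      exact Nat.add_le_add ((Multiset.card_le_card (Multiset.filter_le _ _)).trans hs)
        ((card_sum_le U c fun u hu => (hcU u hu).1).trans (Nat.mul_le_mul_right _ hU))
    obtain ⟨c', h1, h2, h3⟩ := sweep hT hρ hb hZ hbt hZt hgap (fun σ hσ => (hz' σ hσ).1)
      (fun σ hσ v hv => lt_of_le_of_ne
        (htop v ((hz' σ hσ).1.1.1 v hv).1 ((hz' σ hσ).1.1.1 v hv).2) ((hz' σ hσ).2 v hv))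
      (hp.cyc hc) (gen_mono hG ((Nat.succ_le_succ (Nat.mul_le_mul hcard hm')).trans
        (Nat.le_add_left _ _)))
    refine ⟨_, ?_, fun τ hτ => ?_, hp.trans h3⟩
    · rw [Multiset.card_add]
      exact Nat.add_le_add ((card_sum_le U _ fun u hu => by
        rw [Multiset.card_map]; exact (hcU u hu).1).trans (Nat.mul_le_mul_right _ hU))
        (h1.trans (Nat.mul_le_mul (Nat.succ_le_succ ht) hcard))
    · rcases Multiset.mem_add.1 hτ with hτ | hτ
      · obtain ⟨u, hu, hτ⟩ := (Multiset.mem_sum).1 hτ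
        obtain ⟨σ, hσ, rfl⟩ := Multiset.mem_map.1 hτ
        obtain ⟨σ0, hσ0, hu0⟩ := mem_vs.1 (mem_filter.1 hu).1
        have h4 := (hz σ0 hσ0).1.1 u hu0
        have h5 := ((hcU u hu).2.1 σ hσ).1
        have h6 := hsimp u hu σ hσ
        refine ⟨⟨fun v hv => ?_, fun v hv w hw hne => ?_⟩, ?_⟩
        · rcases mem_insert.1 hv with rfl | hv
          · exact h4
          · exact h6.1 v hv
        · rcases mem_insert.1 hv with rfl | hv' <;> rcases mem_insert.1 hw with rfl | hw'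
          · exact absurd rfl hne
          · exact ((h5.1 w hw').2 v (mem_insert_self _ _)).symm
          · exact (h5.1 v hv').2 w (mem_insert_self _ _)
          · exact h6.2 v hv' w hw' hne
        · rw [card_insert_of_notMem fun h => hnot u hu σ hσ u h rfl, ((hcU u hu).2.1 σ hσ).2]
      · exact h2 τ hτ

theorem pcone_mono {Mx κ κ' : ℕ} (h : PCone lt val ρ Mx κ) (hκ : κ ≤ κ') : PCone lt val ρ Mx κ' := by
  obtain ⟨c, hc⟩ := h
  exact ⟨c, fun σ h1 h2 => ⟨(hc σ h1 h2).1.trans hκ, (hc σ h1 h2).2⟩⟩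

theorem pcone_step {Mx κ L : ℕ} (h : PCone lt val ρ Mx κ)
    (hf : ∀ z : Multiset (Finset W), (∀ σ ∈ z, Simp lt val ρ σ ∧ σ.card = Mx) →
      z.card ≤ 1 + Mx * κ → Cyc z → ∃ c : Multiset (Finset W), c.card ≤ L ∧
        (∀ τ ∈ c, Simp lt val ρ τ ∧ τ.card = Mx + 1) ∧ Hom c z 0) :
    PCone lt val ρ (Mx + 1) (κ + L) := by
  obtain ⟨c, hc⟩ := h
  have hex : ∀ σ : Finset W, ∃ c' : Multiset (Finset W), Simp lt val ρ σ → σ.card = Mx →
      c'.card ≤ L ∧ (∀ τ ∈ c', Simp lt val ρ τ ∧ τ.card = Mx + 1) ∧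
        Hom c' ({σ} + ∑ v ∈ σ, c (σ.erase v)) 0 := by
    intro σ
    by_cases h : Simp lt val ρ σ ∧ σ.card = Mx
    swap
    · exact ⟨0, fun h1 h2 => absurd ⟨h1, h2⟩ h⟩
    obtain ⟨h1, h2⟩ := h
    have h3 : ∀ v ∈ σ, (σ.erase v).card + 1 = Mx := fun v hv => by
      rw [card_erase_add_one hv, h2]
    have h4 := fun v (hv : v ∈ σ) => hc (σ.erase v) (simp_mono h1 (erase_subset v σ))
      (by have := h3 v hv; omega)
    obtain ⟨c', hc'⟩ := hf ({σ} + ∑ v ∈ σ, c (σ.erase v)) (by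
      intro τ hτ
      rcases Multiset.mem_add.1 hτ with hτ | hτ
      · rw [Multiset.mem_singleton.1 hτ]; exact ⟨h1, h2⟩
      · obtain ⟨v, hv, hτ⟩ := (Multiset.mem_sum).1 hτ
        exact ⟨((h4 v hv).2.1 τ hτ).1, by rw [((h4 v hv).2.1 τ hτ).2, h3 v hv]⟩) (by
      rw [Multiset.card_add, Multiset.card_singleton, ← h2]
      exact Nat.add_le_add_left (card_sum_le σ _ fun v hv => (h4 v hv).1) _) (by
      intro M _ _ ψ
      have h5 : ∀ v ∈ σ, ev (dW ψ) (c (σ.erase v)) =
          ψ (σ.erase v) + dW (fun τ => ev ψ (c τ)) (σ.erase v) := fun v hv => by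
        rw [(h4 v hv).2.2 M ψ, add_assoc]
        exact (add_eq_left.2 (add_self2 _)).symm
      have h6 : ∑ v ∈ σ, dW (fun τ => ev ψ (c τ)) (σ.erase v) = 0 := dW_dW _ σ
      rw [ev_add, ev_single, ev_sum, sum_congr rfl h5, sum_add_distrib, h6, add_zero]
      exact add_self2 _)
    exact ⟨c', fun _ _ => hc'⟩
  choose c' hc' using hex
  refine ⟨fun σ => if σ.card = Mx then c' σ else c σ, fun σ h1 h2 => ?_⟩
  have h3 : ∀ v ∈ σ, (if (σ.erase v).card = Mx then c' (σ.erase v) else c (σ.erase v)) =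
      c (σ.erase v) := fun v hv => if_neg (by have := card_erase_add_one hv; omega)
  by_cases h : σ.card = Mx
  · obtain ⟨a1, a2, a3⟩ := hc' σ h1 h
    simp only [if_pos h]
    refine ⟨a1.trans (Nat.le_add_left _ _), fun τ hτ => h ▸ a2 τ hτ, fun M _ _ φ => ?_⟩
    have h4 := a3 M φ
    rw [ev_zero, add_zero, ev_add, ev_single, ev_sum] at h4
    rw [sum_congr rfl fun v hv => by rw [h3 v hv]]
    change φ σ = ev (dW φ) (c' σ) + ∑ v ∈ σ, ev φ (c (σ.erase v))
    rw [h4, add_assoc, add_self2, add_zero]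
  · obtain ⟨a1, a2, a3⟩ := hc σ h1 (by omega)
    simp only [if_neg h]
    refine ⟨a1.trans (Nat.le_add_right _ _), a2, fun M _ _ φ => ?_⟩
    rw [sum_congr rfl fun v hv => by rw [h3 v hv]]
    exact a3 M φ

theorem pcone (r Mx : ℕ) : ∃ N κ : ℕ,
    ∀ (W : Type) [DecidableEq W] (lt : W → W → Prop) (ty : W → ℕ) (val : W → Prop) (r' : ℕ),
      r' ≤ r → TPos lt ty val r' → Gen lt ty val N → ∀ ρ : Finset W, Frame lt ty val r' ρ →
        ∀ Mx' ≤ Mx, Mx' ≤ r' + 2 - ρ.card → PCone lt val ρ Mx' κ := by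
  induction Mx with
  | zero =>
    exact ⟨0, 0, fun W _ lt ty val r' _ _ _ ρ _ Mx' h _ => ⟨fun _ => 0, fun σ _ h' => by omega⟩⟩
  | succ Mx ih =>
    obtain ⟨N, κ, ih⟩ := ih
    obtain ⟨N', L, hf⟩ := fill r (r + 2) (1 + Mx * κ)
    refine ⟨N + N', κ + L, fun W _ lt ty val r' hr hT hG ρ hρ Mx' h h' => ?_⟩
    have ih' := ih W lt ty val r' hr hT (gen_mono hG (Nat.le_add_right _ _)) ρ hρ
    rcases Nat.lt_or_ge Mx Mx' with h1 | h1
    · obtain rfl : Mx' = Mx + 1 := by omega
      exact pcone_step (ih' Mx le_rfl (by omega))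
        (hf W lt ty val r' hr hT (gen_mono hG (Nat.le_add_left _ _)) ρ hρ (by omega) Mx (by omega))
    · exact pcone_mono (ih' Mx' h1 h') (Nat.le_add_right _ _)

end ConeP

theorem coneP (r : ℕ) : ∃ N κ : ℕ, ConeConst r N κ := by
  obtain ⟨N, κ, h⟩ := ConeP.pcone r (r + 2)
  exact ⟨N, κ, fun W _ lt ty val r' hr hT hG ρ hρ =>
    h W lt ty val r' hr hT hG ρ hρ _ (by omega) le_rfl⟩

end Crest.Agent.R66
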