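import Mathlib

/-!
# Row 66 (S0088): bounded degree `F₂`-coboundary expanders.  Definitions.

Overview of the proof (see the docstrings of the other files of `R66/`).
`A = F_p[t]/t^s`, `n = 2d+1`, `G` = matrices in `SL_n(A)` that are lower unitriangular mod `t`
(a finite `p`-group, `p` a large odd prime), `K j` (`j : Fin n`) = the unitriangular group with
constant entries for the cyclic order starting at `j` (entries above the diagonal carry a factor
`t`).  The complex is the `d`-skeleton of the coset complex of `(G; K 0, …, K (n-1))`.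

All cochains are written as functions `f : Finset I → G → M`; `f J g` is the value on the face
`{g K_j : j ∈ J}`; we grade by the CARDINALITY `m = J.card` (dimension + 1).
-/

set_option autoImplicit false

namespace Crest.Agent.R66

open Finset

/-! ## Abstract coset complexes -/
section Abstract
variable {I G : Type} [DecidableEq I] [Group G]

/-- `K_J = ⋂_{j ∈ J} K_j` (`= ⊤` for `J = ∅`). -/
def KJ (K : I → Subgroup G) (J : Finset I) : Subgroup G := ⨅ j ∈ J, K j

omit [DecidableEq I] in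
theorem mem_KJ {K : I → Subgroup G} {J : Finset I} {g : G} : g ∈ KJ K J ↔ ∀ j ∈ J, g ∈ K j := by
  simp [KJ, Subgroup.mem_iInf]

/-- `f J` is invariant under right multiplication by `H ⊓ K_J`. -/
def Inv {M : Type} (K : I → Subgroup G) (H : Subgroup G) (f : Finset I → G → M) : Prop :=
  ∀ (J : Finset I) (g k : G), k ∈ H → (∀ j ∈ J, k ∈ K j) → f J (g * k) = f J g

/-- The coboundary (characteristic two: no signs). -/
def dl {M : Type} [AddCommGroup M] (f : Finset I → G → M) : Finset I → G → M :=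
  fun J g => ∑ j ∈ J, f (J.erase j) g

/-- Allowed simplices: types in `T`, representative in `H`, all vertices `ok`. -/
def alw (H : Subgroup G) (T : Finset I) (ok : I → G → Prop) (J : Finset I) (g : G) : Prop :=
  J ⊆ T ∧ g ∈ H ∧ ∀ j ∈ J, ok j g

/-- All simplices with types in `T` and representative in `H`. -/
def full (H : Subgroup G) (T : Finset I) : Finset I → G → Prop := alw H T (fun _ _ => True)

/-- `ok j` is a predicate on vertices `g (H ⊓ K j)` of type `j ∈ T`. -/
def OkInv (K : I → Subgroup G) (H : Subgroup G) (T : Finset I) (ok : I → G → Prop) : Prop :=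
  ∀ j ∈ T, ∀ g ∈ H, ∀ k ∈ H, k ∈ K j → (ok j (g * k) ↔ ok j g)

/-- `f` is a cocycle in cardinality `m` on the allowed simplices `A`. -/
def Cocyc {M : Type} [AddCommGroup M] (A : Finset I → G → Prop) (m : ℕ)
    (f : Finset I → G → M) : Prop :=
  ∀ (J : Finset I) (g : G), J.card = m + 1 → A J g → dl f J g = 0

/-- `f` is a coboundary in cardinality `m` on the allowed simplices `A`. -/
def Cob {M : Type} [AddCommGroup M] (K : I → Subgroup G) (H : Subgroup G)
    (A : Finset I → G → Prop) (m : ℕ) (f : Finset I → G → M) : Prop :=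
  ∃ y : Finset I → G → M, Inv K H y ∧
    ∀ (J : Finset I) (g : G), J.card = m → A J g → f J g = dl y J g

/-- Exactness of the (augmented) cochain complex in cardinality `m`. -/
def Ex (M : Type) [AddCommGroup M] (K : I → Subgroup G) (H : Subgroup G)
    (A : Finset I → G → Prop) (m : ℕ) : Prop :=
  ∀ f : Finset I → G → M, Inv K H f → Cocyc A m f → Cob K H A m f

/-- A cone function of bounded size `κ` in cardinalities `< Mx`. -/
def BCone (K : I → Subgroup G) (H : Subgroup G) (A : Finset I → G → Prop) (Mx κ : ℕ) : Prop :=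
  ∃ c : Finset I → G → Multiset (Finset I × G), Inv K H c ∧
    ∀ (J : Finset I) (g : G), J.card < Mx → A J g →
      (c J g).card ≤ κ ∧ (∀ x ∈ c J g, A x.1 x.2 ∧ x.1.card = J.card + 1) ∧
      ∀ (M : Type) [AddCommGroup M] [Module (ZMod 2) M] (f : Finset I → G → M), Inv K H f →
        f J g = ((c J g).map fun x => dl f x.1 x.2).sum
          + ∑ j ∈ J, ((c (J.erase j) g).map fun x => f x.1 x.2).sum

open Classical in
/-- Hamming norm (counted on pairs `(J, g)`, `J ⊆ T` of cardinality `m`, `g ∈ H`). -/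
noncomputable def Nrm [Fintype G] (H : Subgroup G) (T : Finset I) (m : ℕ)
    (f : Finset I → G → ZMod 2) : ℕ :=
  ∑ J ∈ T.powersetCard m, (univ.filter fun g : G => g ∈ H ∧ f J g ≠ 0).card

/-- Coboundary expansion with constant `C` in cardinality `m`. -/
def CobExp [Fintype G] (K : I → Subgroup G) (H : Subgroup G) (T : Finset I) (m C : ℕ) : Prop :=
  ∀ f : Finset I → G → ZMod 2, Inv K H f →
    ∃ y : Finset I → G → ZMod 2, Inv K H y ∧ Nrm H T m (f - dl y) ≤ C * Nrm H T (m + 1) (dl f)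

open Classical in
/-- Average over right translates by `H`. -/
noncomputable def avg [Fintype G] (H : Subgroup G) (u : G → ℝ) (g : G) : ℝ :=
  (∑ k ∈ univ.filter (fun k : G => k ∈ H), u (g * k)) / (univ.filter (fun k : G => k ∈ H)).card

/-- Near orthogonality of `K_R`-invariant and `K_J`-invariant functions over `K_{R ∩ J}`. -/
def Spec [Fintype G] (K : I → Subgroup G) (lam : ℝ) : Prop :=
  ∀ (R J : Finset I) (u v : G → ℝ), (∀ g k, k ∈ KJ K R → u (g * k) = u g) →
    (∀ g k, k ∈ KJ K J → v (g * k) = v g) →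
    ∑ g, u g * v g ≤ ∑ g, avg (KJ K (R ∩ J)) u g * v g
      + lam * (√(∑ g, u g ^ 2) * √(∑ g, v g ^ 2))

/-- `N` contains the `g`-conjugate of `Q ⊓ K_J`. -/
def Bad (K : I → Subgroup G) (Q N : Subgroup G) (J : Finset I) (g : G) : Prop :=
  ∀ q ∈ Q, (∀ j ∈ J, q ∈ K j) → g * q * g⁻¹ ∈ N

/-- Exactness of the complex of cochains supported on the `Bad` simplices. -/
def RelEx (M : Type) [AddCommGroup M] (K : I → Subgroup G) (S' : Subgroup G) (T : Finset I)
    (Q N : Subgroup G) (m : ℕ) : Prop :=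
  ∀ f : Finset I → G → M, Inv K S' f → Cocyc (full S' T) m f →
    (∀ J g, J.card = m → full S' T J g → ¬ Bad K Q N J g → f J g = 0) →
    ∃ y : Finset I → G → M, Inv K S' y ∧ (∀ J g, g ∈ S' → ¬ Bad K Q N J g → y J g = 0) ∧
      ∀ J g, J.card = m → full S' T J g → f J g = dl y J g

/-- `S = Q ⋊ S'` with `Q` abelian, compatibly with all the `K j`. -/
structure Semi (K : I → Subgroup G) (S S' Q : Subgroup G) : Prop where
  q_le : Q ≤ S
  s_le : S' ≤ S
  comm : ∀ a ∈ Q, ∀ b ∈ Q, a * b = b * a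
  norm : ∀ s ∈ S', ∀ q ∈ Q, s * q * s⁻¹ ∈ Q
  disj : ∀ q ∈ Q, q ∈ S' → q = 1
  dec : ∀ s ∈ S, ∃ q ∈ Q, ∃ s' ∈ S', s = q * s' ∧ ∀ j, s ∈ K j → q ∈ K j

/-- A filtration `F c` of `Q` adapted to the types: type `j` "cuts" at the integers `c ≡ r j (mod n)`. -/
structure Filt (K : I → Subgroup G) (S' Q : Subgroup G) (T : Finset I) (n a : ℕ) (r : I → ℕ)
    (F : ℕ → Subgroup G) : Prop where
  npos : 0 < n
  apos : 0 < a
  r_lt : ∀ j ∈ T, r j < n
  r_inj : ∀ i ∈ T, ∀ j ∈ T, r i = r j → i = j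
  mono : Monotone F
  bot : ∀ c, c < n → F c = ⊥
  top : ∃ c, Q ≤ F c
  stab : ∀ j ∈ T, ∀ c, c % n = r j → ∀ k ∈ S', k ∈ K j → ∀ q ∈ F c, k * q * k⁻¹ ∈ F c
  cut : ∀ j ∈ T, ∀ c, a ≤ c → c < a + n → c % n = r j → ∀ q, (q ∈ Q ∧ q ∈ K j) ↔ q ∈ F c

/-- The descending link condition for the vertex `(i, k)` below level `c`. -/
def okF (n : ℕ) (r : I → ℕ) (F : ℕ → Subgroup G) (N : Subgroup G) (c : ℕ) (i : I) (k : G) : Prop :=
  ∀ c', c' % n = r i → c < c' → ¬ ∀ q ∈ F c', k * q * k⁻¹ ∈ N

end Abstract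

/-! ## Typed posets -/
section Poset
variable {W : Type} [DecidableEq W]

/-- coboundary of a function on finite sets -/
def dW {M : Type} [AddCommGroup M] (φ : Finset W → M) (τ : Finset W) : M :=
  ∑ v ∈ τ, φ (τ.erase v)

/-- `σ` is a chain of valid elements comparable with (and different from) all elements of `ρ`. -/
def Simp (lt : W → W → Prop) (val : W → Prop) (ρ σ : Finset W) : Prop :=
  (∀ v ∈ σ, val v ∧ ∀ x ∈ ρ, lt v x ∨ lt x v) ∧ ∀ u ∈ σ, ∀ v ∈ σ, u ≠ v → lt u v ∨ lt v u

/-- `ρ` is a chain of valid elements containing an element of type `0` and one of type `r + 1`. -/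
def Frame (lt : W → W → Prop) (ty : W → ℕ) (val : W → Prop) (r : ℕ) (ρ : Finset W) : Prop :=
  (∀ v ∈ ρ, val v) ∧ (∀ u ∈ ρ, ∀ v ∈ ρ, u ≠ v → lt u v ∨ lt v u) ∧
    (∃ b ∈ ρ, ty b = 0) ∧ ∃ z ∈ ρ, ty z = r + 1

/-- Generic raising: any `≤ N` valid elements at least two types below `Z` can be raised by one
type, monotonically, staying below `Z`. -/
def Gen (lt : W → W → Prop) (ty : W → ℕ) (val : W → Prop) (N : ℕ) : Prop :=
  ∀ Z, val Z → ∀ A : Finset W, A.card ≤ N → (∀ u ∈ A, val u ∧ lt u Z ∧ ty u + 1 < ty Z) →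
    ∃ φ : W → W, (∀ u ∈ A, val (φ u) ∧ lt u (φ u) ∧ lt (φ u) Z ∧ ty (φ u) = ty u + 1) ∧
      ∀ u ∈ A, ∀ u' ∈ A, lt u u' → lt (φ u) (φ u')

/-- A typed poset with types `≤ r + 1`. -/
structure TPos (lt : W → W → Prop) (ty : W → ℕ) (val : W → Prop) (r : ℕ) : Prop where
  trans : ∀ u v w, lt u v → lt v w → lt u w
  ty_lt : ∀ u v, lt u v → ty u < ty v
  ty_le : ∀ v, val v → ty v ≤ r + 1

/-- A cone function of size `≤ κ` on the link of `ρ`, in cardinalities `< Mx`. -/
def PCone (lt : W → W → Prop) (val : W → Prop) (ρ : Finset W) (Mx κ : ℕ) : Prop :=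
  ∃ c : Finset W → Multiset (Finset W), ∀ σ, Simp lt val ρ σ → σ.card < Mx →
    (c σ).card ≤ κ ∧ (∀ τ ∈ c σ, Simp lt val ρ τ ∧ τ.card = σ.card + 1) ∧
    ∀ (M : Type) [AddCommGroup M] [Module (ZMod 2) M] (φ : Finset W → M),
      φ σ = ((c σ).map (dW φ)).sum + ∑ v ∈ σ, ((c (σ.erase v)).map φ).sum

end Poset

/-! ## Subspace posets (opposition complexes with frozen coordinates) -/
section Geom
variable {F ι : Type} [Field F]

/-- vectors vanishing on the coordinates satisfying `P` -/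
def Zc (F : Type) [Field F] {ι : Type} (P : ι → Prop) : Submodule F (ι → F) where
  carrier := {v | ∀ a, P a → v a = 0}
  add_mem' := by
    intro u v hu hv a ha
    simp [hu a ha, hv a ha]
  zero_mem' := by intro a _; rfl
  smul_mem' := by
    intro c v hv a ha
    simp [hv a ha]

theorem mem_Zc {P : ι → Prop} {v : ι → F} : v ∈ Zc F P ↔ ∀ a, P a → v a = 0 := Iff.rfl

/-- Positions `pos`, `ν` live coordinates `lv 0, …, lv (ν-1)` at positions `π 0 = 0 < π 1 < …`,
all other coordinates are column-frozen (`Rc`); `Rr ⊆ Rc` are also row-frozen. -/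
structure Lay (pos : ι → ℕ) (ν : ℕ) (π : ℕ → ℕ) (lv : ℕ → ι) (Rc Rr : Finset ι) : Prop where
  zero : π 0 = 0
  mono : ∀ l, l < ν → π l < π (l + 1)
  lt_top : ∀ a, pos a < π ν
  pos_lv : ∀ l, l < ν → pos (lv l) = π l
  live : ∀ l, l < ν → lv l ∉ Rc
  gap : ∀ a l, l < ν → π l ≤ pos a → pos a < π (l + 1) → a = lv l ∨ a ∈ Rc
  sub : Rr ⊆ Rc

/-- valid vertices `(l, Y)`: `Y` is a complement of the span of the positions `≥ π l`, contains the
frozen columns at positions `< π l`, and is killed by the frozen rows at positions `≥ π l`. -/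
def GVal (pos : ι → ℕ) (ν : ℕ) (π : ℕ → ℕ) (Rc Rr : Finset ι)
    (okY : Submodule F (ι → F) → Prop) (v : ℕ × Submodule F (ι → F)) : Prop :=
  v.1 ≤ ν ∧ Zc F (fun a => ¬ (a ∈ Rc ∧ pos a < π v.1)) ≤ v.2 ∧
    v.2 ≤ Zc F (fun a => a ∈ Rr ∧ π v.1 ≤ pos a) ∧
    IsCompl v.2 (Zc F (fun a => pos a < π v.1)) ∧ (0 < v.1 → v.1 < ν → okY v.2)

def GLt (u v : ℕ × Submodule F (ι → F)) : Prop := u.1 < v.1 ∧ u.2 ≤ v.2

/-- The three side conditions that occur. -/
inductive OkKind (Rc Rr : Finset ι) : (Submodule F (ι → F) → Prop) → Prop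
  | none : OkKind Rc Rr (fun _ => True)
  | col (H : Submodule F (ι → F)) (hR : Rc = Rr) (hB : Zc F (fun a => a ∉ Rc) ≤ H) (hH : H ≠ ⊤) :
      OkKind Rc Rr (fun Y => ¬ Y ≤ H)
  | row (W' : Submodule F (ι → F)) (hW : ¬ W' ≤ Zc F (fun a => a ∉ Rc)) :
      OkKind Rc Rr (fun Y => ¬ W' ≤ Y ⊔ Zc F (fun a => a ∉ Rc))

end Geom

/-! ## The matrix groups -/
section Concrete
open Matrix

/-- A subgroup of a finite group from a multiplicatively closed set. -/
def subOfMul {G : Type} [Group G] [Finite G] (s : Set G) (h1 : (1 : G) ∈ s)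
    (hm : ∀ a ∈ s, ∀ b ∈ s, a * b ∈ s) : Subgroup G where
  carrier := s
  one_mem' := h1
  mul_mem' := fun ha hb => hm _ ha _ hb
  inv_mem' := by
    intro g hg
    have hp : ∀ k : ℕ, g ^ k ∈ s := by
      intro k
      induction k with
      | zero => simpa using h1
      | succ k ih => rw [pow_succ]; exact hm _ ih _ hg
    have h0 : 0 < orderOf g := orderOf_pos g
    have : g⁻¹ = g ^ (orderOf g - 1) := by
      rw [inv_eq_iff_mul_eq_one, ← pow_succ', Nat.sub_add_cancel h0, pow_orderOf_eq_one]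
    show g⁻¹ ∈ s
    rw [this]; exact hp _

variable {A : Type} [CommRing A]

/-- hypotheses on the coefficient ring (`A = F_p[t]/t^s`, `s ≥ 2`) -/
structure Good (p : ℕ) [Algebra (ZMod p) A] (t : A) : Prop where
  nil : IsNilpotent t
  ne : t ≠ 0
  span : ∀ a : A, a ∈ Submodule.span (ZMod p) (Set.range fun m : ℕ => t ^ m)

/-- the factor carried by the entry `(a, b)` -/
def tau {n : ℕ} (t : A) (a b : Fin n) : A := if a < b then t else 1

/-- matrices in `SL_n(A)` that are lower unitriangular modulo `t` -/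
def PP [Finite A] (n : ℕ) (t : A) : Subgroup (SpecialLinearGroup (Fin n) A) :=
  subOfMul {g | (∀ a b, a < b → t ∣ g.1 a b) ∧ ∀ a, t ∣ g.1 a a - 1}
    (by
      refine ⟨fun a b hab => ?_, fun a => ?_⟩
      · simp [Matrix.one_apply_ne hab.ne]
      · simp)
    (by
      rintro g ⟨hg1, hg2⟩ h ⟨hh1, hh2⟩
      refine ⟨fun a b hab => ?_, fun a => ?_⟩
      · show t ∣ (g.1 * h.1) a b
        rw [Matrix.mul_apply]
        refine Finset.dvd_sum fun c _ => ?_
        rcases lt_or_ge a c with hc | hc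
        · exact (hg1 a c hc).mul_right _
        · exact (hh1 c b (lt_of_le_of_lt hc hab)).mul_left _
      · show t ∣ (g.1 * h.1) a a - 1
        rw [Matrix.mul_apply, ← Finset.add_sum_erase _ _ (Finset.mem_univ a)]
        have h1 : t ∣ g.1 a a * h.1 a a - 1 := by
          have : g.1 a a * h.1 a a - 1 = (g.1 a a - 1) * h.1 a a + (h.1 a a - 1) := by ring
          rw [this]; exact dvd_add ((hg2 a).mul_right _) (hh2 a)
        have h2 : t ∣ ∑ c ∈ Finset.univ.erase a, g.1 a c * h.1 c a := by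
          refine Finset.dvd_sum fun c hc => ?_
          rcases lt_or_gt_of_ne (Finset.ne_of_mem_erase hc) with hc | hc
          · exact (hh1 c a hc).mul_left _
          · exact (hg1 a c hc).mul_right _
        have : g.1 a a * h.1 a a + ∑ c ∈ Finset.univ.erase a, g.1 a c * h.1 c a - 1
            = (g.1 a a * h.1 a a - 1) + ∑ c ∈ Finset.univ.erase a, g.1 a c * h.1 c a := by ring
        rw [this]; exact dvd_add h1 h2)

/-- the group `G` -/
abbrev GG [Finite A] (n : ℕ) (t : A) : Type := ↥(PP n t)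

noncomputable instance [Finite A] (n : ℕ) (t : A) : Fintype (GG n t) := Fintype.ofFinite _

/-- the underlying matrix -/
def mat [Finite A] {n : ℕ} {t : A} (g : GG n t) : Matrix (Fin n) (Fin n) A := g.1.1

section
variable [Finite A] {n : ℕ} {t : A}
theorem mat_mul (g h : GG n t) : mat (g * h) = mat g * mat h := rfl
theorem mat_one : mat (1 : GG n t) = 1 := rfl
theorem mat_inj {g h : GG n t} (e : mat g = mat h) : g = h := Subtype.ext (Subtype.ext e)
theorem mat_det (g : GG n t) : (mat g).det = 1 := g.1.2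
theorem mat_lt (g : GG n t) {a b : Fin n} (h : a < b) : t ∣ mat g a b := g.2.1 a b h
theorem mat_diag (g : GG n t) (a : Fin n) : t ∣ mat g a a - 1 := g.2.2 a
theorem mat_inv_mul (g : GG n t) : mat g⁻¹ * mat g = 1 := by rw [← mat_mul, inv_mul_cancel, mat_one]
theorem mat_mul_inv (g : GG n t) : mat g * mat g⁻¹ = 1 := by rw [← mat_mul, mul_inv_cancel, mat_one]

/-- build an element of `G` from a matrix -/
def mkG (m : Matrix (Fin n) (Fin n) A) (hd : m.det = 1) (h1 : ∀ a b, a < b → t ∣ m a b)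
    (h2 : ∀ a, t ∣ m a a - 1) : GG n t := ⟨⟨m, hd⟩, h1, h2⟩

@[simp] theorem mat_mkG (m : Matrix (Fin n) (Fin n) A) (hd : m.det = 1)
    (h1 : ∀ a b, a < b → t ∣ m a b) (h2 : ∀ a, t ∣ m a a - 1) : mat (mkG m hd h1 h2 : GG n t) = m :=
  rfl
end

open Classical in
/-- elementary matrices (junk value `1` outside the pattern) -/
noncomputable def el [Finite A] {n : ℕ} (t : A) (a b : Fin n) (α : A) : GG n t :=
  if h : a ≠ b ∧ tau t a b ∣ α then
    mkG (transvection a b α) (det_transvection_of_ne a b h.1 α)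
      (by
        intro x y hxy
        by_cases hx : x = a ∧ y = b
        · obtain ⟨rfl, rfl⟩ := hx
          have := h.2
          simp only [tau, hxy, if_true] at this
          simpa [transvection, Matrix.one_apply_ne hxy.ne] using this
        · have : ¬ (a = x ∧ b = y) := fun h' => hx ⟨h'.1.symm, h'.2.symm⟩
          simp [transvection, Matrix.one_apply_ne hxy.ne, Matrix.single, this])
      (by
        intro x
        have : ¬ (a = x ∧ b = x) := fun h' => h.1 (h'.1.trans h'.2.symm)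
        simp [transvection, Matrix.single, this])
  else 1

theorem mat_el [Finite A] {n : ℕ} {t : A} {a b : Fin n} {α : A} (hab : a ≠ b)
    (h : tau t a b ∣ α) : mat (el t a b α) = transvection a b α := by
  rw [el, dif_pos ⟨hab, h⟩]; rfl

/-- frozen columns `Rc`, frozen rows `Rr` -/
def GR [Finite A] {n : ℕ} (t : A) (Rc Rr : Finset (Fin n)) : Subgroup (GG n t) :=
  subOfMul {g | (∀ b ∈ Rc, ∀ a, mat g a b = (1 : Matrix (Fin n) (Fin n) A) a b) ∧
      ∀ a ∈ Rr, ∀ b, mat g a b = (1 : Matrix (Fin n) (Fin n) A) a b}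
    ⟨fun _ _ _ => rfl, fun _ _ _ => rfl⟩
    (by
      rintro g ⟨hg1, hg2⟩ h ⟨hh1, hh2⟩
      refine ⟨fun b hb a => ?_, fun a ha b => ?_⟩
      · rw [mat_mul, Matrix.mul_apply]
        simp_rw [hh1 b hb]
        rw [← Matrix.mul_apply, Matrix.mul_one, hg1 b hb]
      · rw [mat_mul, Matrix.mul_apply]
        simp_rw [hg2 a ha]
        rw [← Matrix.mul_apply, Matrix.one_mul, hh2 a ha])

theorem mem_GR [Finite A] {n : ℕ} {t : A} {Rc Rr : Finset (Fin n)} {g : GG n t} :
    g ∈ GR t Rc Rr ↔ (∀ b ∈ Rc, ∀ a, mat g a b = (1 : Matrix (Fin n) (Fin n) A) a b) ∧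
      ∀ a ∈ Rr, ∀ b, mat g a b = (1 : Matrix (Fin n) (Fin n) A) a b := Iff.rfl

/-- position of `a` in the cyclic order starting at `j` -/
def pos {n : ℕ} [NeZero n] (j a : Fin n) : ℕ := (a - j).val

theorem pos_eq {n : ℕ} [NeZero n] (j a : Fin n) :
    pos j a = if j ≤ a then a.val - j.val else a.val + n - j.val := by
  unfold pos
  split_ifs with h
  · exact Fin.sub_val_of_le h
  · rw [Fin.coe_sub_iff_lt.mpr (lt_of_not_ge h)]; omega

/-- lower unitriangular for the cyclic order starting at `j` -/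
def UU {n : ℕ} [NeZero n] {F : Type} [Field F] (j : Fin n) (κ : Matrix (Fin n) (Fin n) F) : Prop :=
  (∀ a, κ a a = 1) ∧ ∀ a b, pos j a < pos j b → κ a b = 0

variable (p : ℕ) [Fact p.Prime] [Algebra (ZMod p) A]

/-- constant matrices, with the factor `t` above the diagonal -/
def phi {n : ℕ} (t : A) (κ : Matrix (Fin n) (Fin n) (ZMod p)) : Matrix (Fin n) (Fin n) A :=
  Matrix.of fun a b => algebraMap (ZMod p) A (κ a b) * tau t a b

theorem pos_inj {n : ℕ} [NeZero n] (j : Fin n) {a b : Fin n} (h : pos j a = pos j b) : a = b := by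
  have : a - j = b - j := Fin.ext h
  simpa using this

theorem UU_one {n : ℕ} [NeZero n] {F : Type} [Field F] (j : Fin n) :
    UU j (1 : Matrix (Fin n) (Fin n) F) :=
  ⟨fun a => by simp, fun a b h => Matrix.one_apply_ne (by rintro rfl; exact lt_irrefl _ h)⟩

theorem UU_mul {n : ℕ} [NeZero n] {F : Type} [Field F] {j : Fin n}
    {κ κ' : Matrix (Fin n) (Fin n) F} (h : UU j κ) (h' : UU j κ') : UU j (κ * κ') := by
  refine ⟨fun a => ?_, fun a b hab => ?_⟩
  · rw [Matrix.mul_apply, Finset.sum_eq_single a]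
    · rw [h.1, h'.1, one_mul]
    · intro c _ hc
      rcases lt_trichotomy (pos j a) (pos j c) with h1 | h1 | h1
      · rw [h.2 a c h1, zero_mul]
      · exact absurd (pos_inj j h1).symm hc
      · rw [h'.2 c a h1, mul_zero]
    · simp
  · rw [Matrix.mul_apply]
    refine Finset.sum_eq_zero fun c _ => ?_
    rcases lt_or_ge (pos j a) (pos j c) with h1 | h1
    · rw [h.2 a c h1, zero_mul]
    · rw [h'.2 c b (lt_of_le_of_lt h1 hab), mul_zero]

theorem tau_mul {n : ℕ} [NeZero n] (t : A) {j a b c : Fin n} (h1 : pos j c ≤ pos j a)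
    (h2 : pos j b ≤ pos j c) : tau t a c * tau t c b = tau t a b := by
  rw [pos_eq, pos_eq] at h1 h2
  have ha := a.2; have hb := b.2; have hc := c.2; have hj := j.2
  simp only [tau, Fin.lt_def, Fin.le_def] at *
  split_ifs at * <;> first | omega | simp

theorem phi_one {n : ℕ} (t : A) : phi p t (1 : Matrix (Fin n) (Fin n) (ZMod p)) = 1 := by
  ext a b
  by_cases h : a = b
  · subst h; simp [phi, tau]
  · simp [phi, Matrix.one_apply_ne h]

theorem phi_mul {n : ℕ} [NeZero n] (t : A) {j : Fin n} {κ κ' : Matrix (Fin n) (Fin n) (ZMod p)}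
    (h : UU j κ) (h' : UU j κ') : phi p t (κ * κ') = phi p t κ * phi p t κ' := by
  ext a b
  simp only [phi, Matrix.of_apply, Matrix.mul_apply, map_sum, Finset.sum_mul, map_mul]
  refine Finset.sum_congr rfl fun c _ => ?_
  rcases lt_or_ge (pos j a) (pos j c) with h1 | h1
  · simp [h.2 a c h1]
  rcases lt_or_ge (pos j c) (pos j b) with h2 | h2
  · simp [h'.2 c b h2]
  rw [← tau_mul t h1 h2]; ring

/-- the vertex groups -/
def KK [Finite A] {n : ℕ} [NeZero n] (t : A) (j : Fin n) : Subgroup (GG n t) :=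
  subOfMul {g | ∃ κ, UU j κ ∧ mat g = phi p t κ} ⟨1, UU_one j, by rw [phi_one, mat_one]⟩
    (by
      rintro g ⟨κ, h, e⟩ g' ⟨κ', h', e'⟩
      exact ⟨κ * κ', UU_mul h h', by rw [mat_mul, e, e', phi_mul p t h h']⟩)

theorem mem_KK [Finite A] {n : ℕ} [NeZero n] {t : A} {j : Fin n} {g : GG n t} :
    g ∈ KK p t j ↔ ∃ κ, UU j κ ∧ mat g = phi p t κ := Iff.rfl

/-- the constant matrix of an element of some `KK p t j` -/
noncomputable def kap [Finite A] {n : ℕ} {t : A} (g : GG n t) : Matrix (Fin n) (Fin n) (ZMod p) :=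
  Function.invFun (phi p t) (mat g)

/-- the subspace attached to the vertex `g K_i` in the link of `K_j` -/
noncomputable def YY [Finite A] {n : ℕ} [NeZero n] {t : A} (j i : Fin n) (g : GG n t) :
    Submodule (ZMod p) (Fin n → ZMod p) :=
  (Zc (ZMod p) (fun a => pos j i ≤ pos j a)).map (Matrix.toLin' (kap p g))

/-- basic elementary matrices of `K_J ⊓ GR R R` -/
def Basic [Finite A] {n : ℕ} [NeZero n] (t : A) (J R : Finset (Fin n)) : Set (GG n t) :=
  {g | g ∈ KJ (KK p t) J ∧ ∃ (a b : Fin n) (γ : ZMod p) (m : ℕ), a ≠ b ∧ a ∉ R ∧ b ∉ R ∧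
    (J.Nonempty → m = 0) ∧ g = el t a b (algebraMap (ZMod p) A γ * t ^ m * tau t a b)}

/-- the simple root group crossing the cut `a` -/
noncomputable def rt [Finite A] {n : ℕ} [NeZero n] (t : A) (a : Fin n) (γ : ZMod p) : GG n t :=
  el t a (a - 1) (algebraMap (ZMod p) A γ * tau t a (a - 1))

/-- filtration of the column group of `e` (rows in `R ∋ e` frozen) -/
def FC [Finite A] {n : ℕ} (t : A) (e : Fin n) (R : Finset (Fin n)) (c : ℕ) : Subgroup (GG n t) :=
  Subgroup.closure {g | ∃ (a : Fin n) (γ : ZMod p) (m : ℕ), a ∉ R ∧ e.val < a.val + n * m ∧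
    a.val + n * m + n < c ∧ g = el t a e (algebraMap (ZMod p) A γ * t ^ m)}

/-- filtration of the row group of `e` (columns in `R ∋ e` frozen) -/
def FR [Finite A] {n : ℕ} (t : A) (e : Fin n) (R : Finset (Fin n)) (c : ℕ) : Subgroup (GG n t) :=
  Subgroup.closure {g | ∃ (b : Fin n) (γ : ZMod p) (m : ℕ), b ∉ R ∧ b.val < e.val + n * m ∧
    2 * n + n * m ≤ c + b.val ∧ g = el t e b (algebraMap (ZMod p) A γ * t ^ m)}

end Concrete

end Crest.Agent.R66
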