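import Crest.Agent.R66.Basic
import Crest.Prelude.Def_Cochain

/-! Task R66-Final: from the coset complex to the statement on `Fin n`. -/
set_option autoImplicit false
set_option linter.unusedSectionVars false
namespace Crest.Agent.R66
open Finset Crest.CombinatoricsR

theorem Final_weight_nonneg {n : ℕ} (d : ℕ) (T : Finset (Finset (Fin n))) (i : ℕ)
    (σ : Finset (Fin n)) : 0 ≤ Cochain.faceWeight d T i σ := by
  unfold Cochain.faceWeight; positivity

/- PLAN: if `u`, `v` are not reachable, `f σ = 1` iff `σ = {w}` with `w` reachable from `u`; `coboundary 0 f` vanishes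
on all 2-subsets of top faces so its norm is `0`; then `f - b` (b constant) vanishes on all vertices (each
vertex has positive weight) — contradiction. -/
theorem connected_of_exp {n d : ℕ} (hd : 1 ≤ d) (hn : 0 < n) {T : Finset (Finset (Fin n))}
    (hT : ∀ τ ∈ T, τ.card = d + 1) (hv : ∀ v : Fin n, 1 ≤ Cochain.vertexDegree T v) {ε : ℝ}
    (hε : 0 < ε)
    (h : ∀ f : Finset (Fin n) → ZMod 2, ∃ b : Finset (Fin n) → ZMod 2,
      Cochain.IsCoboundaryClass 0 b ∧
        ε * Cochain.cochainNorm d T 0 (f - b) ≤ Cochain.cochainNorm d T 1 (Cochain.coboundary 0 f)) :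
    (Cochain.skeleton T).Connected := by
  classical
  haveI : Nonempty (Fin n) := ⟨⟨0, hn⟩⟩
  refine ⟨fun u v => ?_⟩
  by_contra huv
  obtain ⟨ind, hind⟩ : ∃ ind : Fin n → ZMod 2,
      ∀ w, ind w = if (Cochain.skeleton T).Reachable u w then 1 else 0 := ⟨_, fun _ => rfl⟩
  obtain ⟨b, hb, hle⟩ := h fun σ => ∑ w ∈ σ, ind w
  obtain ⟨-, c, hc⟩ := hb.resolve_right fun h => by omega
  have h0 : Cochain.cochainNorm d T 1 (Cochain.coboundary 0 fun σ => ∑ w ∈ σ, ind w) = 0 := by
    refine sum_eq_zero fun σ hσ => ?_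
    obtain ⟨h1, h2⟩ := mem_filter.1 hσ
    obtain ⟨x, y, hxy, rfl⟩ := card_eq_two.1 (mem_powersetCard.1 h1).2
    unfold Cochain.faceWeight
    rw [filter_eq_empty_iff.2, card_empty, Nat.cast_zero, zero_div]
    intro τ hτ hsub
    apply h2
    have hadj : (Cochain.skeleton T).Adj x y :=
      ⟨hxy, τ, hτ, hsub (by simp), hsub (by simp)⟩
    have e : ind x = ind y := by
      rw [hind, hind]
      exact if_congr ⟨fun h => h.trans hadj.reachable, fun h => h.trans hadj.symm.reachable⟩ rfl rfl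
    unfold Cochain.coboundary
    rw [zero_add, powersetCard_one, sum_map]
    simp only [Function.Embedding.coeFn_mk, sum_singleton]
    rw [sum_pair hxy, e, add_self2]
  obtain ⟨w, hw⟩ : ∃ w, ind w ≠ c := by
    by_contra h1
    push Not at h1
    have h2 := (h1 u).trans (h1 v).symm
    rw [hind, hind, if_pos (SimpleGraph.Reachable.refl u), if_neg huv] at h2
    exact one_ne_zero h2
  have h1 : 0 < Cochain.cochainNorm d T 0 ((fun σ => ∑ w ∈ σ, ind w) - b) := by
    refine sum_pos' (fun σ _ => Final_weight_nonneg _ _ _ _) ⟨{w}, mem_filter.2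
      ⟨mem_powersetCard.2 ⟨subset_univ _, card_singleton w⟩, ?_⟩, ?_⟩
    · simp only [Pi.sub_apply, sum_singleton, hc]
      exact sub_ne_zero.2 hw
    · have h2 := hv w
      unfold Cochain.vertexDegree at h2
      have h3 : 0 < T.card := lt_of_lt_of_le h2 (card_filter_le _ _)
      unfold Cochain.faceWeight
      simp only [singleton_subset_iff]
      refine div_pos (by exact_mod_cast h2) (mul_pos ?_ (by exact_mod_cast h3))
      exact_mod_cast Nat.choose_pos (by omega)
  rw [h0] at hle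
  exact absurd hle (not_le.2 (mul_pos hε h1))

namespace Final
variable {I G : Type} [Fintype I] [DecidableEq I] [Group G] [Fintype G] {K : I → Subgroup G}
  {nv : ℕ} {ver : I → G → Fin nv}

theorem sum_powersetCard {W M : Type} [DecidableEq W] [AddCommGroup M] (f : Finset W → M)
    {s : Finset W} {m : ℕ} (h : s.card = m + 1) : ∑ σ ∈ s.powersetCard m, f σ = dW f s := by
  unfold dW
  symm
  refine sum_bij (fun v _ => s.erase v) (fun v hv => ?_) (fun u hu v _ e => ?_) (fun σ hσ => ?_)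
    fun _ _ => rfl
  · exact mem_powersetCard.2 ⟨erase_subset _ _, by rw [card_erase_of_mem hv, h]; rfl⟩
  · exact (erase_inj s hu).1 e
  · obtain ⟨h1, h2⟩ := mem_powersetCard.1 hσ
    obtain ⟨v, hv, hv'⟩ := exists_of_ssubset (h1.ssubset_of_ne (by rintro rfl; omega))
    refine ⟨v, hv, (eq_of_subset_of_card_le (subset_erase.2 ⟨h1, hv'⟩) ?_).symm⟩
    rw [card_erase_of_mem hv, h, h2]; rfl

/-- the face of type `J` with representative `g` -/
def face (ver : I → G → Fin nv) (J : Finset I) (g : G) : Finset (Fin nv) := J.image fun j => ver j g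

/-- vertices are cosets -/
def IsVer (K : I → Subgroup G) (ver : I → G → Fin nv) : Prop :=
  ∀ i g i' g', ver i g = ver i' g' ↔ i = i' ∧ g⁻¹ * g' ∈ K i

theorem ver_inj (hv : IsVer K ver) (g : G) : Function.Injective fun j => ver j g :=
  fun _ _ e => ((hv _ _ _ _).1 e).1

theorem card_face (hv : IsVer K ver) (J : Finset I) (g : G) : (face ver J g).card = J.card :=
  card_image_of_injective _ (ver_inj hv g)

theorem face_sub (hv : IsVer K ver) {J J' : Finset I} {g g' : G}
    (h : face ver J g ⊆ face ver J' g') : ∀ j ∈ J, j ∈ J' ∧ g⁻¹ * g' ∈ K j := by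
  intro j hj
  obtain ⟨j', hj', e⟩ := mem_image.1 (h (mem_image_of_mem _ hj))
  obtain ⟨rfl, h2⟩ := (hv _ _ _ _).1 e.symm
  exact ⟨hj', h2⟩

theorem face_eq (hv : IsVer K ver) {J J' : Finset I} {g g' : G}
    (h : face ver J g = face ver J' g') : J = J' ∧ ∀ j ∈ J, g⁻¹ * g' ∈ K j :=
  ⟨Subset.antisymm (fun j hj => (face_sub hv h.le j hj).1) fun j hj => (face_sub hv h.ge j hj).1,
    fun j hj => (face_sub hv h.le j hj).2⟩

theorem face_mul (hv : IsVer K ver) {J : Finset I} (g : G) {k : G} (hk : ∀ j ∈ J, k ∈ K j) :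
    face ver J (g * k) = face ver J g :=
  image_congr fun j hj => ((hv _ _ _ _).2 ⟨rfl, by simpa using hk j hj⟩).symm

theorem cob_face (hv : IsVer K ver) (f : Finset (Fin nv) → ZMod 2) {i : ℕ} {J : Finset I}
    (hJ : J.card = i + 2) (g : G) :
    Cochain.coboundary i f (face ver J g) = dl (fun J g => f (face ver J g)) J g := by
  unfold Cochain.coboundary
  rw [sum_powersetCard f (by rw [card_face hv, hJ])]
  unfold dW dl face
  rw [sum_image fun _ _ _ _ e => ver_inj hv g e]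
  exact sum_congr rfl fun j _ => congrArg f (image_erase (ver_inj hv g) J j).symm

open Classical in
theorem card_fib {B : ℕ} (hB : ∀ j, Nat.card (K j) ≤ B) (j : I) (g₀ : G) :
    (univ.filter fun g => g₀⁻¹ * g ∈ K j).card ≤ B := by
  refine le_trans ?_ (hB j)
  rw [← Nat.card_eq_finsetCard]
  refine Nat.card_le_card_of_injective (fun x => ⟨g₀⁻¹ * x.1, (mem_filter.1 x.2).2⟩) fun x y e => ?_
  exact Subtype.ext (mul_left_cancel (congrArg Subtype.val e))

open Classical in
/-- the top faces -/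
noncomputable def tops (ver : I → G → Fin nv) (d : ℕ) : Finset (Finset (Fin nv)) :=
  ((univ.powersetCard (d + 1) : Finset (Finset I)) ×ˢ (univ : Finset G)).image
    fun x => face ver x.1 x.2

theorem mem_tops {d : ℕ} {τ : Finset (Fin nv)} :
    τ ∈ tops ver d ↔ ∃ J g, J.card = d + 1 ∧ face ver J g = τ := by
  simp [tops, mem_powersetCard]

theorem exists_top {d : ℕ} (hd : d + 1 ≤ Fintype.card I) {J : Finset I} (hJ : J.card ≤ d + 1) (g : G) :
    ∃ τ ∈ tops ver d, face ver J g ⊆ τ := by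
  obtain ⟨J', h1, h2⟩ := exists_superset_card_eq hJ hd
  exact ⟨_, mem_tops.2 ⟨J', g, h2, rfl⟩, image_subset_image h1⟩

theorem deg_le (hv : IsVer K ver) {B n d : ℕ} (hB : ∀ j, Nat.card (K j) ≤ B)
    (hn : Fintype.card I ≤ n) (v : Fin nv) : Cochain.vertexDegree (tops ver d) v ≤ 2 ^ n * B := by
  classical
  unfold Cochain.vertexDegree
  rcases ((tops ver d).filter fun τ => v ∈ τ).eq_empty_or_nonempty with h | ⟨τ₀, h⟩
  · rw [h]; simp
  obtain ⟨h1, h2⟩ := mem_filter.1 h
  obtain ⟨J₀, g₀, -, rfl⟩ := mem_tops.1 h1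
  obtain ⟨j₀, -, rfl⟩ := mem_image.1 h2
  have hsub : (tops ver d).filter (fun τ => ver j₀ g₀ ∈ τ) ⊆
      ((univ : Finset (Finset I)) ×ˢ (univ.filter fun g => g₀⁻¹ * g ∈ K j₀)).image
        fun x => face ver x.1 x.2 := by
    intro τ hτ
    obtain ⟨h3, h4⟩ := mem_filter.1 hτ
    obtain ⟨J, g, -, rfl⟩ := mem_tops.1 h3
    obtain ⟨j, -, e⟩ := mem_image.1 h4
    exact mem_image.2 ⟨(J, g), mem_product.2 ⟨mem_univ _,
      mem_filter.2 ⟨mem_univ _, ((hv _ _ _ _).1 e.symm).2⟩⟩, rfl⟩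
  refine (card_le_card hsub).trans (card_image_le.trans ?_)
  rw [card_product, card_univ, Fintype.card_finset]
  exact Nat.mul_le_mul (Nat.pow_le_pow_right (by norm_num) hn) (by convert card_fib hB j₀ g₀)

open Classical in
/-- the support of a cochain -/
noncomputable def supp (m : ℕ) (h : Finset I → G → ZMod 2) : Finset (Finset I × G) :=
  ((univ.powersetCard m : Finset (Finset I)) ×ˢ (univ : Finset G)).filter fun x => h x.1 x.2 ≠ 0

theorem mem_supp {m : ℕ} {h : Finset I → G → ZMod 2} {x : Finset I × G} :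
    x ∈ supp m h ↔ x.1.card = m ∧ h x.1 x.2 ≠ 0 := by
  simp [supp, mem_powersetCard]

theorem nrm_eq (m : ℕ) (h : Finset I → G → ZMod 2) : Nrm ⊤ univ m h = (supp m h).card := by
  classical
  unfold Nrm supp
  rw [card_filter, sum_product]
  refine sum_congr rfl fun J _ => ?_
  rw [card_filter]
  refine sum_congr rfl fun g _ => ?_
  simp

theorem norm_le (hv : IsVer K ver) {d D i : ℕ} (hi : i ≤ d)
    (hD : ∀ v, Cochain.vertexDegree (tops ver d) v ≤ D) {h : Finset (Fin nv) → ZMod 2}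
    {h' : Finset I → G → ZMod 2} (e : ∀ J g, J.card = i + 1 → h (face ver J g) = h' J g) :
    Cochain.cochainNorm d (tops ver d) i h ≤ (Nrm ⊤ univ (i + 1) h' : ℝ) * (D / (tops ver d).card) := by
  classical
  unfold Cochain.cochainNorm
  rw [← sum_filter_ne_zero, nrm_eq]
  refine (sum_le_card_nsmul _ _ ((D : ℝ) / (tops ver d).card) fun σ hσ => ?_).trans ?_
  · have h1 : σ.card = i + 1 := (mem_powersetCard.1 (mem_filter.1 (mem_filter.1 hσ).1).1).2
    obtain ⟨v, hv'⟩ : σ.Nonempty := card_pos.1 (by omega)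
    have h2 : ((tops ver d).filter fun τ => σ ⊆ τ).card ≤ D := by
      refine le_trans (card_le_card fun τ hτ => ?_) (hD v)
      obtain ⟨h3, h4⟩ := mem_filter.1 hτ
      exact mem_filter.2 ⟨h3, h4 hv'⟩
    have h3 : (1 : ℝ) ≤ Nat.choose (d + 1) (i + 1) := by
      exact_mod_cast Nat.choose_pos (by omega)
    unfold Cochain.faceWeight
    rw [← div_div]
    refine div_le_div_of_nonneg_right ((div_le_self (Nat.cast_nonneg _) h3).trans ?_)
      (Nat.cast_nonneg _)
    exact_mod_cast h2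
  · rw [nsmul_eq_mul]
    refine mul_le_mul_of_nonneg_right (Nat.cast_le.2 ?_) (by positivity)
    refine (card_le_card (t := (supp (i + 1) h').image fun x => face ver x.1 x.2)
      fun σ hσ => ?_).trans card_image_le
    obtain ⟨h1, h2⟩ := mem_filter.1 hσ
    obtain ⟨h3, h4⟩ := mem_filter.1 h1
    obtain ⟨τ, hτ⟩ : ((tops ver d).filter fun τ => σ ⊆ τ).Nonempty := by
      rw [nonempty_iff_ne_empty]
      intro h5
      apply h2
      unfold Cochain.faceWeight
      rw [h5]; simp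
    obtain ⟨h5, h6⟩ := mem_filter.1 hτ
    obtain ⟨J, g, -, rfl⟩ := mem_tops.1 h5
    obtain ⟨J', -, rfl⟩ := subset_image_iff.1 h6
    have h7 : J'.card = i + 1 := (card_face hv J' g).symm.trans (mem_powersetCard.1 h3).2
    exact mem_image.2 ⟨(J', g), mem_supp.2 ⟨h7, by rw [← e J' g h7]; exact h4⟩, rfl⟩

theorem le_norm (hv : IsVer K ver) {d B i : ℕ} (hi : i ≤ d) (hd : d + 1 ≤ Fintype.card I)
    (hB : ∀ j, Nat.card (K j) ≤ B) {h : Finset (Fin nv) → ZMod 2}
    {h' : Finset I → G → ZMod 2} (e : ∀ J g, J.card = i + 1 → h (face ver J g) = h' J g) :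
    (Nrm ⊤ univ (i + 1) h' : ℝ) / (tops ver d).card ≤
      B * 2 ^ (d + 1) * Cochain.cochainNorm d (tops ver d) i h := by
  classical
  set S := (supp (i + 1) h').image fun x => face ver x.1 x.2 with hS
  have h1 : (supp (i + 1) h').card ≤ B * S.card := by
    refine card_le_mul_card_image _ B fun σ hσ => ?_
    obtain ⟨⟨J₀, g₀⟩, h0, rfl⟩ := mem_image.1 hσ
    obtain ⟨j₀, hj₀⟩ : J₀.Nonempty := card_pos.1 (by have := (mem_supp.1 h0).1; simp only at this; omega)
    refine le_trans (card_le_card (t := (univ.filter fun g => g₀⁻¹ * g ∈ K j₀).image fun g => (J₀, g))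
      fun x hx => ?_) (card_image_le.trans (by convert card_fib hB j₀ g₀))
    obtain ⟨h2, h3⟩ := face_eq hv (mem_filter.1 hx).2.symm
    exact mem_image.2 ⟨x.2, mem_filter.2 ⟨mem_univ _, h3 j₀ hj₀⟩, Prod.ext h2 rfl⟩
  have h2 : (S.card : ℝ) * (1 / (2 ^ (d + 1) * (tops ver d).card)) ≤
      Cochain.cochainNorm d (tops ver d) i h := by
    rw [← nsmul_eq_mul]
    refine (card_nsmul_le_sum S (Cochain.faceWeight d (tops ver d) i) _ fun σ hσ => ?_).trans
      (sum_le_sum_of_subset_of_nonneg (fun σ hσ => ?_) fun σ _ _ => Final_weight_nonneg _ _ _ _)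
    · obtain ⟨⟨J, g⟩, h0, rfl⟩ := mem_image.1 hσ
      obtain ⟨τ, hτ, hτ'⟩ := exists_top (ver := ver) hd (J := J)
        (by have := (mem_supp.1 h0).1; simp only at this; omega) g
      have h3 : 1 ≤ ((tops ver d).filter fun τ => face ver J g ⊆ τ).card :=
        card_pos.2 ⟨τ, mem_filter.2 ⟨hτ, hτ'⟩⟩
      have h4 : (0 : ℝ) < (tops ver d).card := by exact_mod_cast card_pos.2 ⟨τ, hτ⟩
      have h5 : (0 : ℝ) < Nat.choose (d + 1) (i + 1) := by exact_mod_cast Nat.choose_pos (by omega)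
      have h6 : (Nat.choose (d + 1) (i + 1) : ℝ) ≤ 2 ^ (d + 1) := by
        exact_mod_cast Nat.choose_le_two_pow _ _
      unfold Cochain.faceWeight
      exact div_le_div₀ (Nat.cast_nonneg _) (by exact_mod_cast h3) (mul_pos h5 h4)
        (mul_le_mul_of_nonneg_right h6 h4.le)
    · obtain ⟨⟨J, g⟩, h0, rfl⟩ := mem_image.1 hσ
      obtain ⟨h3, h4⟩ := mem_supp.1 h0
      exact mem_filter.2 ⟨mem_powersetCard.2 ⟨subset_univ _, (card_face hv J g).trans h3⟩,
        by rw [e J g h3]; exact h4⟩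
  rw [nrm_eq]
  calc ((supp (i + 1) h').card : ℝ) / (tops ver d).card
      ≤ (B * S.card) / (tops ver d).card :=
        div_le_div_of_nonneg_right (by exact_mod_cast h1) (Nat.cast_nonneg _)
    _ = B * 2 ^ (d + 1) * ((S.card : ℝ) * (1 / (2 ^ (d + 1) * (tops ver d).card))) := by
        rcases eq_or_ne ((tops ver d).card : ℝ) 0 with h0 | h0
        · rw [h0]; simp
        · field_simp
    _ ≤ _ := mul_le_mul_of_nonneg_left h2 (by positivity)

theorem exists_b (hv : IsVer K ver) (i : ℕ) {y : Finset I → G → ZMod 2} (hy : Inv K ⊤ y) :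
    ∃ b : Finset (Fin nv) → ZMod 2, Cochain.IsCoboundaryClass i b ∧
      ∀ J g, J.card = i + 1 → b (face ver J g) = dl y J g := by
  classical
  rcases i with _ | i
  · refine ⟨fun _ => y ∅ 1, Or.inl ⟨rfl, _, fun _ => rfl⟩, fun J g hJ => ?_⟩
    obtain ⟨j, rfl⟩ := card_eq_one.1 hJ
    have := hy ∅ 1 g (Subgroup.mem_top _) (by simp)
    simp only [dl, sum_singleton, erase_singleton]
    rw [← this, one_mul]
  · have hex : ∀ σ : Finset (Fin nv), ∃ c : ZMod 2, ∀ J g, face ver J g = σ → c = y J g := by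
      intro σ
      by_cases h : ∃ J g, face ver J g = σ
      · obtain ⟨J₀, g₀, rfl⟩ := h
        refine ⟨y J₀ g₀, fun J g e => ?_⟩
        obtain ⟨rfl, h2⟩ := face_eq hv e
        rw [← hy J g _ (Subgroup.mem_top _) h2, mul_inv_cancel_left]
      · exact ⟨0, fun J g e => absurd ⟨J, g, e⟩ h⟩
    choose c hc using hex
    refine ⟨_, Or.inr ⟨by omega, c, rfl⟩, fun J g hJ => ?_⟩
    rw [Nat.add_sub_cancel, cob_face hv c hJ]
    congr 1
    funext J g
    exact hc _ J g rfl

theorem exists_ver (K : I → Subgroup G) : ∃ (nv : ℕ) (ver : I → G → Fin nv), IsVer K ver ∧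
    ∀ v, ∃ j g, ver j g = v := by
  classical
  haveI : Fintype (Σ j : I, G ⧸ K j) := Fintype.ofFinite _
  refine ⟨_, fun j g => Fintype.equivFin (Σ j : I, G ⧸ K j) ⟨j, g⟩, fun i g i' g' => ?_, fun v => ?_⟩
  · rw [Equiv.apply_eq_iff_eq]
    constructor
    · intro h
      obtain rfl : i = i' := congrArg Sigma.fst h
      exact ⟨rfl, QuotientGroup.eq.1 (eq_of_heq (Sigma.mk.inj h).2)⟩
    · rintro ⟨rfl, h⟩
      rw [QuotientGroup.eq.2 h]
  · obtain ⟨⟨j, q⟩, rfl⟩ := (Fintype.equivFin (Σ j : I, G ⧸ K j)).surjective v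
    obtain ⟨g, rfl⟩ := QuotientGroup.mk_surjective q
    exact ⟨j, g, rfl⟩

end Final

/-
PLAN.  Vertices `Σ j : I, G ⧸ K j ≃ Fin nv` (`Fintype.equivFin`), `face J g = J.image fun j => e ⟨j, g⟩`
(card `J.card`; `face J g = face J' g'` iff `J = J'` and `g⁻¹ g' ∈ K_J`; subsets of `face J g` are the `face J' g`,
`J' ⊆ J`), `T` = all `face J g` with `J.card = d+1`.  `D = 2^n B`, `ε = 1 / ((C+1) D 2^(d+1) B)`.
`|G| ≤ B · |G ⧸ K j| ≤ B nv`.  For `f` put `f̂ J g = f (face J g)` (invariant), `dl f̂ J g = coboundary i f (face J g)` for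
`J.card = i+2`.  From `y` (`CobExp` at `m = i+1`): `i = 0`: `b = fun _ => y ∅ 1`; `i ≥ 1`: `b = coboundary (i-1) ŷ`,
`ŷ σ = y J g` if `σ = face J g` (choice), so `b (face J g) = dl y J g` for `J.card = i+1`.  Norms: a weight is
`0` off the faces and `≤ D / |T|` on nonempty sets; so `cochainNorm (f - b) ≤ (D/|T|) Nrm (f̂ - dl y)`; every
`face J g` with `J.card = i + 2 ≤ d+1` has weight `≥ 1/(2^(d+1) |T|)` and at most `B` preimages `(J, g)`, so
`Nrm (dl f̂) ≤ B 2^(d+1) |T| cochainNorm (coboundary i f)`.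
-/
theorem final_of (d n B C : ℕ) (hd : 1 ≤ d) : ∃ D : ℕ, ∃ ε : ℝ, 0 < ε ∧
    ∀ (I G : Type) [Fintype I] [DecidableEq I] [Group G] [Fintype G] (K : I → Subgroup G),
      d + 1 ≤ Fintype.card I → Fintype.card I ≤ n → (∀ j, Nat.card (K j) ≤ B) →
      (∀ m, 1 ≤ m → m ≤ d → CobExp K ⊤ univ m C) →
      ∃ nv : ℕ, ∃ T : Finset (Finset (Fin nv)), Nat.card G ≤ B * nv ∧
        (∀ τ ∈ T, τ.card = d + 1) ∧
        (∀ v : Fin nv, 1 ≤ Cochain.vertexDegree T v ∧ Cochain.vertexDegree T v ≤ D) ∧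
        (Cochain.skeleton T).Connected ∧
        ∀ i : ℕ, i < d → ∀ f : Finset (Fin nv) → ZMod 2,
          ∃ b : Finset (Fin nv) → ZMod 2, Cochain.IsCoboundaryClass i b ∧
            ε * Cochain.cochainNorm d T i (f - b)
              ≤ Cochain.cochainNorm d T (i + 1) (Cochain.coboundary i f) := by
  classical
  refine ⟨2 ^ n * B, 1 / ((C : ℝ) * (2 ^ n * B : ℕ) * (B * 2 ^ (d + 1)) + 1), by positivity, ?_⟩
  intro I G _ _ _ _ K hI hn hB hC
  obtain ⟨nv, ver, hv, hsurj⟩ := Final.exists_ver K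
  obtain ⟨j₀⟩ : Nonempty I := Fintype.card_pos_iff.1 (by omega)
  have hT : ∀ τ ∈ Final.tops ver d, τ.card = d + 1 := fun τ hτ => by
    obtain ⟨J, g, h, rfl⟩ := Final.mem_tops.1 hτ
    rw [Final.card_face hv, h]
  have hdeg : ∀ v, 1 ≤ Cochain.vertexDegree (Final.tops ver d) v := fun v => by
    obtain ⟨j, g, rfl⟩ := hsurj v
    obtain ⟨τ, h1, h2⟩ := Final.exists_top (ver := ver) hI (J := {j}) (by simp) g
    exact card_pos.2 ⟨τ, mem_filter.2 ⟨h1, h2 (mem_image_of_mem _ (mem_singleton_self j))⟩⟩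
  have hexp : ∀ i : ℕ, i < d → ∀ f : Finset (Fin nv) → ZMod 2,
      ∃ b : Finset (Fin nv) → ZMod 2, Cochain.IsCoboundaryClass i b ∧
        1 / ((C : ℝ) * (2 ^ n * B : ℕ) * (B * 2 ^ (d + 1)) + 1) *
            Cochain.cochainNorm d (Final.tops ver d) i (f - b)
          ≤ Cochain.cochainNorm d (Final.tops ver d) (i + 1) (Cochain.coboundary i f) := by
    intro i hi f
    obtain ⟨y, hy, hle⟩ := hC (i + 1) (by omega) (by omega) (fun J g => f (Final.face ver J g))
      fun J g k _ hk => congrArg f (Final.face_mul hv g hk)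
    obtain ⟨b, hb, e⟩ := Final.exists_b hv i hy
    refine ⟨b, hb, ?_⟩
    have h1 := Final.norm_le hv hi.le (Final.deg_le hv hB hn) (h := f - b)
      (h' := (fun J g => f (Final.face ver J g)) - dl y) fun J g hJ => by
        simp only [Pi.sub_apply, e J g hJ]
    have h2 := Final.le_norm hv (i := i + 1) hi hI hB (h := Cochain.coboundary i f)
      (h' := dl fun J g => f (Final.face ver J g)) fun J g hJ => Final.cob_face hv f hJ g
    have h3 : 0 ≤ Cochain.cochainNorm d (Final.tops ver d) (i + 1) (Cochain.coboundary i f) :=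
      sum_nonneg fun σ _ => Final_weight_nonneg _ _ _ _
    have h4 : (Nrm ⊤ univ (i + 1) ((fun J g => f (Final.face ver J g)) - dl y) : ℝ) ≤
        C * Nrm ⊤ univ (i + 1 + 1) (dl fun J g => f (Final.face ver J g)) := by exact_mod_cast hle
    rw [one_div_mul_eq_div, div_le_iff₀ (by positivity)]
    calc _ ≤ _ := h1
      _ ≤ C * Nrm ⊤ univ (i + 1 + 1) (dl fun J g => f (Final.face ver J g)) *
          (((2 ^ n * B : ℕ) : ℝ) / (Final.tops ver d).card) :=
        mul_le_mul_of_nonneg_right h4 (by positivity)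
      _ = C * (2 ^ n * B : ℕ) * ((Nrm ⊤ univ (i + 1 + 1) (dl fun J g => f (Final.face ver J g)) : ℝ) /
          (Final.tops ver d).card) := by ring
      _ ≤ C * (2 ^ n * B : ℕ) * (B * 2 ^ (d + 1) *
          Cochain.cochainNorm d (Final.tops ver d) (i + 1) (Cochain.coboundary i f)) :=
        mul_le_mul_of_nonneg_left h2 (by positivity)
      _ ≤ _ := by nlinarith
  refine ⟨nv, Final.tops ver d, ?_, hT, fun v => ⟨hdeg v, Final.deg_le hv hB hn v⟩,
    connected_of_exp hd (ver j₀ 1).pos hT hdeg (by positivity) (hexp 0 (by omega)), hexp⟩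
  rw [Nat.card_eq_fintype_card, ← card_univ]
  refine (card_le_mul_card_image (f := ver j₀) univ B fun v hv' => ?_).trans
    (Nat.mul_le_mul_left _ ((card_le_univ _).trans (Fintype.card_fin nv).le))
  obtain ⟨g₀, -, rfl⟩ := mem_image.1 hv'
  refine le_trans (card_le_card fun g hg => ?_) (Final.card_fib hB j₀ g₀)
  exact mem_filter.2 ⟨mem_univ _, ((hv _ _ _ _).1 (mem_filter.1 hg).2.symm).2⟩

end Crest.Agent.R66
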