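import Crest.Agent.R66.Basic

/-! Task R66-Geom: generic raising in subspace posets (add a generic line). -/
set_option autoImplicit false
set_option linter.unusedSectionVars false
namespace Crest.Agent.R66
open Finset

variable {F ι : Type} [Field F]

theorem tpos_geom (pos : ι → ℕ) (r : ℕ) (π : ℕ → ℕ) (Rc Rr : Finset ι)
    (okY : Submodule F (ι → F) → Prop) :
    TPos (GLt (F := F) (ι := ι)) Prod.fst (GVal pos (r + 1) π Rc Rr okY) r :=
  ⟨fun _ _ _ h h' => ⟨h.1.trans h'.1, h.2.trans h'.2⟩, fun _ _ h => h.1, fun _ h => h.1⟩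

/-
PLAN.  Notation: `E l = Zc (pos a < π l)` (vectors supported on positions `≥ π l`),
`B l = Zc (¬(a ∈ Rc ∧ pos a < π l))`, `D0 = Zc (a ∈ Rr)`, `e_l = Pi.single (lv l) 1`.
`π` is monotone on `[0, ν]`.  Let `Z = (z, Y₀)`, `z ≤ ν`; for `u = (l, U) ∈ A` (`l + 1 < z`, `U ≤ Y₀`) put
`H_u = U ⊔ B (l+1) ⊔ E (l+1)` and `φ u = (l+1, U ⊔ span {ℓ} ⊔ B (l+1))` for ONE vector
`ℓ ∈ Y₀ ⊓ D0` avoiding all `H_u` and one more subspace `X_u` per `u` (below): apply
`Submodule.iUnion_ssubset_of_forall_ne_top_of_card_lt` in the module `↥(Y₀ ⊓ D0)` to the `comap`s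
(index set `A ×ˢ Bool` or `A.disjSum A`, `≤ 2N` subspaces, each not containing `Y₀ ⊓ D0`).
* `Y₀ ⊓ D0 ≰ H_u`: by `IsCompl Y₀ (E z)` write `e_l = y + x`, `y ∈ Y₀`, `x ∈ E z`; `y ∈ D0` (coordinates at
  positions `≥ π z` by `Y₀ ≤ Zc …`, below `π z` it agrees with `e_l`, `lv l ∉ Rc ⊇ Rr`).  If
  `y = u + b + x'` then splitting `b = b_low + b_new` (`b_low ∈ B l ≤ U`, `b_new ∈ E l`) gives
  `u + b_low ∈ U ⊓ E l = ⊥` and the `lv l` coordinate gives `1 = 0`.
* `IsCompl (U ⊔ span ℓ ⊔ B (l+1)) (E (l+1))`.  Disjoint: `x = u + αℓ + b ∈ E (l+1)`; `α ≠ 0` would put `ℓ` in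
  `H_u`; then `u + b_low ∈ U ⊓ E l = ⊥`, so `x = b_new` is supported on positions `< π (l+1)`, so `0`.
  Codisjoint: `ℓ = u + x`, `x ∈ E l`, `x = x₀ e_l + b_new + x_high` (use `gap`), `x₀ ≠ 0` since `ℓ ∉ H_u`; so
  `e_l`, hence `E l`, hence everything is in the sum.
* `okY`.  `none`: nothing (`X_u = H_u`).  `col H`: if `0 < l`, `U ≰ H` already; if `l = 0` take
  `X_u = H`: `Y₀ ≰ H` (for `z = ν`, `E ν = ⊥` so `Y₀ = ⊤`); for `y ∈ Y₀ \ H` subtract its `Rc`-part
  (which lies in `B z ≤ Y₀` because `Rc = Rr`, and in `H`).  `row W'`: if `z < ν`, `φ u ≤ Y₀` and `Y₀` is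
  ok.  If `z = ν` pick `v ∈ W' \ (U ⊔ Ball)` (`Ball = Zc (a ∉ Rc)`; for `l = 0`, `U = ⊥` as `E 0 = ⊤`) and
  `X_u = U ⊔ Ball ⊔ span {v}`; it does not contain both `e_l, e_{l+1} ∈ D0` (else a nontrivial
  combination `x e_l + y e_{l+1} ∈ U ⊔ Ball`, whence `x e_l + y e_{l+1} - b_high ∈ U ⊓ E l = ⊥`); and
  `v ∈ U ⊔ span ℓ ⊔ Ball` would give `ℓ ∈ X_u`.
-/
namespace Geom

theorem avoid {M κ : Type} [AddCommGroup M] [Module F M] [Fintype κ] (V : Submodule F M)
    (p : κ → Submodule F M) (h : ∀ i, ¬ V ≤ p i) (hc : (Fintype.card κ : ℕ∞) < ENat.card F) :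
    ∃ v ∈ V, ∀ i, v ∉ p i := by
  have := Submodule.iUnion_ssubset_of_forall_ne_top_of_card_lt (Finset.univ : Finset κ)
    (fun i => (p i).comap V.subtype) (fun i hi => h i fun v hv => by
      have : (⟨v, hv⟩ : V) ∈ (p i).comap V.subtype := hi ▸ Submodule.mem_top
      exact this) hc
  obtain ⟨v, -, hv⟩ := Set.exists_of_ssubset this
  refine ⟨v, v.2, fun i hi => hv ?_⟩
  simp only [Set.mem_iUnion]
  exact ⟨i, Finset.mem_univ _, hi⟩

theorem mem_line {M : Type} [AddCommGroup M] [Module F M] {S : Submodule F M} {v x : M}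
    (h : x ∈ S ⊔ Submodule.span F {v}) : ∃ w ∈ S, ∃ a : F, x = w + a • v := by
  obtain ⟨w, hw, y, hy, rfl⟩ := Submodule.mem_sup.1 h
  obtain ⟨a, rfl⟩ := Submodule.mem_span_singleton.1 hy
  exact ⟨w, hw, a, rfl⟩

theorem exch {M : Type} [AddCommGroup M] [Module F M] {S : Submodule F M} {v w x : M} {a : F}
    (ha : a ≠ 0) (e : x = w + a • v) (hx : x ∈ S) (hw : w ∈ S) : v ∈ S := by
  have : v = a⁻¹ • (x - w) := by rw [e, add_sub_cancel_left, smul_smul, inv_mul_cancel₀ ha, one_smul]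
  rw [this]
  exact S.smul_mem _ (S.sub_mem hx hw)

theorem decomp {M : Type} [AddCommGroup M] [Module F M] {U V : Submodule F M} (hc : IsCompl U V)
    (x : M) : ∃ u ∈ U, ∃ y ∈ V, u + y = x :=
  Submodule.mem_sup.1 (by rw [hc.codisjoint.eq_top]; trivial)

open Classical in
/-- restriction to the coordinates satisfying `P` -/
noncomputable def cut (P : ι → Prop) (v : ι → F) : ι → F := fun a => if P a then v a else 0

theorem cut_pos {P : ι → Prop} {a : ι} (h : P a) (v : ι → F) : cut P v a = v a := if_pos h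

theorem cut_neg {P : ι → Prop} {a : ι} (h : ¬ P a) (v : ι → F) : cut P v a = 0 := if_neg h

theorem cut_zero {P : ι → Prop} {a : ι} {v : ι → F} (h : v a = 0) : cut P v a = 0 := by
  unfold cut; split_ifs <;> simp [h]

/-- vectors supported on positions `≥ c` -/
abbrev EE (F : Type) [Field F] (pos : ι → ℕ) (c : ℕ) : Submodule F (ι → F) :=
  Zc F (fun a => pos a < c)

/-- vectors supported on frozen columns at positions `< c` -/
abbrev BB (F : Type) [Field F] (pos : ι → ℕ) (Rc : Finset ι) (c : ℕ) : Submodule F (ι → F) :=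
  Zc F (fun a => ¬ (a ∈ Rc ∧ pos a < c))

theorem key {pos : ι → ℕ} {Rc : Finset ι} {c : ℕ} {U : Submodule F (ι → F)} {P : ι → Prop}
    (hP : ∀ a, a ∉ Rc → P a) (hB : BB F pos Rc c ≤ U) (hd : Disjoint U (EE F pos c)) {w : ι → F}
    (h1 : w ∈ U ⊔ Zc F P) (h2 : w ∈ EE F pos c) : w ∈ Zc F P := by
  obtain ⟨u, hu, b, hb, rfl⟩ := Submodule.mem_sup.1 h1
  have hlow : cut (fun a => pos a < c) b ∈ BB F pos Rc c := fun a ha => by
    by_cases h : pos a < c
    · exact cut_zero (hb a (hP a fun h' => ha ⟨h', h⟩))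
    · exact cut_neg (P := fun a => pos a < c) h b
  have h0 : u + cut (fun a => pos a < c) b = 0 :=
    (Submodule.disjoint_def.1 hd) _ (U.add_mem hu (hB hlow)) fun a ha => by
      rw [Pi.add_apply, cut_pos (P := fun a => pos a < c) ha]; exact h2 a ha
  intro a ha
  have := congrFun h0 a
  rw [Pi.add_apply, cut_zero (hb a ha), add_zero] at this
  rw [Pi.add_apply, hb a ha, this]
  simp

variable [DecidableEq ι] {pos : ι → ℕ} {ν : ℕ} {π : ℕ → ℕ} {lv : ℕ → ι} {Rc Rr : Finset ι}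

theorem pi_mono (hL : Lay pos ν π lv Rc Rr) {l l' : ℕ} (h : l ≤ l') (h' : l' ≤ ν) :
    π l ≤ π l' := by
  induction h with
  | refl => exact le_rfl
  | step _ ih => exact (ih (by omega)).trans (hL.mono _ h').le

theorem EE_anti {c c' : ℕ} (h : c ≤ c') : EE F pos c' ≤ EE F pos c :=
  fun _ hv a ha => hv a (lt_of_lt_of_le ha h)

theorem BB_mono {c c' : ℕ} (h : c ≤ c') : BB F pos Rc c ≤ BB F pos Rc c' :=
  fun _ hv a ha => hv a fun h' => ha ⟨h'.1, lt_of_lt_of_le h'.2 h⟩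

theorem e_mem (hL : Lay pos ν π lv Rc Rr) {l : ℕ} (hl : l < ν) {P : ι → Prop} (h : ¬ P (lv l)) :
    (Pi.single (lv l) 1 : ι → F) ∈ Zc F P := fun a ha =>
  Pi.single_eq_of_ne (by rintro rfl; exact h ha) _

theorem e_memE (hL : Lay pos ν π lv Rc Rr) {l : ℕ} (hl : l < ν) {c : ℕ} (h : c ≤ π l) :
    (Pi.single (lv l) 1 : ι → F) ∈ EE F pos c :=
  e_mem hL hl (by rw [hL.pos_lv l hl]; omega)

theorem dec (hL : Lay pos ν π lv Rc Rr) {l : ℕ} (hl : l < ν) {x : ι → F}
    (hx : x ∈ EE F pos (π l)) :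
    x - x (lv l) • (Pi.single (lv l) 1 : ι → F) ∈
      BB F pos Rc (π (l + 1)) ⊔ EE F pos (π (l + 1)) := by
  have hy : x - x (lv l) • (Pi.single (lv l) 1 : ι → F) ∈ EE F pos (π l) :=
    Submodule.sub_mem _ hx (Submodule.smul_mem _ _ (e_memE hL hl le_rfl))
  have h0 : (x - x (lv l) • (Pi.single (lv l) 1 : ι → F)) (lv l) = 0 := by simp
  generalize x - x (lv l) • (Pi.single (lv l) 1 : ι → F) = y at hy h0
  refine Submodule.mem_sup.2 ⟨cut (fun a => pos a < π (l + 1)) y, fun a ha => ?_,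
    y - cut (fun a => pos a < π (l + 1)) y, fun a ha => ?_, by simp⟩
  · by_cases h : pos a < π (l + 1)
    · refine cut_zero ?_
      by_cases h' : pos a < π l
      · exact hy a h'
      · rcases hL.gap a l hl (by omega) h with rfl | h''
        · exact h0
        · exact (ha ⟨h'', h⟩).elim
    · exact cut_neg (P := fun a => pos a < π (l + 1)) h y
  · rw [Pi.sub_apply, cut_pos (P := fun a => pos a < π (l + 1)) ha, sub_self]

variable {okY : Submodule F (ι → F) → Prop}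

theorem not_le_H (hL : Lay pos ν π lv Rc Rr) {z l : ℕ} {Y U : Submodule F (ι → F)}
    (hZ : GVal pos ν π Rc Rr okY (z, Y)) (hU : GVal pos ν π Rc Rr okY (l, U)) (hl : l + 1 < z) :
    ¬ Y ⊓ Zc F (fun a => a ∈ Rr) ≤ U ⊔ BB F pos Rc (π (l + 1)) ⊔ EE F pos (π (l + 1)) := by
  intro h
  obtain ⟨hz, -, hR, hc, -⟩ := hZ
  obtain ⟨-, hB, -, hc', -⟩ := hU
  dsimp only at hz hR hc hB hc'
  have hlν : l < ν := by omega
  have m1 := hL.mono l hlν
  have m2 : π (l + 1) ≤ π z := pi_mono hL hl.le hz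
  have hp := hL.pos_lv l hlν
  obtain ⟨y, hy, x, hx, e⟩ := decomp hc (Pi.single (lv l) 1 : ι → F)
  have hyD : y ∈ Zc F (fun a => a ∈ Rr) := fun a ha => by
    by_cases h' : pos a < π z
    · have := congrFun e a
      rw [Pi.add_apply, hx a h', add_zero] at this
      rw [this]
      exact e_mem hL hlν (fun h'' => hL.live l hlν (hL.sub h'')) a ha
    · exact hR hy a ⟨ha, by omega⟩
  obtain ⟨w, hw, x', hx', rfl⟩ := Submodule.mem_sup.1 (h ⟨hy, hyD⟩)
  have e' : w = Pi.single (lv l) 1 - x - x' := by rw [← e]; abel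
  have hwE : w ∈ EE F pos (π l) := by
    rw [e']
    exact Submodule.sub_mem _ (Submodule.sub_mem _ (e_memE hL hlν le_rfl)
      (EE_anti (by omega) hx)) (EE_anti m1.le hx')
  have := key (P := fun a => ¬ (a ∈ Rc ∧ pos a < π (l + 1))) (fun a ha h => ha h.1) hB
    hc'.disjoint hw hwE (lv l) fun h => hL.live l hlν h.1
  rw [e', Pi.sub_apply, Pi.sub_apply, hx _ (by omega), hx' _ (by omega)] at this
  simp at this

theorem compl (hL : Lay pos ν π lv Rc Rr) {l : ℕ} (hl : l < ν) {U : Submodule F (ι → F)}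
    (hU : GVal pos ν π Rc Rr okY (l, U)) {v : ι → F}
    (hv : v ∉ U ⊔ BB F pos Rc (π (l + 1)) ⊔ EE F pos (π (l + 1))) :
    IsCompl (U ⊔ BB F pos Rc (π (l + 1)) ⊔ Submodule.span F {v}) (EE F pos (π (l + 1))) := by
  obtain ⟨-, hB, -, hc, -⟩ := hU
  dsimp only at hB hc
  have m1 := hL.mono l hl
  constructor
  · refine Submodule.disjoint_def.2 fun x hx hxE => ?_
    obtain ⟨w, hw, a, e⟩ := mem_line hx
    by_cases ha : a = 0
    · rw [ha, zero_smul, add_zero] at e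
      subst e
      have := key (P := fun a => ¬ (a ∈ Rc ∧ pos a < π (l + 1))) (fun a ha h => ha h.1) hB
        hc.disjoint hw (EE_anti m1.le hxE)
      funext a
      by_cases h : pos a < π (l + 1)
      · exact hxE a h
      · exact this a fun h' => h h'.2
    · exact (hv (exch ha e (Submodule.mem_sup_right hxE) (Submodule.mem_sup_left hw))).elim
  · refine codisjoint_iff.2 (eq_top_iff.2 (hc.codisjoint.eq_top.ge.trans ?_))
    set S := U ⊔ BB F pos Rc (π (l + 1)) ⊔ Submodule.span F {v} ⊔ EE F pos (π (l + 1))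
    have hUS : U ≤ S := le_sup_of_le_left (le_sup_of_le_left le_sup_left)
    have hBE : BB F pos Rc (π (l + 1)) ⊔ EE F pos (π (l + 1)) ≤ S :=
      sup_le (le_sup_of_le_left (le_sup_of_le_left le_sup_right)) le_sup_right
    have hvS : v ∈ S :=
      Submodule.mem_sup_left (Submodule.mem_sup_right (Submodule.mem_span_singleton_self v))
    obtain ⟨u, hu, x, hx, e⟩ := decomp hc v
    have hd := dec hL hl hx
    have hx0 : x (lv l) ≠ 0 := fun h0 => hv (by
      rw [h0, zero_smul, sub_zero] at hd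
      rw [← e, sup_assoc]
      exact Submodule.add_mem_sup hu hd)
    have hxS : x ∈ S := by
      rw [← eq_sub_iff_add_eq'] at e
      rw [e]
      exact S.sub_mem hvS (hUS hu)
    have heS : (Pi.single (lv l) 1 : ι → F) ∈ S :=
      exch hx0 (sub_add_cancel _ _).symm hxS (hBE hd)
    refine sup_le hUS fun y hy => ?_
    rw [← sub_add_cancel y (y (lv l) • (Pi.single (lv l) 1 : ι → F))]
    exact S.add_mem (hBE (dec hL hl hy)) (S.smul_mem _ heS)

theorem top_of (hL : Lay pos ν π lv Rc Rr) {Y : Submodule F (ι → F)}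
    (hc : IsCompl Y (EE F pos (π ν))) : Y = ⊤ := by
  have : EE F pos (π ν) = ⊥ := eq_bot_iff.2 fun v hv => funext fun a => hv a (hL.lt_top a)
  rw [this] at hc
  exact eq_top_of_isCompl_bot hc

theorem exX (hL : Lay pos ν π lv Rc Rr) (hk : OkKind Rc Rr okY) {z l : ℕ}
    {Y U : Submodule F (ι → F)} (hZ : GVal pos ν π Rc Rr okY (z, Y))
    (hU : GVal pos ν π Rc Rr okY (l, U)) (hl : l + 1 < z) (hUY : U ≤ Y) :
    ∃ X : Submodule F (ι → F), ¬ Y ⊓ Zc F (fun a => a ∈ Rr) ≤ X ∧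
      ∀ v ∈ Y, v ∉ X → okY (U ⊔ BB F pos Rc (π (l + 1)) ⊔ Submodule.span F {v}) := by
  have h0 := not_le_H hL hZ hU hl
  obtain ⟨hz, hBY, hR, hc, hok⟩ := hZ
  obtain ⟨-, hB, -, hc', hok'⟩ := hU
  dsimp only at hz hBY hR hc hok hB hc' hok'
  cases hk with
  | none => exact ⟨_, h0, fun _ _ _ => trivial⟩
  | col H hRc hBH hH =>
    refine ⟨H, fun h => ?_, fun v _ hv h => hv (h (Submodule.mem_sup_right
      (Submodule.mem_span_singleton_self v)))⟩
    have hY : ¬ Y ≤ H := by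
      rcases hz.lt_or_eq with h' | rfl
      · exact hok (by omega) h'
      · rw [top_of hL hc, top_le_iff]; exact hH
    refine hY fun y hy => ?_
    have hb : cut (fun a => a ∈ Rc) y ∈ H := hBH fun a ha => cut_neg (P := fun a => a ∈ Rc) ha y
    have hb' : cut (fun a => a ∈ Rc) y ∈ Y := hBY fun a ha => by
      by_cases h' : a ∈ Rc
      · exact cut_zero (hR hy a ⟨hRc ▸ h', not_lt.1 fun h'' => ha ⟨h', h''⟩⟩)
      · exact cut_neg (P := fun a => a ∈ Rc) h' y
    rw [← sub_add_cancel y (cut (fun a => a ∈ Rc) y)]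
    refine H.add_mem (h ⟨Y.sub_mem hy hb', fun a ha => ?_⟩) hb
    rw [Pi.sub_apply, cut_pos (P := fun a => a ∈ Rc) (hRc ▸ ha), sub_self]
  | row W' hW =>
    rcases hz.lt_or_eq with h' | rfl
    · refine ⟨_, h0, fun v hv _ h => hok (by omega) h' (h.trans (sup_le_sup_right ?_ _))⟩
      exact sup_le (sup_le hUY ((BB_mono (pi_mono hL hl.le hz)).trans hBY))
        ((Submodule.span_singleton_le_iff_mem _ _).2 hv)
    have hW' : ¬ W' ≤ U ⊔ Zc F (fun a => a ∉ Rc) := by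
      rcases Nat.eq_zero_or_pos l with rfl | hl0
      · have : EE F pos (π 0) = ⊤ :=
          eq_top_iff.2 fun v _ a ha => by rw [hL.zero] at ha; omega
        have hc'' : IsCompl U (EE F pos (π 0)) := hc'
        rw [this] at hc''
        rw [eq_bot_of_isCompl_top hc'', bot_sup_eq]
        exact hW
      · exact hok' hl0 (by omega)
    obtain ⟨w, hwW, hw⟩ := SetLike.not_le_iff_exists.1 hW'
    refine ⟨U ⊔ Zc F (fun a => a ∉ Rc) ⊔ Submodule.span F {w}, fun h => ?_, fun v _ hv h => ?_⟩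
    · rw [top_of hL hc, top_inf_eq] at h
      have l1 : l < z := by omega
      have m1 := hL.mono l l1
      have hne : lv l ≠ lv (l + 1) := fun e => by
        have := hL.pos_lv l l1
        rw [e, hL.pos_lv _ hl] at this
        omega
      obtain ⟨w₁, hw₁, a, e₁⟩ := mem_line (h (e_mem hL l1 fun h'' => hL.live l l1 (hL.sub h'')))
      obtain ⟨w₂, hw₂, b, e₂⟩ := mem_line (h (e_mem hL hl fun h'' => hL.live _ hl (hL.sub h'')))
      have e₃ : b • (Pi.single (lv l) 1 : ι → F) - a • (Pi.single (lv (l + 1)) 1 : ι → F) =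
          b • w₁ - a • w₂ := by
        rw [e₁, e₂]; module
      have k₁ := key (fun a ha => ha) hB hc'.disjoint
        (e₃ ▸ Submodule.sub_mem _ (Submodule.smul_mem _ b hw₁) (Submodule.smul_mem _ a hw₂))
        (Submodule.sub_mem _ (Submodule.smul_mem _ b (e_memE hL l1 le_rfl))
          (Submodule.smul_mem _ a (e_memE hL hl m1.le))) _ (hL.live _ hl)
      have ha : a = 0 := by simpa [Pi.single_eq_of_ne hne.symm] using k₁
      rw [ha, zero_smul, add_zero] at e₁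
      have k₂ := key (fun a ha => ha) hB hc'.disjoint (e₁ ▸ hw₁) (e_memE hL l1 le_rfl) _
        (hL.live _ l1)
      simp at k₂
    · have hle : U ⊔ BB F pos Rc (π (l + 1)) ⊔ Submodule.span F {v} ⊔ Zc F (fun a => a ∉ Rc) ≤
          U ⊔ Zc F (fun a => a ∉ Rc) ⊔ Submodule.span F {v} :=
        sup_le (sup_le_sup_right (sup_le_sup_left (fun x hx a ha => hx a fun h' => ha h'.1) _) _)
          (le_sup_of_le_left le_sup_right)
      obtain ⟨x, hx, a, e⟩ := mem_line (hle (h hwW))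
      have ha : a ≠ 0 := by
        rintro rfl
        rw [zero_smul, add_zero] at e
        exact hw (e ▸ hx)
      exact hv (exch ha e (Submodule.mem_sup_right (Submodule.mem_span_singleton_self w))
        (Submodule.mem_sup_left hx))

end Geom

open Geom in
theorem gen_geom [Fintype ι] [DecidableEq ι] [DecidableEq (ℕ × Submodule F (ι → F))]
    {pos : ι → ℕ} {ν : ℕ} {π : ℕ → ℕ} {lv : ℕ → ι} {Rc Rr : Finset ι}
    (hL : Lay pos ν π lv Rc Rr) {okY : Submodule F (ι → F) → Prop} (hk : OkKind Rc Rr okY)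
    {N : ℕ} (hN : ((2 * N : ℕ) : ℕ∞) < ENat.card F) :
    Gen (GLt (F := F) (ι := ι)) Prod.fst (GVal pos ν π Rc Rr okY) N := by
  rintro ⟨z, Y⟩ hZ A hA h
  choose X hX hX' using fun u : A =>
    exX hL hk (l := u.1.1) (U := u.1.2) hZ (h u.1 u.2).1 (h u.1 u.2).2.2 (h u.1 u.2).2.1.2
  obtain ⟨v, hv, hav⟩ := avoid (κ := A ⊕ A) (Y ⊓ Zc F (fun a => a ∈ Rr))
    (Sum.elim X fun u => u.1.2 ⊔ BB F pos Rc (π (u.1.1 + 1)) ⊔ EE F pos (π (u.1.1 + 1)))
    (by
      rintro (u | u)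
      · exact hX u
      · exact not_le_H hL hZ (h u.1 u.2).1 (h u.1 u.2).2.2)
    (lt_of_le_of_lt (by
      rw [Fintype.card_sum, Fintype.card_coe]
      exact_mod_cast (by omega : A.card + A.card ≤ 2 * N)) hN)
  have hz : z ≤ ν := hZ.1
  refine ⟨fun u => (u.1 + 1, u.2 ⊔ BB F pos Rc (π (u.1 + 1)) ⊔ Submodule.span F {v}),
    fun u hu => ?_, fun u _ u' hu' huu => ?_⟩
  · obtain ⟨hU, hlt, hl⟩ := h u hu
    have hl' : u.1 + 1 < z := hl
    have m1 := hL.mono u.1 (by omega)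
    refine ⟨⟨by dsimp only; omega, le_sup_of_le_left le_sup_right, sup_le (sup_le ?_ ?_) ?_,
      compl hL (by omega) hU (hav (Sum.inr ⟨u, hu⟩)),
      fun _ _ => hX' ⟨u, hu⟩ v hv.1 (hav (Sum.inl ⟨u, hu⟩))⟩,
      ⟨Nat.lt_succ_self _, le_sup_of_le_left le_sup_left⟩, ⟨hl', sup_le (sup_le hlt.2 ?_) ?_⟩, rfl⟩
    · exact fun x hx a ha => hU.2.2.1 hx a ⟨ha.1, m1.le.trans ha.2⟩
    · exact fun x hx a ha => hx a fun h' => absurd h'.2 (not_lt.2 ha.2)
    · exact (Submodule.span_singleton_le_iff_mem _ _).2 fun a ha => hv.2 a ha.1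
    · exact (BB_mono (pi_mono hL hl'.le hz)).trans hZ.2.1
    · exact (Submodule.span_singleton_le_iff_mem _ _).2 hv.1
  · have hl' : u'.1 + 1 < z := (h u' hu').2.2
    have := huu.1
    exact ⟨Nat.succ_lt_succ huu.1, sup_le_sup_right (sup_le_sup huu.2
      (BB_mono (pi_mono hL (by omega) (by omega)))) _⟩

end Crest.Agent.R66
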