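import Crest.Agent.R66.Basic

/-! Task R66-GrpBasic: elementary facts on the matrix groups. -/
set_option autoImplicit false
set_option linter.unusedSectionVars false
namespace Crest.Agent.R66
open Finset Matrix

variable {p : ℕ} [Fact p.Prime] {A : Type} [CommRing A] [Algebra (ZMod p) A] [Finite A]
  {n : ℕ} [NeZero n] {t : A}

theorem tau_ne_zero (hg : Good p t) (a b : Fin n) : tau t a b ≠ 0 := by
  unfold tau
  split_ifs
  · exact hg.ne
  · intro h
    exact hg.ne (by rw [← mul_one t, h, mul_zero])

theorem entry_inj (hg : Good p t) {γ γ' : ZMod p} {a b : Fin n}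
    (h : algebraMap (ZMod p) A γ * tau t a b = algebraMap (ZMod p) A γ' * tau t a b) : γ = γ' := by
  by_contra hne
  have h1 : algebraMap (ZMod p) A (γ - γ') * tau t a b = 0 := by rw [map_sub, sub_mul, h, sub_self]
  have h2 : (γ - γ')⁻¹ * (γ - γ') = 1 := inv_mul_cancel₀ (sub_ne_zero.2 hne)
  apply tau_ne_zero hg a b
  rw [← one_mul (tau t a b), ← map_one (algebraMap (ZMod p) A), ← h2, map_mul, mul_assoc, h1,
    mul_zero]

/- `t ≠ 0` makes `A` nontrivial; `algebraMap γ` is a unit for `γ ≠ 0`. -/
theorem phi_injective (hg : Good p t) :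
    Function.Injective (phi p t : Matrix (Fin n) (Fin n) (ZMod p) → Matrix (Fin n) (Fin n) A) := by
  intro κ κ' h
  ext a b
  exact entry_inj hg (congrFun (congrFun h a) b)

theorem kap_eq (hg : Good p t) {g : GG n t} {κ : Matrix (Fin n) (Fin n) (ZMod p)}
    (h : mat g = phi p t κ) : kap p g = κ := by
  rw [kap, h]
  exact Function.leftInverse_invFun (phi_injective hg) κ

theorem kap_spec (hg : Good p t) {j : Fin n} {g : GG n t} (h : g ∈ KK p t j) :
    UU j (kap p g) ∧ mat g = phi p t (kap p g) := by
  obtain ⟨κ, h1, h2⟩ := h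
  rw [kap_eq hg h2]
  exact ⟨h1, h2⟩

theorem kap_one (hg : Good p t) : kap p (1 : GG n t) = 1 :=
  kap_eq hg (by rw [phi_one, mat_one])

theorem kap_mul (hg : Good p t) {j : Fin n} {g h : GG n t} (hg' : g ∈ KK p t j)
    (hh : h ∈ KK p t j) : kap p (g * h) = kap p g * kap p h :=
  kap_eq hg (by
    rw [mat_mul, phi_mul p t (kap_spec hg hg').1 (kap_spec hg hh).1, ← (kap_spec hg hg').2,
      ← (kap_spec hg hh).2])

/- `det (phi κ) = 1`: `phi κ` is triangular for the order `pos j`. -/
theorem exists_phi {j : Fin n} {κ : Matrix (Fin n) (Fin n) (ZMod p)} (h : UU j κ) :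
    ∃ g : GG n t, mat g = phi p t κ := by
  refine ⟨mkG (phi p t κ) ?_ (fun a b hab => ?_) (fun a => ?_), rfl⟩
  · rw [← Matrix.det_submatrix_equiv_self (Equiv.addRight j), Matrix.det_of_isLowerTriangular]
    · refine Finset.prod_eq_one fun a _ => ?_
      simp [phi, h.1, tau]
    · intro a b hab
      have : κ (a + j) (b + j) = 0 := h.2 _ _ (by simpa [pos] using hab)
      simp [phi, this]
  · simp [phi, tau, hab]
  · simp [phi, tau, h.1]

theorem el_add {a b : Fin n} (hab : a ≠ b) {α β : A} (hα : tau t a b ∣ α) (hβ : tau t a b ∣ β) :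
    el t a b (α + β) = el t a b α * el t a b β := by
  apply mat_inj
  rw [mat_mul, mat_el hab hα, mat_el hab hβ, mat_el hab (dvd_add hα hβ),
    transvection_mul_transvection_same _ _ hab]

theorem el_zero (a b : Fin n) : el t a b 0 = 1 := by
  by_cases hab : a = b
  · rw [el, dif_neg fun h => h.1 hab]
  · apply mat_inj
    rw [mat_el hab (dvd_zero _), transvection_zero, mat_one]

theorem tau_dvd_mul (a b c : Fin n) : tau t a b ∣ tau t a c * tau t c b := by
  unfold tau
  split_ifs with h1 h2 h3 h4
  any_goals simp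
  exact absurd (lt_of_lt_of_le h1 ((not_lt.1 h4).trans (not_lt.1 h2))) (lt_irrefl _)

/-- Steinberg relation -/
theorem el_comm {a b c : Fin n} (hab : a ≠ b) (hac : a ≠ c) (hcb : c ≠ b) {α β : A}
    (hα : tau t a c ∣ α) (hβ : tau t c b ∣ β) :
    el t a c α * el t c b β = el t a b (α * β) * (el t c b β * el t a c α) := by
  apply mat_inj
  simp only [mat_mul]
  rw [mat_el hac hα, mat_el hcb hβ,
    mat_el hab ((tau_dvd_mul a b c).trans (mul_dvd_mul hα hβ))]
  simp only [transvection, add_mul, mul_add, one_mul, mul_one, single_mul_single_same,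
    single_mul_single_of_ne _ _ _ _ hab.symm, single_mul_single_of_ne _ _ _ _ hcb.symm,
    mul_zero, add_zero]
  abel

theorem el_commute {a b c d : Fin n} (hbc : b ≠ c) (hda : d ≠ a) (α β : A) :
    Commute (el t a b α) (el t c d β) := by
  by_cases h1 : a ≠ b ∧ tau t a b ∣ α
  · by_cases h2 : c ≠ d ∧ tau t c d ∣ β
    · apply mat_inj
      simp only [mat_mul]
      rw [mat_el h1.1 h1.2, mat_el h2.1 h2.2]
      simp only [transvection, add_mul, mul_add, one_mul, mul_one,
        single_mul_single_of_ne _ _ _ _ hbc, single_mul_single_of_ne _ _ _ _ hda, add_zero]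
      abel
    · rw [show el t c d β = 1 by rw [el, dif_neg h2]]; exact Commute.one_right _
  · rw [show el t a b α = 1 by rw [el, dif_neg h1]]; exact Commute.one_left _

theorem el_mem_GR {a b : Fin n} {α : A} {Rc Rr : Finset (Fin n)} (hb : b ∉ Rc) (ha : a ∉ Rr) :
    el t a b α ∈ GR t Rc Rr := by
  by_cases h1 : a ≠ b ∧ tau t a b ∣ α
  · rw [mem_GR, mat_el h1.1 h1.2]
    refine ⟨fun y hy x => ?_, fun x hx y => ?_⟩
    · have : ¬ (a = x ∧ b = y) := fun h => hb (h.2 ▸ hy)
      simp [transvection, Matrix.single, this]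
    · have : ¬ (a = x ∧ b = y) := fun h => ha (h.1 ▸ hx)
      simp [transvection, Matrix.single, this]
  · rw [show el t a b α = 1 by rw [el, dif_neg h1]]; exact one_mem _

theorem el_mem_KK {j a b : Fin n} (h : pos j b < pos j a) (γ : ZMod p) :
    el t a b (algebraMap (ZMod p) A γ * tau t a b) ∈ KK p t j := by
  have hab : a ≠ b := by rintro rfl; exact lt_irrefl _ h
  refine ⟨transvection a b γ, ⟨fun x => ?_, fun x y hxy => ?_⟩, ?_⟩
  · have : ¬ (a = x ∧ b = x) := fun h' => hab (h'.1.trans h'.2.symm)
    simp [transvection, Matrix.single, this]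
  · have h1 : ¬ (a = x ∧ b = y) := by rintro ⟨rfl, rfl⟩; omega
    have h2 : x ≠ y := by rintro rfl; exact lt_irrefl _ hxy
    simp [transvection, Matrix.single, h1, Matrix.one_apply_ne h2]
  · rw [mat_el hab (dvd_mul_left _ _)]
    ext x y
    have h0 := congrFun (congrFun (phi_one p t (n := n)) x) y
    simp only [phi, Matrix.of_apply] at h0
    simp only [phi, transvection, Matrix.of_apply, Matrix.add_apply, map_add, add_mul, h0]
    congr 1
    by_cases hxy : a = x ∧ b = y
    · obtain ⟨rfl, rfl⟩ := hxy; simp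
    · simp [Matrix.single, hxy]

theorem GR_empty : GR t (∅ : Finset (Fin n)) ∅ = ⊤ := by
  ext g; simp [mem_GR]

theorem GR_anti {Rc Rr Rc' Rr' : Finset (Fin n)} (h1 : Rc ⊆ Rc') (h2 : Rr ⊆ Rr') :
    GR t Rc' Rr' ≤ GR t Rc Rr :=
  fun _ hg => ⟨fun b hb => hg.1 b (h1 hb), fun a ha => hg.2 a (h2 ha)⟩

theorem GR_inf_cols (Rc Rr τ : Finset (Fin n)) :
    GR t Rc Rr ⊓ KJ (fun a : Fin n => GR t {a} ∅) τ = GR t (Rc ∪ τ) Rr := by
  ext g
  simp only [Subgroup.mem_inf, mem_KJ, mem_GR, mem_union, mem_singleton, forall_eq, notMem_empty,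
    false_imp_iff, implies_true, and_true]
  constructor
  · rintro ⟨⟨h1, h2⟩, h3⟩
    exact ⟨fun b hb => hb.elim (h1 b) (h3 b), h2⟩
  · rintro ⟨h1, h2⟩
    exact ⟨⟨fun b hb => h1 b (Or.inl hb), h2⟩, fun b hb => h1 b (Or.inr hb)⟩

/-- column matrices `1 + v e_e^T` (`v e = 0`) -/
theorem exists_col (e : Fin n) (v : Fin n → A) (he : v e = 0) (hv : ∀ a, a < e → t ∣ v a) :
    ∃ g : GG n t, mat g = 1 + vecMulVec v (Pi.single e 1) := by
  refine ⟨mkG _ ?_ (fun a b hab => ?_) (fun a => ?_), rfl⟩
  · rw [vecMulVec_eq Unit, det_one_add_replicateCol_mul_replicateRow]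
    simp [he]
  · by_cases hb : b = e
    · subst hb
      simpa [vecMulVec_apply, Matrix.one_apply_ne hab.ne] using hv a hab
    · simp [vecMulVec_apply, Matrix.one_apply_ne hab.ne, hb]
  · by_cases ha : a = e
    · subst ha; simp [vecMulVec_apply, he]
    · simp [vecMulVec_apply, ha]

/-- row matrices `1 + e_e v^T` (`v e = 0`) -/
theorem exists_row (e : Fin n) (v : Fin n → A) (he : v e = 0) (hv : ∀ b, e < b → t ∣ v b) :
    ∃ g : GG n t, mat g = 1 + vecMulVec (Pi.single e 1) v := by
  refine ⟨mkG _ ?_ (fun a b hab => ?_) (fun a => ?_), rfl⟩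
  · rw [vecMulVec_eq Unit, det_one_add_replicateCol_mul_replicateRow]
    simp [he]
  · by_cases hb : a = e
    · subst hb
      simpa [vecMulVec_apply, Matrix.one_apply_ne hab.ne] using hv b hab
    · simp [vecMulVec_apply, Matrix.one_apply_ne hab.ne, hb]
  · by_cases ha : a = e
    · subst ha; simp [vecMulVec_apply, he]
    · simp [vecMulVec_apply, ha]

/-- a column matrix is in every subgroup containing the corresponding elementary matrices
(induction on the support of `v`) -/
theorem col_mem {e : Fin n} {v : Fin n → A} (he : v e = 0) {g : GG n t}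
    (h : mat g = 1 + vecMulVec v (Pi.single e 1)) {L : Subgroup (GG n t)}
    (hL : ∀ a, a ≠ e → v a ≠ 0 → el t a e (v a) ∈ L) : g ∈ L := by
  have hv : ∀ a, a ≠ e → tau t a e ∣ v a := fun a ha => by
    unfold tau
    split_ifs with hlt
    · have := mat_lt g hlt
      simpa [h, vecMulVec_apply, Matrix.one_apply_ne ha] using this
    · exact one_dvd _
  have key : ∀ s : Finset (Fin n), e ∉ s → ∃ g' ∈ L,
      mat g' = 1 + vecMulVec (fun a => if a ∈ s then v a else 0) (Pi.single e 1) := by
    intro s
    induction s using Finset.induction_on with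
    | empty => intro _; exact ⟨1, one_mem _, by ext; simp [mat_one, vecMulVec_apply]⟩
    | insert a s has ih =>
      intro hes
      have hae : a ≠ e := fun h' => hes (h' ▸ mem_insert_self _ _)
      obtain ⟨g', h1, h2⟩ := ih fun h' => hes (mem_insert_of_mem h')
      have hm : el t a e (v a) ∈ L := by
        by_cases h0 : v a = 0
        · rw [h0, el_zero]; exact one_mem _
        · exact hL a hae h0
      refine ⟨g' * el t a e (v a), mul_mem h1 hm, ?_⟩
      rw [mat_mul, h2, mat_el hae (hv a hae), transvection, add_mul, mul_add, mul_add, one_mul,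
        one_mul, mul_one, vecMulVec_mul]
      have : (Pi.single e 1 : Fin n → A) ᵥ* Matrix.single a e (v a) = 0 := by
        funext x; simp [Matrix.single, hae]
      rw [this, vecMulVec_zero, add_zero, add_assoc]
      congr 1
      ext x y
      by_cases hy : y = e
      · subst hy
        by_cases hx : x = a
        · subst hx; simp [vecMulVec_apply, has]
        · simp [vecMulVec_apply, hx, Matrix.single, Ne.symm hx]
      · simp [vecMulVec_apply, hy, Matrix.single, Ne.symm hy]
  obtain ⟨g', h1, h2⟩ := key (univ.erase e) (notMem_erase _ _)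
  have : g = g' := mat_inj (by
    rw [h, h2]
    congr 2
    funext a
    by_cases ha : a = e <;> simp [ha, he])
  rwa [this]

theorem row_mem {e : Fin n} {v : Fin n → A} (he : v e = 0) {g : GG n t}
    (h : mat g = 1 + vecMulVec (Pi.single e 1) v) {L : Subgroup (GG n t)}
    (hL : ∀ b, b ≠ e → v b ≠ 0 → el t e b (v b) ∈ L) : g ∈ L := by
  have hv : ∀ a, a ≠ e → tau t e a ∣ v a := fun a ha => by
    unfold tau
    split_ifs with hlt
    · have := mat_lt g hlt
      simpa [h, vecMulVec_apply, Matrix.one_apply_ne ha.symm] using this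
    · exact one_dvd _
  have key : ∀ s : Finset (Fin n), e ∉ s → ∃ g' ∈ L,
      mat g' = 1 + vecMulVec (Pi.single e 1) (fun a => if a ∈ s then v a else 0) := by
    intro s
    induction s using Finset.induction_on with
    | empty => intro _; exact ⟨1, one_mem _, by ext; simp [mat_one, vecMulVec_apply]⟩
    | insert a s has ih =>
      intro hes
      have hae : a ≠ e := fun h' => hes (h' ▸ mem_insert_self _ _)
      obtain ⟨g', h1, h2⟩ := ih fun h' => hes (mem_insert_of_mem h')
      have hm : el t e a (v a) ∈ L := by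
        by_cases h0 : v a = 0
        · rw [h0, el_zero]; exact one_mem _
        · exact hL a hae h0
      refine ⟨el t e a (v a) * g', mul_mem hm h1, ?_⟩
      rw [mat_mul, h2, mat_el hae.symm (hv a hae), transvection, add_mul, mul_add, mul_add,
        one_mul, one_mul, mul_one, mul_vecMulVec]
      have : Matrix.single e a (v a) *ᵥ (Pi.single e 1 : Fin n → A) = 0 := by
        funext x; simp [Matrix.single, hae]
      rw [this, zero_vecMulVec, add_zero, add_assoc]
      congr 1
      ext x y
      by_cases hx : x = e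
      · subst hx
        by_cases hy : y = a
        · subst hy; simp [vecMulVec_apply, has]
        · simp [vecMulVec_apply, hy, Matrix.single, Ne.symm hy]
      · simp [vecMulVec_apply, hx, Matrix.single, Ne.symm hx]
  obtain ⟨g', h1, h2⟩ := key (univ.erase e) (notMem_erase _ _)
  have : g = g' := mat_inj (by
    rw [h, h2]
    congr 2
    funext a
    by_cases ha : a = e <;> simp [ha, he])
  rwa [this]

/-- `el t a b (α τ)` is in every subgroup containing the `el t a b (γ t^m τ)` (`Good.span`,
`Submodule.span_induction` on the statement `∀ γ, el t a b (γ • α * τ) ∈ L`) -/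
theorem el_mem_of_span (hg : Good p t) {a b : Fin n} (hab : a ≠ b) {L : Subgroup (GG n t)}
    (hL : ∀ (γ : ZMod p) (m : ℕ), el t a b (algebraMap (ZMod p) A γ * t ^ m * tau t a b) ∈ L)
    {α : A} (hα : tau t a b ∣ α) : el t a b α ∈ L := by
  obtain ⟨β, rfl⟩ := hα
  have key : ∀ γ : ZMod p, el t a b (algebraMap (ZMod p) A γ * β * tau t a b) ∈ L := by
    induction hg.span β using Submodule.span_induction with
    | mem x hx => obtain ⟨m, rfl⟩ := hx; exact fun γ => hL γ m
    | zero => intro γ; simp [el_zero]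
    | add x y _ _ hx hy =>
      intro γ
      rw [mul_add, add_mul, el_add hab (dvd_mul_left _ _) (dvd_mul_left _ _)]
      exact mul_mem (hx γ) (hy γ)
    | smul c x _ hx =>
      intro γ
      rw [Algebra.smul_def, ← mul_assoc, ← map_mul]
      exact hx _
  simpa [mul_comm] using key 1

/-- the column of `e` of an element of `K j` is in `K j` -/
theorem col_mem_KK (hg : Good p t) {j e : Fin n} {s q : GG n t} (hs : s ∈ KK p t j)
    (hq : mat q = 1 + vecMulVec (fun a => if a = e then 0 else mat s a e) (Pi.single e 1)) :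
    q ∈ KK p t j := by
  refine col_mem (by simp) hq fun a ha h0 => ?_
  obtain ⟨h1, h2⟩ := kap_spec hg hs
  simp only [if_neg ha, h2, phi, Matrix.of_apply] at h0 ⊢
  refine el_mem_KK ?_ _
  rcases lt_trichotomy (pos j e) (pos j a) with h | h | h
  · exact h
  · exact absurd (pos_inj j h).symm ha
  · exact absurd (by rw [h1.2 a e h, map_zero, zero_mul]) h0

theorem row_mem_KK (hg : Good p t) {j e : Fin n} {s q : GG n t} (hs : s ∈ KK p t j)
    (hq : mat q = 1 + vecMulVec (Pi.single e 1) (fun b => if b = e then 0 else mat s e b)) :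
    q ∈ KK p t j := by
  refine row_mem (by simp) hq fun a ha h0 => ?_
  obtain ⟨h1, h2⟩ := kap_spec hg hs
  simp only [if_neg ha, h2, phi, Matrix.of_apply] at h0 ⊢
  refine el_mem_KK ?_ _
  rcases lt_trichotomy (pos j a) (pos j e) with h | h | h
  · exact h
  · exact absurd (pos_inj j h) ha
  · exact absurd (by rw [h1.2 e a h, map_zero, zero_mul]) h0

end Crest.Agent.R66
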