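import Crest.Agent.R66.GrpBasic

/-! Task R66-GrpCard: cardinalities, joins, redundant types, simple root groups. -/
set_option autoImplicit false
set_option linter.unusedSectionVars false
namespace Crest.Agent.R66
open Finset Matrix

variable {p : ℕ} [Fact p.Prime] {A : Type} [CommRing A] [Algebra (ZMod p) A] [Finite A]
  {n : ℕ} [NeZero n] {t : A}

theorem card_diag_unit (hg : Good p t) (k : GG n t) (a : Fin n) : ∃ w, mat k a a * w = 1 := by
  obtain ⟨c, hc⟩ := mat_diag k a
  have h : IsUnit (mat k a a) := by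
    rw [show mat k a a = 1 + t * c by rw [← hc]; ring]
    exact ((Commute.all t c).isNilpotent_mul_right hg.nil).isUnit_one_add
  exact h.exists_right_inv

theorem card_exists_diag {a b : Fin n} (hab : a ≠ b) {u w : A} (h : u * w = 1) (hu : t ∣ u - 1) :
    ∃ d : GG n t, mat d = diagonal fun x => if x = a then u else if x = b then w else 1 := by
  refine ⟨mkG (diagonal fun x => if x = a then u else if x = b then w else 1) ?_
    (fun x y hxy => ?_) (fun x => ?_), rfl⟩
  · rw [det_diagonal, ← Finset.mul_prod_erase _ _ (mem_univ a),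
      ← Finset.mul_prod_erase _ _ (mem_erase.mpr ⟨hab.symm, mem_univ b⟩), Finset.prod_eq_one]
    · simp [hab.symm, h]
    · intro x hx
      simp only [mem_erase] at hx
      simp [hx.1, hx.2.1]
  · simp [diagonal_apply_ne _ hxy.ne]
  · rw [diagonal_apply_eq]
    split_ifs
    · exact hu
    · rw [show w - 1 = (u - 1) * -w by linear_combination h]; exact hu.mul_right _
    · simp

theorem card_val_pred (hn : 2 ≤ n) (a : Fin n) :
    (a - 1).val = if a.val = 0 then n - 1 else a.val - 1 := by
  have h := pos_eq 1 a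
  have h1 : (1 : Fin n).val = 1 := by rw [Fin.val_one', Nat.mod_eq_of_lt (by omega)]
  simp only [pos, Fin.le_def, h1] at h
  rw [h]
  split_ifs <;> omega

theorem card_heis {a b c : Fin n} (hac : a ≠ c) (hab : a ≠ b) (hcb : c ≠ b) :
    Heis (fun γ : ZMod p => el t a c (algebraMap (ZMod p) A γ * tau t a c))
      (fun γ : ZMod p => el t c b (algebraMap (ZMod p) A γ * tau t c b)) := by
  refine ⟨fun γ => el t a b (algebraMap (ZMod p) A γ * (tau t a c * tau t c b)), fun γ γ' => ?_,
    fun _ _ => el_commute hab.symm hac.symm _ _, fun _ _ => el_commute hcb.symm hab.symm _ _,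
    fun γ γ' => ?_⟩
  · simp only [map_add, add_mul]
    exact el_add hab ((tau_dvd_mul a b c).mul_left _) ((tau_dvd_mul a b c).mul_left _)
  · simp only
    rw [el_comm hab hac hcb (dvd_mul_left _ _) (dvd_mul_left _ _), map_mul, mul_mul_mul_comm]
    exact ((el_commute hcb.symm hab.symm _ _).mul_right (el_commute hab.symm hac.symm _ _)).eq

/- PLAN: `IsPGroup p (GG n t)`: `N = mat g - 1` has `t ∣ N a b` for `a ≤ b`, so `t ∣ (N^k) a b` whenever
`a < b + k` (induction), `N^n = t • N'`, `N` is nilpotent, and `(1 + N)^(p^k) = 1 + N^(p^k) = 1`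
(`CharP A p` from the algebra structure and nontriviality, `Matrix.charP`,
`add_pow_char_pow_of_commute`).  Then `IsPGroup.iff_card`/`card_eq`, `Odd.pow`. -/
theorem odd_card_GG (hg : Good p t) (hp : 2 < p) : Odd (Nat.card (GG n t)) := by
  have : Nontrivial A := nontrivial_of_ne _ _ hg.ne
  have : CharP A p := charP_of_injective_algebraMap (algebraMap (ZMod p) A).injective p
  have hP : IsPGroup p (GG n t) := by
    intro g
    set N := mat g - 1 with hN
    have h1 : ∀ a b : Fin n, a ≤ b → t ∣ N a b := fun a b hab => by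
      rcases hab.eq_or_lt with rfl | h
      · simpa [hN] using mat_diag g a
      · simpa [hN, Matrix.one_apply_ne h.ne] using mat_lt g h
    have h2 : ∀ (k : ℕ) (a b : Fin n), a.val < b.val + k → t ∣ (N ^ k) a b := by
      intro k
      induction k with
      | zero =>
        intro a b hab
        have : a ≠ b := by rintro rfl; omega
        simp [Matrix.one_apply_ne this]
      | succ k ih =>
        intro a b hab
        rw [pow_succ, Matrix.mul_apply]
        refine Finset.dvd_sum fun c _ => ?_
        rcases le_or_gt c b with hc | hc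
        · exact (h1 c b hc).mul_left _
        · exact (ih a c (by have := Fin.lt_def.mp hc; omega)).mul_right _
    choose N' hN' using fun a b : Fin n => h2 n a b (by omega)
    obtain ⟨s, hs⟩ := hg.nil
    have h3 : N ^ n = t • Matrix.of N' := by ext a b; simp [hN']
    have h4 : N ^ (n * s) = 0 := by rw [pow_mul, h3, smul_pow, hs, zero_smul]
    have h5 : ∀ m : ℕ, mat (g ^ m) = mat g ^ m := fun m => by
      induction m with
      | zero => simp [mat_one]
      | succ m ih => rw [pow_succ, pow_succ, mat_mul, ih]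
    refine ⟨n * s, mat_inj ?_⟩
    have h6 : mat g = 1 + N := by rw [hN]; abel
    rw [h5, h6, add_pow_char_pow_of_commute _ _ (Commute.one_left _), one_pow, mat_one,
      pow_eq_zero_of_le (Nat.lt_pow_self (Fact.out : p.Prime).one_lt).le h4, add_zero]
  obtain ⟨k, hk⟩ := IsPGroup.iff_card.mp hP
  rw [hk]
  exact ((Fact.out : p.Prime).odd_of_ne_two hp.ne').pow

/- PLAN: `kap p` is injective on `KK p t j` (`kap_spec`). -/
theorem card_KK_le (hg : Good p t) (j : Fin n) : Nat.card (KK p t j) ≤ p ^ (n * n) := by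
  have h : Function.Injective fun g : KK p t j => kap p g.1 := fun g g' e =>
    Subtype.ext (mat_inj (by
      rw [(kap_spec hg g.2).2, (kap_spec hg g'.2).2]; exact congrArg _ e))
  refine (Nat.card_le_card_of_injective _ h).trans (le_of_eq ?_)
  simp [Matrix, pow_mul]

/- PLAN: `α ↦ el t a b α` with `b < a` (`tau = 1`) is injective. -/
theorem card_le_card_GG (hn : 2 ≤ n) : Nat.card A ≤ Nat.card (GG n t) := by
  let a : Fin n := ⟨1, by omega⟩
  let b : Fin n := ⟨0, by omega⟩
  have hab : a ≠ b := by simp [a, b]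
  have ht : tau t a b = 1 := by simp [tau, a, b]
  refine Nat.card_le_card_of_injective (fun α => el t a b α) fun α β e => ?_
  have := congrArg (fun g => mat g a b) e
  simp only [mat_el hab (ht ▸ one_dvd _)] at this
  simpa [transvection] using this

/- PLAN.  `k'⁻¹ * k ∈ GR {a} ∅` iff `k` and `k'` have the same column `a`.  If `J` is nonempty, `k'` is the
column matrix of `k` at `a` (`exists_col`, `col_mem_KK`; the diagonal entry is `1`).  If `J = ∅`, let
`u = mat k a a` (a unit: `u - 1` is nilpotent) and `k'` = identity with column `a` replaced by that of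
`k` and the `(b,b)` entry `u⁻¹` (= column matrix of `v u⁻¹` times `diagonal`, determinant `1`). -/
theorem join_cols (hg : Good p t) {R Pos : Finset (Fin n)} (hd : Disjoint Pos R) {b : Fin n}
    (hb : b ∉ R) (hb' : b ∉ Pos) (J τ : Finset (Fin n)) (hτ : τ ⊆ Pos) {a : Fin n} (ha : a ∈ Pos)
    (haτ : a ∉ τ) {k : GG n t} (hk : k ∈ GR t R R) (hJ : ∀ j ∈ J, k ∈ KK p t j) :
    ∃ k' ∈ GR t R R, (∀ j ∈ J, k' ∈ KK p t j) ∧ (∀ c ∈ τ, k' ∈ GR t {c} ∅) ∧
      k'⁻¹ * k ∈ GR t {a} ∅ := by
  have hab : a ≠ b := by rintro rfl; exact hb' ha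
  have haR : a ∉ R := Finset.disjoint_left.mp hd ha
  obtain ⟨w, hw⟩ := card_diag_unit hg k a
  obtain ⟨d, hd'⟩ := card_exists_diag hab hw (mat_diag k a)
  obtain ⟨c, hc⟩ := exists_col (t := t) a (fun x => if x = a then 0 else mat k x a * w) (by simp)
    fun x hx => by simpa [hx.ne] using (mat_lt k hx).mul_right w
  have e : ∀ x y, mat (c * d) x y = if y = a then mat k x a else if y = b then
      (1 : Matrix (Fin n) (Fin n) A) x y * w else (1 : Matrix (Fin n) (Fin n) A) x y := by
    intro x y
    rw [mat_mul, hc, hd', mul_diagonal]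
    by_cases hy : y = a
    · subst hy
      by_cases hx : x = y
      · subst hx; simp [vecMulVec_apply]
      · simp [vecMulVec_apply, hx, mul_assoc, mul_comm w, hw]
    · simp [vecMulVec_apply, hy]
  refine ⟨c * d, ⟨fun y hy x => ?_, fun x hx y => ?_⟩, fun j hj => ?_, fun y hy => ⟨?_, by simp⟩,
    ⟨?_, by simp⟩⟩
  · rw [e, if_neg (by rintro rfl; exact haR hy), if_neg (by rintro rfl; exact hb hy)]
  · rw [e]
    split_ifs with h1 h2
    · rw [h1, hk.2 x hx]
    · rw [h2, Matrix.one_apply_ne (by rintro rfl; exact hb hx), zero_mul]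
    · rfl
  · have h1 : mat k a a = 1 := by
      obtain ⟨h1, h2⟩ := kap_spec hg (hJ j hj)
      simp [h2, phi, h1.1, tau]
    have h2 : w = 1 := by rwa [h1, one_mul] at hw
    refine col_mem_KK hg (e := a) (hJ j hj) ?_
    ext x y
    rw [e, h2]
    by_cases hy : y = a
    · subst hy
      by_cases hx : x = y
      · subst hx; simp [vecMulVec_apply, h1]
      · simp [vecMulVec_apply, hx]
    · simp [vecMulVec_apply, hy]
  · simp only [mem_singleton, forall_eq]
    intro x
    rw [e, if_neg (by rintro rfl; exact haτ hy), if_neg (by rintro rfl; exact hb' (hτ hy))]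
  · simp only [mem_singleton, forall_eq]
    intro x
    rw [← mat_inv_mul (c * d), mat_mul, Matrix.mul_apply, Matrix.mul_apply]
    exact Finset.sum_congr rfl fun y _ => by rw [e, if_pos rfl]

/- PLAN: `b` := the element of `Rcᶜ` minimising `pos a`.  All `y` with `pos a y < pos a b` are frozen columns.
For `pos b x < pos b y`: if `pos a y < pos a b` then column `y` is trivial; otherwise also
`pos a b ≤ pos a x` and `pos a x < pos a y` (use `pos_eq`, `omega`).  Entries: `phi_injective`/`kap_spec`
(`algebraMap γ * tau = 0 → γ = 0`). -/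
theorem red_incl (hg : Good p t) {Rc Rr : Finset (Fin n)} (hne : Rcᶜ.Nonempty) (a : Fin n) :
    ∃ b, b ∉ Rc ∧ ∀ k ∈ GR t Rc Rr, k ∈ KK p t a → k ∈ KK p t b := by
  obtain ⟨b, hb, hmin⟩ := Finset.exists_min_image _ (pos a) hne
  refine ⟨b, by simpa using hb, fun k hk hka => ?_⟩
  obtain ⟨h1, h2⟩ := kap_spec hg hka
  refine ⟨kap p k, ⟨h1.1, fun x y hxy => ?_⟩, h2⟩
  by_cases hy : y ∈ Rc
  · have hne : x ≠ y := by rintro rfl; exact lt_irrefl _ hxy
    have h3 := hk.1 y hy x
    rw [h2, Matrix.one_apply_ne hne] at h3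
    exact entry_inj hg (a := x) (b := y) (by rw [map_zero, zero_mul]; exact h3)
  · have h3 := hmin y (by simpa using hy)
    refine h1.2 x y ?_
    simp only [pos_eq, Fin.le_def] at hxy h3 ⊢
    have := a.2; have := b.2; have := x.2; have := y.2
    split_ifs at hxy h3 ⊢ <;> omega

theorem rt_add (hn : 2 ≤ n) (a : Fin n) (γ γ' : ZMod p) :
    rt p t a (γ + γ') = rt p t a γ * rt p t a γ' := by
  have h : a ≠ a - 1 := fun e => by
    have := card_val_pred hn a
    rw [← e] at this
    have := a.2
    split_ifs at * <;> omega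
  rw [rt, rt, rt, map_add, add_mul, el_add h (dvd_mul_left _ _) (dvd_mul_left _ _)]

/- `pos j (a-1) < pos j a` for `j ≠ a`; `el_mem_KK`. -/
theorem rt_mem {a j : Fin n} (h : a ≠ j) (γ : ZMod p) : rt p t a γ ∈ KK p t j := by
  refine el_mem_KK ?_ γ
  have h' : a.val ≠ j.val := fun e => h (Fin.ext e)
  have := a.2; have := j.2
  have h1 := card_val_pred (by omega) a
  simp only [pos_eq, Fin.le_def]
  split_ifs at * <;> omega

/- PLAN: `el_commute` unless `b = a - 1` or `a = b - 1`; in these cases `el_comm` with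
`z γ = el t a (a-1-1) (γ τ τ')` (central by `el_commute`, `n ≥ 3`). -/
theorem rt_pair (hn : 3 ≤ n) {a b : Fin n} (hab : a ≠ b) :
    (∀ γ γ' : ZMod p, Commute (rt p t a γ) (rt p t b γ')) ∨
      Heis (rt p t a) (rt p t b) ∨ Heis (rt p t b) (rt p t a) := by
  have key : ∀ a : Fin n, Heis (rt p t a) (rt p t (a - 1)) := fun a => by
    have h1 := card_val_pred (by omega) a
    have h2 := card_val_pred (by omega) (a - 1)
    have := a.2
    refine card_heis (p := p) (t := t) (a := a) (c := a - 1) (b := a - 1 - 1) ?_ ?_ ?_ <;>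
    · rw [Ne, Fin.ext_iff]
      split_ifs at * <;> omega
  by_cases h1 : a - 1 = b
  · exact Or.inr (Or.inl (h1 ▸ key a))
  by_cases h2 : b - 1 = a
  · exact Or.inr (Or.inr (h2 ▸ key b))
  exact Or.inl fun _ _ => el_commute h1 h2 _ _

end Crest.Agent.R66
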