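import Crest.Agent.R66.GrpBasic

/-! Task R66-GrpCol: the column group of `e` (row `e` frozen). -/
set_option autoImplicit false
set_option linter.unusedSectionVars false
namespace Crest.Agent.R66
open Finset Matrix

variable {p : ℕ} [Fact p.Prime] {A : Type} [CommRing A] [Algebra (ZMod p) A] [Finite A]
  {n : ℕ} [NeZero n] {t : A}

theorem gc_mv (κ : Matrix (Fin n) (Fin n) A) (v : Fin n → A) (a : Fin n) :
    (κ *ᵥ v) a = ∑ b, κ a b * v b := rfl

theorem gc_form {R : Finset (Fin n)} {e : Fin n} (he : e ∈ R) {q : GG n t}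
    (hq : q ∈ GR t (univ.erase e) R) :
    mat q = 1 + vecMulVec (fun a => if a = e then 0 else mat q a e) (Pi.single e 1) := by
  ext a b
  by_cases hb : b = e
  · subst hb
    by_cases ha : a = b
    · subst ha; simp [vecMulVec_apply, hq.2 a he]
    · simp [vecMulVec_apply, ha]
  · simp [vecMulVec_apply, hb, hq.1 b (by simp [hb])]

theorem gc_mem {R : Finset (Fin n)} {e : Fin n} {q : GG n t} {v : Fin n → A}
    (hv : ∀ a ∈ R, v a = 0) (hq : mat q = 1 + vecMulVec v (Pi.single e 1)) :
    q ∈ GR t (univ.erase e) R := by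
  refine ⟨fun b hb a => ?_, fun a ha b => ?_⟩
  · simp [hq, vecMulVec_apply, ne_of_mem_erase hb]
  · simp [hq, vecMulVec_apply, hv a ha]

theorem gc_mul {e : Fin n} {q q' : GG n t} {v w : Fin n → A} (hw : w e = 0)
    (hq : mat q = 1 + vecMulVec v (Pi.single e 1)) (hq' : mat q' = 1 + vecMulVec w (Pi.single e 1)) :
    mat (q * q') = 1 + vecMulVec (v + w) (Pi.single e 1) := by
  rw [mat_mul, hq, hq', add_mul, mul_add, mul_add, one_mul, one_mul, mul_one,
    vecMulVec_mul_vecMulVec, add_vecMulVec]
  simp [hw]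
  abel

theorem gc_conj {Rc Rr : Finset (Fin n)} {e : Fin n} (he : e ∈ Rr) {s q : GG n t}
    (hs : s ∈ GR t Rc Rr) {v : Fin n → A} (hq : mat q = 1 + vecMulVec v (Pi.single e 1)) :
    mat (s * q * s⁻¹) = 1 + vecMulVec (mat s *ᵥ v) (Pi.single e 1) := by
  rw [mat_mul, mat_mul, hq, mul_add, mul_one, add_mul, mat_mul_inv, mul_vecMulVec, vecMulVec_mul]
  congr 2
  funext b
  simp [(inv_mem hs).2 e he b, Pi.single_apply, Matrix.one_apply, eq_comm]

theorem gc_row_frozen {Rc Rr : Finset (Fin n)} {s : GG n t} (hs : s ∈ GR t Rc Rr) {a : Fin n}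
    (ha : a ∈ Rr) (v : Fin n → A) : (mat s *ᵥ v) a = v a := by
  conv_rhs => rw [← Matrix.one_mulVec v]
  rw [gc_mv, gc_mv]
  exact sum_congr rfl fun b _ => by rw [hs.2 a ha b]

theorem gc_el {a e : Fin n} (hae : a ≠ e) {α : A} (h : tau t a e ∣ α) :
    mat (el t a e α) = 1 + vecMulVec (Pi.single a α) (Pi.single e 1) := by
  rw [mat_el hae h, transvection]
  congr 1
  ext x y
  simp [Matrix.single, vecMulVec_apply, Pi.single_apply, ite_and, eq_comm]
  split_ifs <;> rfl

theorem gc_tau_dvd {a e : Fin n} {m : ℕ} (h : e.val < a.val + n * m) (x : A) :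
    tau t a e ∣ x * t ^ m := by
  unfold tau
  split_ifs with hlt
  · refine Dvd.dvd.mul_left (dvd_pow_self t ?_) _
    rintro rfl
    rw [Fin.lt_def] at hlt; omega
  · exact one_dvd _

/- elements of `Q = GR (univ.erase e) (insert e R)` are the column matrices `1 + v e_e^T`. -/
theorem semi_col (hg : Good p t) {R : Finset (Fin n)} {e : Fin n} (he : e ∉ R) :
    Semi (KK p t) (GR t R (insert e R)) (GR t (insert e R) (insert e R))
      (GR t (univ.erase e) (insert e R)) := by
  have he' := mem_insert_self e R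
  refine ⟨GR_anti (fun a ha => mem_erase.2 ⟨fun h => he (h ▸ ha), mem_univ _⟩) subset_rfl,
    GR_anti (subset_insert _ _) subset_rfl, fun a ha b hb => ?_, fun s hs q hq => ?_,
    fun q hq hq' => ?_, fun s hs => ?_⟩
  · apply mat_inj
    rw [gc_mul (by simp) (gc_form he' ha) (gc_form he' hb),
      gc_mul (by simp) (gc_form he' hb) (gc_form he' ha), add_comm (fun a => _)]
  · refine gc_mem (fun a ha => ?_) (gc_conj he' hs (gc_form he' hq))
    rw [gc_row_frozen hs ha]
    split_ifs with h
    · rfl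
    · rw [hq.2 a ha, Matrix.one_apply_ne h]
  · apply mat_inj
    ext a b
    by_cases hb : b = e
    · subst hb; exact hq'.1 b he' a
    · exact hq.1 b (by simp [hb]) a
  · obtain ⟨q, hq⟩ := exists_col (t := t) e (fun a => if a = e then 0 else mat s a e) (by simp)
      (fun a ha => by simp only [if_neg ha.ne]; exact mat_lt s ha)
    obtain ⟨q', hq'⟩ := exists_col (t := t) e (-fun a => if a = e then 0 else mat s a e) (by simp)
      (fun a ha => by simp only [Pi.neg_apply, if_neg ha.ne]; exact (mat_lt s ha).neg_right)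
    have hqq : q * q' = 1 := mat_inj (by rw [gc_mul (by simp) hq hq']; simp [mat_one])
    have hv : ∀ a ∈ insert e R, (if a = e then 0 else mat s a e) = 0 := fun a ha => by
      split_ifs with h
      · rfl
      · rw [hs.2 a ha, Matrix.one_apply_ne h]
    refine ⟨q, gc_mem hv hq, q' * s, ?_, by rw [← mul_assoc, hqq, one_mul],
      fun j hj => col_mem_KK hg hj hq⟩
    have hm : ∀ a b, mat (q' * s) a b =
        mat s a b - (if a = e then 0 else mat s a e) * (1 : Matrix (Fin n) (Fin n) A) e b := by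
      intro a b
      rw [mat_mul, hq', add_mul, one_mul, vecMulVec_mul]
      simp [vecMulVec_apply, hs.2 e he' b, sub_eq_add_neg]
    refine ⟨fun b hb a => ?_, fun a ha b => ?_⟩
    · rw [hm]
      rcases mem_insert.1 hb with rfl | hb
      · by_cases ha : a = b
        · subst ha; simp [hs.2 a he']
        · simp [ha]
      · rw [hs.1 b hb, Matrix.one_apply_ne (fun h : e = b => he (h ▸ hb)), mul_zero, sub_zero]
    · rw [hm, hv a ha, hs.2 a ha, zero_mul, sub_zero]

theorem gc_gen {R : Finset (Fin n)} {e a : Fin n} {c m : ℕ} (ha : a ∉ R)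
    (h1 : e.val < a.val + n * m) (h2 : a.val + n * m + n < c) (γ : ZMod p) :
    el t a e (algebraMap (ZMod p) A γ * t ^ m) ∈ FC p t e R c :=
  Subgroup.subset_closure ⟨a, γ, m, ha, h1, h2, rfl⟩

theorem gc_tau_pow (a b : Fin n) : tau t a b = t ^ (if a < b then 1 else 0) := by
  unfold tau; split_ifs <;> simp

theorem gc_cases (n m d : ℕ) :
    n * m + 2 * n ≤ n * d ∨ n * m + n = n * d ∨ n * d ≤ n * m := by
  rcases lt_trichotomy (m + 1) d with h | h | h
  · left; nlinarith
  · right; left; rw [← h]; ring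
  · right; right; exact Nat.mul_le_mul_left _ (by omega)

theorem gc_stab (hg : Good p t) {R : Finset (Fin n)} {e : Fin n} (he : e ∈ R) {j : Fin n} {c : ℕ}
    (hc : c % n = j.val) {k : GG n t} (hk : k ∈ GR t R R) (hkj : k ∈ KK p t j) {q : GG n t}
    (hq : q ∈ FC p t e R c) : k * q * k⁻¹ ∈ FC p t e R c := by
  refine (Subgroup.closure_le ((FC p t e R c).comap (MulAut.conj k).toMonoidHom)).2 ?_ hq
  rintro _ ⟨a, γ, m, ha, h1, h2, rfl⟩
  have hae : a ≠ e := fun h => ha (h ▸ he)
  obtain ⟨hU, hm⟩ := kap_spec hg hkj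
  show k * _ * k⁻¹ ∈ FC p t e R c
  refine col_mem ?_ (gc_conj he hk (gc_el hae (gc_tau_dvd h1 _))) fun a' _ h0 => ?_
  · rw [gc_row_frozen hk he, Pi.single_eq_of_ne hae.symm]
  have hent : (mat k *ᵥ Pi.single a (algebraMap (ZMod p) A γ * t ^ m)) a' =
      mat k a' a * (algebraMap (ZMod p) A γ * t ^ m) := by simp
  have ha' : a' ∉ R := fun h => h0 (by
    rw [gc_row_frozen hk h, Pi.single_eq_of_ne (fun h' : a' = a => ha (h' ▸ h))])
  rw [hent, hm] at h0 ⊢
  have hpos : pos j a ≤ pos j a' := by
    by_contra h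
    exact h0 (by simp [phi, hU.2 a' a (not_le.1 h)])
  have : phi p t (kap p k) a' a * (algebraMap (ZMod p) A γ * t ^ m) =
      algebraMap (ZMod p) A (kap p k a' a * γ) * t ^ (m + if a' < a then 1 else 0) := by
    simp only [phi, Matrix.of_apply, gc_tau_pow, map_mul, pow_add]; ring
  rw [this]
  have hd := Nat.mod_add_div c n
  have h3 := gc_cases n m (c / n)
  have := a.2; have := a'.2; have := j.2
  simp only [pos_eq, Fin.le_def] at hpos
  refine gc_gen ha' ?_ ?_ _ <;> simp only [Fin.lt_def, mul_add, mul_ite, mul_one, mul_zero] <;>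
    split_ifs at hpos ⊢ <;> omega

theorem filt_col (hg : Good p t) {R : Finset (Fin n)} {e : Fin n} (he : e ∈ R) :
    Filt (KK p t) (GR t R R) (GR t (univ.erase e) R) Rᶜ n (e.val + n + 1)
      (fun j => j.val) (FC p t e R) := by
  refine ⟨Nat.pos_of_neZero n, by omega, fun j _ => j.2, fun i _ j _ h => Fin.ext h, ?_, ?_, ?_,
    fun j _ c hc k hk hkj q hq => gc_stab hg he hc hk hkj hq, ?_⟩
  · intro c c' h
    refine Subgroup.closure_mono ?_
    rintro _ ⟨a, γ, m, ha, h1, h2, rfl⟩
    exact ⟨a, γ, m, ha, h1, by omega, rfl⟩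
  · intro c hc
    rw [eq_bot_iff]
    refine (Subgroup.closure_le _).2 ?_
    rintro _ ⟨a, γ, m, ha, h1, h2, rfl⟩
    omega
  · obtain ⟨s, hs⟩ := hg.nil
    refine ⟨n * s + 3 * n, fun q hq => col_mem (by simp) (gc_form he hq) fun a hae h0 => ?_⟩
    simp only [if_neg hae] at h0 ⊢
    have ha : a ∉ R := fun h => h0 (by rw [hq.2 a h, Matrix.one_apply_ne hae])
    refine el_mem_of_span hg hae (fun γ m => ?_) ?_
    · by_cases hm : s ≤ m
      · rw [pow_eq_zero_of_le hm hs, mul_zero, zero_mul, el_zero]; exact one_mem _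
      · rw [gc_tau_pow, mul_assoc, ← pow_add]
        have h1 : n * m + n ≤ n * s := by nlinarith
        have := a.2; have := e.2
        have h2 : a.val ≠ e.val := fun h => hae (Fin.ext h)
        refine gc_gen ha ?_ ?_ _ <;>
          simp only [Fin.lt_def, mul_add, mul_ite, mul_one, mul_zero] <;> split_ifs <;> omega
    · unfold tau
      split_ifs with h
      · exact mat_lt q h
      · exact one_dvd _
  · intro j hj c h1 h2 hc q
    have hje : j.val ≠ e.val := fun h => (mem_compl.1 hj) (Fin.ext h ▸ he)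
    have hd := Nat.mod_add_div c n
    have := j.2; have := e.2
    have hcase : (e.val < j.val ∧ c = j.val + n) ∨ (j.val < e.val ∧ c = j.val + 2 * n) := by
      have h3 := gc_cases n 0 (c / n)
      have h4 := gc_cases n 1 (c / n)
      omega
    constructor
    · rintro ⟨hq, hqj⟩
      obtain ⟨hU, hm⟩ := kap_spec hg hqj
      refine col_mem (by simp) (gc_form he hq) fun a hae h0 => ?_
      simp only [if_neg hae] at h0 ⊢
      have ha : a ∉ R := fun h => h0 (by rw [hq.2 a h, Matrix.one_apply_ne hae])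
      rw [hm] at h0 ⊢
      have hpos : pos j e ≤ pos j a := by
        by_contra h
        exact h0 (by simp [phi, hU.2 a e (not_le.1 h)])
      simp only [phi, Matrix.of_apply, gc_tau_pow]
      have := a.2
      have h2 : a.val ≠ e.val := fun h => hae (Fin.ext h)
      simp only [pos_eq, Fin.le_def] at hpos
      refine gc_gen ha ?_ ?_ _ <;> simp only [Fin.lt_def, mul_ite, mul_one, mul_zero] <;>
        split_ifs at hpos ⊢ <;> omega
    · intro hq
      refine (Subgroup.closure_le (GR t (univ.erase e) R ⊓ KK p t j)).2 ?_ hq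
      rintro _ ⟨a, γ, m, ha, h3, h4, rfl⟩
      refine ⟨el_mem_GR (notMem_erase _ _) ha, ?_⟩
      have := a.2
      have hae : a.val ≠ e.val := fun h => ha (Fin.ext h ▸ he)
      have h5 := gc_cases n 0 m
      have hm : m = if a < e then 1 else 0 := by
        refine Nat.eq_of_mul_eq_mul_left (Nat.pos_of_neZero n) ?_
        simp only [Fin.lt_def, mul_ite, mul_one, mul_zero]
        split_ifs <;> omega
      have hm' : n * m = if a.val < e.val then n else 0 := by
        rw [hm]
        simp only [Fin.lt_def, mul_ite, mul_one, mul_zero]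
      rw [hm, ← gc_tau_pow]
      refine el_mem_KK ?_ γ
      simp only [pos_eq, Fin.le_def]
      split_ifs at hm' ⊢ <;> omega

theorem link_col (hg : Good p t) {R : Finset (Fin n)} {e : Fin n} (he : e ∈ R)
    {j : Fin n} (hj : j ∉ R) {c : ℕ} (hc : e.val + n + 1 ≤ c) (hcj : c % n = j.val)
    {N : Subgroup (GG n t)} (h1 : FC p t e R c ≤ N) (h2 : ¬ FC p t e R (c + n) ≤ N) :
    ∃ H : Submodule (ZMod p) (Fin n → ZMod p), Zc (ZMod p) (fun a => a ∉ R) ≤ H ∧ H ≠ ⊤ ∧
      ∀ i, i ∉ R → i ≠ j → ∀ k ∈ GR t R R, k ∈ KK p t j →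
        (okF n (fun j : Fin n => j.val) (FC p t e R) N c i k ↔ ¬ YY p j i k ≤ H) := by
  have hn := Nat.pos_of_neZero n
  obtain ⟨d, hd⟩ : ∃ d, c = j.val + n * d + n := by
    have h3 := Nat.mod_add_div c n
    have h4 : 1 ≤ c / n := (Nat.le_div_iff_mul_le hn).2 (by omega)
    obtain ⟨d, hd⟩ := Nat.exists_eq_add_of_le' h4
    exact ⟨d, by rw [hd, mul_add] at h3; omega⟩
  set μ : Fin n → ℕ := fun a => d + if a < j then 1 else 0 with hμ
  have hμ1 : ∀ a : Fin n, a.val + n * μ a + n = c + pos j a := fun a => by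
    have := a.2; have := j.2
    simp only [hμ, pos_eq, Fin.lt_def, Fin.le_def, mul_add, mul_ite, mul_one, mul_zero]
    split_ifs <;> omega
  have hpos : ∀ a : Fin n, pos j a < n := fun a => (a - j).2
  have hμ2 : ∀ (a : Fin n) (m : ℕ), c ≤ a.val + n * m + n → a.val + n * m < c → m = μ a := by
    intro a m h3 h4
    have h5 := hμ1 a
    have h6 := hpos a
    rcases lt_trichotomy m (μ a) with h | h | h
    · have : n * m + n ≤ n * μ a := by nlinarith
      omega
    · exact h
    · have : n * μ a + n ≤ n * m := by nlinarith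
      omega
  set u : (Fin n → ZMod p) → Fin n → A :=
    fun v a => if a ∈ R then 0 else algebraMap (ZMod p) A (v a) * t ^ μ a with hu
  have hue : ∀ v, u v e = 0 := fun v => by simp [hu, he]
  have hex : ∀ v, ∃ g : GG n t, mat g = 1 + vecMulVec (u v) (Pi.single e 1) := fun v =>
    exists_col e _ (hue v) fun a ha => by
      simp only [hu]
      split_ifs
      · exact dvd_zero _
      · have := gc_tau_dvd (t := t) (a := a) (e := e) (m := μ a) (by have := hμ1 a; omega)
          (algebraMap (ZMod p) A (v a))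
        rwa [tau, if_pos ha] at this
  choose ι hι using hex
  have hadd : ∀ v w, ι (v + w) = ι v * ι w := fun v w => mat_inj (by
    rw [gc_mul (hue w) (hι v) (hι w), hι]
    congr 2
    funext a
    simp only [hu, Pi.add_apply, map_add]
    split_ifs <;> ring)
  have hzero : ∀ v, (∀ a, a ∉ R → v a = 0) → ι v = 1 := fun v hv => mat_inj (by
    have : u v = 0 := by
      funext a
      simp only [hu, Pi.zero_apply]
      split_ifs with h
      · rfl
      · simp [hv a h]
    rw [hι, this, zero_vecMulVec, add_zero, mat_one])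
  have hsingle : ∀ a, a ∉ R → ∀ γ,
      ι (Pi.single a γ) = el t a e (algebraMap (ZMod p) A γ * t ^ μ a) := fun a ha γ => mat_inj (by
    rw [hι, gc_el (fun h : a = e => ha (h ▸ he)) (gc_tau_dvd (by have := hμ1 a; omega) _)]
    congr 2
    funext x
    by_cases hx : x = a
    · subst hx; simp [hu, ha]
    · simp [hu, hx])
  have hconj : ∀ k ∈ GR t R R, k ∈ KK p t j → ∀ v, k * ι v * k⁻¹ = ι (kap p k *ᵥ v) := by
    intro k hk hkj v
    obtain ⟨hU, hm⟩ := kap_spec hg hkj
    apply mat_inj
    rw [gc_conj he hk (hι v), hι]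
    congr 2
    funext a'
    by_cases ha' : a' ∈ R
    · rw [gc_row_frozen hk ha']; simp [hu, ha']
    have : (kap p k *ᵥ v) a' = ∑ b, kap p k a' b * v b := rfl
    simp only [hu, if_neg ha', gc_mv, this, map_sum, sum_mul]
    refine sum_congr rfl fun a _ => ?_
    by_cases ha : a ∈ R
    · have h3 := hk.1 a ha a'
      rw [Matrix.one_apply_ne (fun h : a' = a => ha' (h ▸ ha)), hm] at h3
      have : kap p k a' a = 0 := entry_inj hg (a := a') (b := a) (by simpa [phi] using h3)
      simp [ha, this]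
    rw [if_neg ha, hm]
    rcases lt_or_ge (pos j a') (pos j a) with h | h
    · simp [phi, hU.2 a' a h]
    have : (if a' < a then 1 else 0) + μ a = μ a' := by
      have := a.2; have := a'.2; have := j.2
      simp only [hμ, pos_eq, Fin.lt_def, Fin.le_def] at h ⊢
      split_ifs at h ⊢ <;> omega
    simp only [phi, Matrix.of_apply, gc_tau_pow, ← this, pow_add, map_mul]
    ring
  let H0 : AddSubgroup (Fin n → ZMod p) :=
    { carrier := {v | ι v ∈ N}
      add_mem' := fun {v w} hv hw => by
        show ι (v + w) ∈ N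
        rw [hadd]; exact mul_mem hv hw
      zero_mem' := by
        show ι 0 ∈ N
        rw [hzero 0 fun _ _ => rfl]; exact one_mem _
      neg_mem' := fun {v} hv => by
        show ι (-v) ∈ N
        have : ι (-v) = (ι v)⁻¹ := by
          rw [eq_inv_iff_mul_eq_one, ← hadd, neg_add_cancel, hzero 0 fun _ _ => rfl]
        rw [this]; exact inv_mem hv }
  have hH : ∀ v, v ∈ AddSubgroup.toZModSubmodule p H0 ↔ ι v ∈ N := fun v => Iff.rfl
  refine ⟨AddSubgroup.toZModSubmodule p H0, fun v hv => ?_, fun htop => h2 ?_, ?_⟩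
  · rw [hH, hzero v hv]; exact one_mem _
  · refine (Subgroup.closure_le _).2 ?_
    rintro _ ⟨a, γ, m, ha, h3, h4, rfl⟩
    by_cases h5 : a.val + n * m + n < c
    · exact h1 (gc_gen ha h3 h5 γ)
    · rw [hμ2 a m (by omega) (by omega), ← hsingle a ha]
      exact (hH _).1 (htop ▸ Submodule.mem_top)
  intro i hi hij k hk hkj
  have hi0 : 0 < pos j i := Nat.pos_of_ne_zero fun h => hij (pos_inj j (by rw [h]; simp [pos]))
  constructor
  · intro hok hle
    refine hok (c + pos j i) ?_ (by omega) fun q hq => ?_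
    · rw [← hμ1 i, add_assoc, ← Nat.mul_succ, Nat.add_mul_mod_self_left, Nat.mod_eq_of_lt i.2]
    refine (Subgroup.closure_le (N.comap (MulAut.conj k).toMonoidHom)).2 ?_ hq
    rintro _ ⟨a, γ, m, ha, h3, h4, rfl⟩
    show k * _ * k⁻¹ ∈ N
    by_cases h5 : a.val + n * m + n < c
    · exact h1 (gc_stab hg he hcj hk hkj (gc_gen ha h3 h5 γ))
    · have h6 := hpos i
      have h7 := hμ2 a m (by omega) (by omega)
      have h8 := hμ1 a
      rw [h7] at h4
      rw [h7, ← hsingle a ha, hconj k hk hkj]
      exact (hH _).1 (hle ⟨Pi.single a γ,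
        fun x hx => Pi.single_eq_of_ne (by rintro rfl; omega) _, rfl⟩)
  · intro hnle c' hc' hcc' hall
    apply hnle
    rintro _ ⟨s, hs, rfl⟩
    rw [hH, Matrix.toLin'_apply, ← hconj k hk hkj]
    refine hall _ (col_mem (hue s) (hι s) fun a _ h0 => ?_)
    have ha : a ∉ R := fun h => h0 (by simp [hu, h])
    have hpa : pos j a < pos j i := by
      by_contra h
      exact h0 (by simp [hu, hs a (not_lt.1 h)])
    simp only [hu, if_neg ha]
    have h3 := hμ1 a
    have h4 := hμ1 i
    have h5 := Nat.mod_add_div c' n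
    have h6 := gc_cases n (μ i) (c' / n)
    have h7 := hpos i
    simp only at hc'
    exact gc_gen ha (by omega) (by omega) _

end Crest.Agent.R66
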