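import Crest.Agent.R66.GrpCard

/-! Task R66-GrpGen: generation by elementary matrices. -/
set_option autoImplicit false
set_option linter.unusedSectionVars false
namespace Crest.Agent.R66
open Finset Matrix

variable {p : ℕ} [Fact p.Prime] {A : Type} [CommRing A] [Algebra (ZMod p) A] [Finite A]
  {n : ℕ} [NeZero n] {t : A}

theorem gen_comm {a b c : Fin n} (hab : a ≠ b) (hac : a ≠ c) (hcb : c ≠ b) {α β : A}
    (hα : tau t a c ∣ α) (hβ : tau t c b ∣ β) {L : Subgroup (GG n t)} (h1 : el t a c α ∈ L)
    (h2 : el t c b β ∈ L) : el t a b (α * β) ∈ L := by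
  rw [← mul_inv_eq_iff_eq_mul.mpr (el_comm hab hac hcb hα hβ)]
  exact mul_mem (mul_mem h1 h2) (inv_mem (mul_mem h2 h1))

theorem gen_val_succ (hn : 2 ≤ n) (a : Fin n) :
    (a + 1).val = if a.val + 1 = n then 0 else a.val + 1 := by
  rw [Fin.val_add, Fin.val_one', Nat.mod_eq_of_lt (show 1 < n by omega)]
  split_ifs with h
  · rw [h, Nat.mod_self]
  · exact Nat.mod_eq_of_lt (by omega)

theorem gen_el_empty (hg : Good p t) {R : Finset (Fin n)} {a b : Fin n} (hab : a ≠ b) (ha : a ∉ R)
    (hb : b ∉ R) {α : A} (hα : tau t a b ∣ α) :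
    el t a b α ∈ Subgroup.closure (Basic p t ∅ R) :=
  el_mem_of_span hg hab (fun γ m => Subgroup.subset_closure (show _ ∈ Basic p t ∅ R from
    ⟨by simp [KJ_empty], a, b, γ, m, hab, ha, hb, by simp, rfl⟩)) hα

theorem gen_diag (hg : Good p t) {R : Finset (Fin n)} {x y : Fin n} (hxy : x ≠ y) (hx : x ∉ R)
    (hy : y ∉ R) {v w : A} (h : v * w = 1) (hv : t ∣ v - 1) {d : GG n t}
    (hd : mat d = diagonal fun z => if z = x then v else if z = y then w else 1) :
    d ∈ Subgroup.closure (Basic p t ∅ R) := by
  wlog hlt : y < x generalizing x y v w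
  · refine this hxy.symm hy hx ((mul_comm _ _).trans h) ?_ ?_ (lt_of_le_of_ne (not_lt.mp hlt) hxy)
    · rw [show w - 1 = (v - 1) * -w by linear_combination h]; exact hv.mul_right _
    · rw [hd]
      congr 1
      funext z
      by_cases h1 : z = x <;> by_cases h2 : z = y <;> simp_all
  have t1 : ∀ α, tau t x y ∣ α := fun α => by simp [tau, hlt.not_gt]
  have t2 : tau t y x ∣ v - 1 := by simpa [tau, hlt] using hv
  have t3 : tau t y x ∣ -(v * (v - 1)) := dvd_neg.mpr (t2.mul_left _)
  have e : d = el t x y 1 * el t y x (v - 1) * el t x y (-w) * el t y x (-(v * (v - 1))) := by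
    apply mat_inj
    simp only [mat_mul]
    rw [mat_el hxy (t1 _), mat_el hxy (t1 _), mat_el hxy.symm t2, mat_el hxy.symm t3, hd]
    simp only [transvection, add_mul, mul_add, one_mul, mul_one, single_mul_single_same,
      single_mul_single_of_ne _ _ _ _ hxy, single_mul_single_of_ne _ _ _ _ hxy.symm, add_zero]
    ext i j
    simp only [Matrix.add_apply, Matrix.single, Matrix.of_apply, diagonal_apply, Matrix.one_apply,
      @eq_comm _ x, @eq_comm _ y]
    by_cases i1 : i = x
    · by_cases j1 : j = x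
      · simp [i1, j1, hxy]; linear_combination (-(v * (1 - v))) * h
      by_cases j2 : j = y
      · simp [i1, j2, hxy, hxy.symm]; linear_combination h
      · simp [i1, j1, j2, Ne.symm j1]
    by_cases i2 : i = y
    · by_cases j1 : j = x
      · simp [i2, j1, hxy, hxy.symm]; linear_combination (v * (1 - v) - (1 - v)) * h
      by_cases j2 : j = y
      · simp [i2, j2, hxy.symm]; linear_combination h
      · simp [i2, j1, j2, Ne.symm j2]
    · simp [i1, i2]
  rw [e]
  exact mul_mem (mul_mem (mul_mem (gen_el_empty hg hxy hx hy (t1 _))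
    (gen_el_empty hg hxy.symm hy hx t2)) (gen_el_empty hg hxy hx hy (t1 _)))
    (gen_el_empty hg hxy.symm hy hx t3)

/-
PLAN (Gaussian elimination; induction on `Rᶜ.card`, `Basic p t J (insert e R) ⊆ Basic p t J R`).
If `Rᶜ = ∅`, `g = 1`.  Else pick `e ∉ R`, `u = mat g e e` (unit, `u - 1` nilpotent; `u = 1` if `J` is
nonempty).  `c` = column matrix of `v a = mat g a e * u⁻¹` (`a ≠ e`), `q` = row matrix of
`w b = u⁻¹ * mat g e b` (`b ≠ e`); `h = c⁻¹ g q⁻¹` has row and column `e` equal to `u e_e` and rows and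
columns in `R` trivial.  `c`, `q` are in the closure by `col_mem`/`row_mem` and: `J = ∅`: `el_mem_of_span`;
`J` nonempty: the entry is `γ τ` and `el … ∈ KK j` for all `j ∈ J` (`kap_spec`, `el_mem_KK`; a nonzero
`kap` entry forces `pos j e < pos j a`; `kap` does not depend on `j`), and `c, q ∈ KJ` so `h ∈ KJ`.
If `u = 1`, `h ∈ GR (insert e R) (insert e R)`, induct.  For `J = ∅`: if `e` is the only element outside `R`
then `det h = u = 1`.  Otherwise take `b ∉ R`, `b ≠ e` and the Whitehead element
`w = diag(u at e, u⁻¹ at b)`, a product of four elementary matrices: with `{x, y} = {e, b}`, `y < x`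
(so `el x y α` is allowed for all `α`, `el y x β` for `t ∣ β`) and a unit `v = 1 + β`, `t ∣ β`:
`el x y 1 * el y x β * el x y (-v⁻¹) * el y x (-(v β)) = diag(v at x, v⁻¹ at y)`.
Then `w⁻¹ h ∈ GR (insert e R) (insert e R)`.
-/
theorem gen_basic (hg : Good p t) (J R : Finset (Fin n)) {g : GG n t} (h1 : g ∈ KJ (KK p t) J)
    (h2 : g ∈ GR t R R) : g ∈ Subgroup.closure (Basic p t J R) := by
  induction hk : Rᶜ.card generalizing R g with
  | zero =>
    have hR : ∀ a, a ∈ R := fun a => by
      by_contra ha
      exact absurd (Finset.card_eq_zero.mp hk) (Finset.ne_empty_of_mem (mem_compl.mpr ha))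
    rw [show g = 1 from mat_inj (by ext a b; exact h2.1 b (hR b) a)]
    exact one_mem _
  | succ k ih =>
    obtain ⟨e, he⟩ : Rᶜ.Nonempty := Finset.card_pos.mp (by omega)
    have hk' : (insert e R)ᶜ.card = k := by
      rw [compl_insert, card_erase_of_mem he, hk]; rfl
    rw [mem_compl] at he
    set L := Subgroup.closure (Basic p t J R) with hL
    have hL1 : L ≤ KJ (KK p t) J := (Subgroup.closure_le _).mpr fun x hx => hx.1
    have hL2 : L ≤ GR t R R := (Subgroup.closure_le _).mpr (by
      rintro x ⟨-, a, b, γ, m, -, ha, hb, -, rfl⟩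
      exact el_mem_GR hb ha)
    have hL3 : Subgroup.closure (Basic p t J (insert e R)) ≤ L := Subgroup.closure_mono (by
      rintro x ⟨h, a, b, γ, m, hab, ha, hb, hm, rfl⟩
      exact ⟨h, a, b, γ, m, hab, fun h => ha (mem_insert_of_mem h),
        fun h => hb (mem_insert_of_mem h), hm, rfl⟩)
    obtain ⟨w, hw⟩ := card_diag_unit hg g e
    have hu : J.Nonempty → mat g e e = 1 := fun ⟨j, hj⟩ => by
      obtain ⟨h3, h4⟩ := kap_spec hg (mem_KJ.mp h1 j hj)
      simp [h4, phi, h3.1, tau]
    have hel : ∀ a b, a ≠ b → mat g a b ≠ 0 → el t a b (-(mat g a b * w)) ∈ L := by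
      intro a b hab h0
      have ha : a ∉ R := fun h => h0 (by rw [h2.2 a h, Matrix.one_apply_ne hab])
      have hb : b ∉ R := fun h => h0 (by rw [h2.1 b h, Matrix.one_apply_ne hab])
      rcases J.eq_empty_or_nonempty with rfl | hJ
      · refine gen_el_empty hg hab ha hb (dvd_neg.mpr (Dvd.dvd.mul_right ?_ _))
        unfold tau
        split_ifs with h
        exacts [mat_lt g h, one_dvd _]
      · have hw1 : w = 1 := by rwa [hu hJ, one_mul] at hw
        obtain ⟨j₀, hj₀⟩ := hJ
        have h4 := (kap_spec hg (mem_KJ.mp h1 j₀ hj₀)).2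
        have e1 : -(mat g a b * w) = algebraMap (ZMod p) A (-kap p g a b) * tau t a b := by
          rw [hw1, h4]; simp [phi]
        rw [e1]
        refine Subgroup.subset_closure ⟨mem_KJ.mpr fun j hj => el_mem_KK ?_ _, a, b,
          -kap p g a b, 0, hab, ha, hb, fun _ => rfl, by simp⟩
        rcases lt_trichotomy (pos j b) (pos j a) with h | h | h
        · exact h
        · exact absurd (pos_inj j h).symm hab
        · refine absurd ?_ h0
          rw [h4]; simp [phi, (kap_spec hg (mem_KJ.mp h1 j hj)).1.2 a b h]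
    obtain ⟨c, hc⟩ := exists_col (t := t) e (fun a => if a = e then 0 else -(mat g a e * w))
      (by simp) fun a ha => by simpa [ha.ne] using (mat_lt g ha).mul_right w
    obtain ⟨q, hq⟩ := exists_row (t := t) e (fun b => if b = e then 0 else -(mat g e b * w))
      (by simp) fun b hb => by simpa [hb.ne'] using (mat_lt g hb).mul_right w
    have hcL : c ∈ L := col_mem (by simp) hc fun a ha h0 => by
      simp only [if_neg ha] at h0 ⊢
      exact hel a e ha fun h => h0 (by simp [h])
    have hqL : q ∈ L := row_mem (by simp) hq fun b hb h0 => by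
      simp only [if_neg hb] at h0 ⊢
      exact hel e b (Ne.symm hb) fun h => h0 (by simp [h])
    have e1 : ∀ a b, mat (c * g) a b =
        mat g a b + (if a = e then 0 else -(mat g a e * w)) * mat g e b := fun a b => by
      rw [mat_mul, hc, add_mul, one_mul, vecMulVec_mul]
      simp [vecMulVec_apply]
    have e2 : ∀ a b, mat (c * g * q) a b =
        mat (c * g) a b + mat (c * g) a e * (if b = e then 0 else -(mat g e b * w)) := fun a b => by
      rw [mat_mul (c * g), hq, mul_add, mul_one, mul_vecMulVec]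
      simp [vecMulVec_apply]
    set h := c * g * q with hh
    have c1 : ∀ a, mat h a e = if a = e then mat g e e else 0 := fun a => by
      rw [e2, e1, if_pos rfl]
      split_ifs with ha
      · simp [ha]
      · linear_combination (-mat g a e) * hw
    have c2 : ∀ b, mat h e b = if b = e then mat g e e else 0 := fun b => by
      rw [e2, e1, e1, if_pos rfl]
      split_ifs with hb
      · simp [hb]
      · linear_combination (-mat g e b) * hw
    have hh1 : h ∈ KJ (KK p t) J := mul_mem (mul_mem (hL1 hcL) h1) (hL1 hqL)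
    have hh2 : h ∈ GR t R R := mul_mem (mul_mem (hL2 hcL) h2) (hL2 hqL)
    suffices H : h ∈ L by
      have : g = c⁻¹ * h * q⁻¹ := by rw [hh]; group
      rw [this]
      exact mul_mem (mul_mem (inv_mem hcL) H) (inv_mem hqL)
    have fin : ∀ x : GG n t, x ∈ KJ (KK p t) J → x ∈ GR t R R →
        (∀ a, mat x a e = if a = e then 1 else 0) → (∀ a, mat x e a = if a = e then 1 else 0) →
        x ∈ L := fun x x1 x2 x3 x4 => by
      refine hL3 (ih (insert e R) x1 ⟨fun b hb a => ?_, fun a ha b => ?_⟩ hk')
      · rcases mem_insert.mp hb with rfl | hb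
        · rw [x3, Matrix.one_apply]
        · exact x2.1 b hb a
      · rcases mem_insert.mp ha with rfl | ha
        · rw [x4, Matrix.one_apply]; simp only [eq_comm]
        · exact x2.2 a ha b
    by_cases hu1 : mat g e e = 1
    · exact fin h hh1 hh2 (hu1 ▸ c1) (hu1 ▸ c2)
    obtain rfl : J = ∅ := by
      by_contra hJ
      exact hu1 (hu (nonempty_iff_ne_empty.mpr hJ))
    obtain ⟨b, hb, hbe⟩ : ∃ b, b ∉ R ∧ b ≠ e := by
      by_contra hc
      push Not at hc
      have e3 : mat h = diagonal fun a => if a = e then mat g e e else 1 := by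
        ext a b
        by_cases ha : a = e
        · rw [ha, c2, diagonal_apply]; simp only [eq_comm, if_true]
        · rw [hh2.2 a (by by_contra h; exact ha (hc a h)), diagonal_apply, Matrix.one_apply,
            if_neg ha]
      have := mat_det h
      rw [e3, det_diagonal] at this
      exact hu1 (by simpa using this)
    have hw1 : t ∣ w - 1 := by
      rw [show w - 1 = (mat g e e - 1) * -w by linear_combination hw]
      exact (mat_diag g e).mul_right _
    obtain ⟨d, hd⟩ := card_exists_diag hbe.symm ((mul_comm _ _).trans hw) hw1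
    have hdL : d ∈ L := gen_diag hg hbe.symm he hb ((mul_comm _ _).trans hw) hw1 hd
    have := fin (d * h) (mul_mem (hL1 hdL) hh1) (mul_mem (hL2 hdL) hh2) (fun a => ?_) fun a => ?_
    · simpa using mul_mem (inv_mem hdL) this
    · rw [mat_mul, hd, diagonal_mul, c1]
      by_cases ha : a = e <;> simp [ha, mul_comm w, hw]
    · rw [mat_mul, hd, diagonal_mul, c2]
      by_cases ha : a = e <;> simp [ha, mul_comm w, hw]

/-
PLAN.  `Γ` = the closure.  (i) if no `j ∈ J` has `0 < pos b j ≤ pos b a` (`a ≠ b`), then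
`el a b (γ τ) ∈ Γ`: induction on `pos b a` (`a - 1 = b`: it is `rt a γ`, `a ∉ J`; otherwise `el_comm` with
`c = a - 1` and `tau_mul`).  For a basic element with `J` nonempty (`m = 0`): either `γ = 0` or
membership in `KK j` forces `pos j b < pos j a`, which excludes `0 < pos b j ≤ pos b a`.
(ii) `J = ∅`: induction on `m` for all `a ≠ b`, `γ`: if `a + 1 ≠ b` take `c = a + 1` (`τ(a,c) τ(c,b) = t τ(a,b)`)
and `el_comm` with `el a c τ`, `el c b (γ t^m τ)`; if `a + 1 = b` take `c = b + 1` (`n ≥ 3`;
`τ(a,c) τ(c,b) = τ(a,b)`) and use the first case for `el a c (γ t^(m+1) τ)` (`a + 1 ≠ c`), (i) for `el c b τ`.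
-/
theorem gen_rt (hg : Good p t) (hn : 3 ≤ n) (J : Finset (Fin n)) :
    KJ (KK p t) J ≤ Subgroup.closure {g | ∃ a, a ∉ J ∧ ∃ γ : ZMod p, g = rt p t a γ} := by
  set Γ := Subgroup.closure {g | ∃ a, a ∉ J ∧ ∃ γ : ZMod p, g = rt p t a γ} with hΓ
  have h1 : ∀ (k : ℕ) (a b : Fin n), a ≠ b → pos b a = k →
      (∀ j ∈ J, ¬ (0 < pos b j ∧ pos b j ≤ pos b a)) →
      ∀ γ : ZMod p, el t a b (algebraMap (ZMod p) A γ * tau t a b) ∈ Γ := by
    intro k
    induction k using Nat.strong_induction_on with
    | _ k ih =>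
      intro a b hab hk hJ γ
      have hv := card_val_pred (by omega) a
      have hab' : a.val ≠ b.val := fun e => hab (Fin.ext e)
      have := a.2; have := b.2
      have h0 : 0 < pos b a := by
        simp only [pos_eq, Fin.le_def]; split_ifs <;> omega
      have hrt : ∀ γ, rt p t a γ ∈ Γ := fun γ =>
        Subgroup.subset_closure ⟨a, fun h => hJ a h ⟨h0, le_rfl⟩, γ, rfl⟩
      by_cases hc : a - 1 = b
      · rw [← hc]; exact hrt γ
      have hp : pos b (a - 1) < pos b a := by
        simp only [pos_eq, Fin.le_def]; split_ifs at * <;> omega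
      have hac : a ≠ a - 1 := fun e => by rw [← e] at hp; exact lt_irrefl _ hp
      have h2 := ih _ (hk ▸ hp) (a - 1) b hc rfl (fun j hj h => hJ j hj ⟨h.1, h.2.trans hp.le⟩) 1
      have h3 := gen_comm hab hac hc (dvd_mul_left _ _) (dvd_mul_left _ _) (hrt γ) h2
      rwa [map_one, one_mul, mul_assoc, tau_mul t (j := b) hp.le (by simp [pos])] at h3
  refine le_trans (fun g hg' => gen_basic hg J ∅ hg' (by simp [GR_empty]))
    ((Subgroup.closure_le _).mpr ?_)
  rintro x ⟨hx, a, b, γ, m, hab, -, -, hm, rfl⟩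
  rcases J.eq_empty_or_nonempty with rfl | hJ
  · clear hx hm
    have h2 := fun a b hab => h1 _ a b hab rfl (by simp)
    have hs := fun a : Fin n => gen_val_succ (by omega) a
    induction m generalizing a b γ with
    | zero => simpa using h2 a b hab γ
    | succ m ih =>
      have h3 : ∀ (a b : Fin n) (γ : ZMod p), a ≠ b → a + 1 ≠ b →
          el t a b (algebraMap (ZMod p) A γ * t ^ (m + 1) * tau t a b) ∈ Γ := by
        intro a b γ hab hc
        have hv := hs a
        have hac : a ≠ a + 1 := by rw [Ne, Fin.ext_iff]; split_ifs at hv <;> omega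
        have h4 := gen_comm hab hac hc (dvd_mul_left _ _) (dvd_mul_left _ _) (h2 a _ hac 1)
          (ih _ b γ hc)
        have h5 : tau t a (a + 1) * tau t (a + 1) b = t * tau t a b := by
          rw [Ne, Fin.ext_iff] at hab hc
          have := a.2; have := b.2
          simp only [tau, Fin.lt_def]
          split_ifs at * <;> first | omega | simp
        convert h4 using 2
        rw [map_one]
        linear_combination (-(algebraMap (ZMod p) A γ * t ^ m)) * h5
      by_cases hc : a + 1 = b
      · have hv := hs a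
        have hv' := hs b
        rw [hc] at hv
        have := a.2; have := b.2
        have hac : a ≠ b + 1 := by rw [Ne, Fin.ext_iff]; split_ifs at hv hv' <;> omega
        have hcb : b + 1 ≠ b := by rw [Ne, Fin.ext_iff]; split_ifs at hv hv' <;> omega
        have h4 := gen_comm hab hac hcb (dvd_mul_left _ _) (dvd_mul_left _ _)
          (h3 a _ γ hac (hc ▸ hcb.symm)) (h2 _ b hcb 1)
        rwa [map_one, one_mul, mul_assoc, tau_mul t (j := b) ?_ (by simp [pos])] at h4
        simp only [pos_eq, Fin.le_def]; split_ifs at * <;> omega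
      · exact h3 a b γ hab hc
  · obtain rfl := hm hJ
    rw [pow_zero, mul_one] at hx ⊢
    by_cases hγ : γ = 0
    · rw [hγ, map_zero, zero_mul, el_zero]; exact one_mem _
    refine h1 _ a b hab rfl (fun j hj h => ?_) γ
    obtain ⟨κ, h2, h3⟩ := mem_KJ.mp hx j hj
    have h4 := congrFun (congrFun h3 a) b
    rw [mat_el hab (dvd_mul_left _ _)] at h4
    have h5 : γ = κ a b := entry_inj hg (a := a) (b := b)
      (by simpa [transvection, phi, Matrix.one_apply_ne hab] using h4)
    refine hγ (h5.trans (h2.2 a b ?_))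
    have hab' : a.val ≠ b.val := fun e => hab (Fin.ext e)
    have := a.2; have := b.2; have := j.2
    simp only [pos_eq, Fin.le_def] at h ⊢
    split_ifs at * <;> omega

/- PLAN: `gen_basic` with `J = ∅`; `el a b` is in the column group if `b = e`, in the row group if `a = e`,
in `GR (insert e R) (insert e R)` otherwise (`el_mem_GR`). -/
theorem gen_center1 (hg : Good p t) {R : Finset (Fin n)} {e : Fin n} (he : e ∉ R) :
    GR t R R ≤ Subgroup.closure
      (((GR t (insert e R) (univ.erase e) : Set (GG n t)) ∪ GR t (univ.erase e) (insert e R))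
        ∪ GR t (insert e R) (insert e R)) := by
  refine le_trans (fun g hg' => gen_basic hg ∅ R (by simp [KJ_empty]) hg')
    (Subgroup.closure_mono ?_)
  rintro x ⟨-, a, b, γ, m, hab, ha, hb, -, rfl⟩
  by_cases h1 : a = e
  · exact Or.inl (Or.inl (el_mem_GR (by simp [hb, ← h1, hab.symm]) (by simp [h1])))
  by_cases h2 : b = e
  · exact Or.inl (Or.inr (el_mem_GR (by simp [h2]) (by simp [ha, h1])))
  · exact Or.inr (el_mem_GR (by simp [hb, h2]) (by simp [ha, h1]))

/- PLAN: `gen_basic`; a basic `x = el a b (γ t^m τ)` with `a = e` or `b = e` is in the row/column group.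
Otherwise if `m = 0` and `pos e b < pos e a` it is in `KK e` (`el_mem_KK`); else
`τ(a,e) τ(e,b) ∣ t^m τ(a,b)` (for `m = 0`, `pos e a < pos e b`: `tau_mul` with `j = b`), and `el_comm` writes `x`
as a commutator of `el a e τ` (column group) and `el e b _` (row group). -/
theorem gen_center2 (hg : Good p t) {R : Finset (Fin n)} {e : Fin n} (he : e ∉ R)
    (J : Finset (Fin n)) {k : GG n t} (hk : k ∈ GR t R R) (hJ : ∀ j ∈ J, k ∈ KK p t j) :
    k ∈ Subgroup.closure {x | x ∈ GR t R R ∧ (∀ j ∈ J, x ∈ KK p t j) ∧ (x ∈ KK p t e ∨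
      x ∈ Subgroup.closure
        ((GR t (insert e R) (univ.erase e) : Set (GG n t)) ∪ GR t (univ.erase e) (insert e R)))} := by
  refine Subgroup.closure_mono ?_ (gen_basic hg J R (mem_KJ.mpr hJ) hk)
  rintro x ⟨hx, a, b, γ, m, hab, ha, hb, -, rfl⟩
  refine ⟨el_mem_GR hb ha, mem_KJ.mp hx, ?_⟩
  have hr : ∀ (b : Fin n) α, b ∉ R → b ≠ e → el t e b α ∈ Subgroup.closure
      ((GR t (insert e R) (univ.erase e) : Set (GG n t)) ∪ GR t (univ.erase e) (insert e R)) :=
    fun b α h h' => Subgroup.subset_closure (Or.inl (el_mem_GR (by simp [h, h']) (by simp)))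
  have hc : ∀ (a : Fin n) α, a ∉ R → a ≠ e → el t a e α ∈ Subgroup.closure
      ((GR t (insert e R) (univ.erase e) : Set (GG n t)) ∪ GR t (univ.erase e) (insert e R)) :=
    fun a α h h' => Subgroup.subset_closure (Or.inr (el_mem_GR (by simp) (by simp [h, h'])))
  by_cases h1 : a = e
  · subst h1; exact Or.inr (hr b _ hb hab.symm)
  by_cases h2 : b = e
  · subst h2; exact Or.inr (hc a _ ha hab)
  by_cases h3 : m = 0 ∧ pos e b < pos e a
  · rw [h3.1, pow_zero, mul_one]; exact Or.inl (el_mem_KK h3.2 γ)
  have h4 : tau t a e * tau t e b ∣ t ^ m * tau t a b := by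
    rcases m with _ | m
    · rw [pow_zero, one_mul, tau_mul t (j := b) ?_ (by simp [pos])]
      rw [Ne, Fin.ext_iff] at hab
      rw [Fin.ext_iff] at h1 h2
      have := a.2; have := b.2; have := e.2
      simp only [pos_eq, Fin.le_def, true_and] at h3 ⊢
      split_ifs at * <;> omega
    · rw [pow_succ, mul_assoc]
      refine Dvd.dvd.mul_left ?_ _
      simp only [tau, Fin.lt_def]
      split_ifs <;> first | omega | simp
  obtain ⟨ρ, hρ⟩ := h4.mul_left (algebraMap (ZMod p) A γ)
  rw [mul_assoc, hρ, mul_assoc]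
  exact Or.inr (gen_comm hab h1 (Ne.symm h2) dvd_rfl (dvd_mul_right _ _) (hc a _ ha h1)
    (hr b _ hb h2))

end Crest.Agent.R66
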