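import Crest.Agent.R66.GrpCol

/-! Task R66-GrpRow: the row group of `e` (column `e` frozen). -/
set_option autoImplicit false
set_option linter.unusedSectionVars false
namespace Crest.Agent.R66
open Finset Matrix

variable {p : ℕ} [Fact p.Prime] {A : Type} [CommRing A] [Algebra (ZMod p) A] [Finite A]
  {n : ℕ} [NeZero n] {t : A}

theorem gr_vm {B : Type} [CommRing B] (κ : Matrix (Fin n) (Fin n) B) (v : Fin n → B) (a : Fin n) :
    (v ᵥ* κ) a = ∑ b, v b * κ b a := rfl

theorem gr_form {R : Finset (Fin n)} {e : Fin n} (he : e ∈ R) {q : GG n t}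
    (hq : q ∈ GR t R (univ.erase e)) :
    mat q = 1 + vecMulVec (Pi.single e 1) (fun b => if b = e then 0 else mat q e b) := by
  ext a b
  by_cases ha : a = e
  · subst ha
    by_cases hb : b = a
    · subst hb; simp [vecMulVec_apply, hq.1 b he]
    · simp [vecMulVec_apply, hb, Matrix.one_apply_ne (Ne.symm hb)]
  · simp [vecMulVec_apply, ha, hq.2 a (by simp [ha])]

theorem gr_mem {R : Finset (Fin n)} {e : Fin n} {q : GG n t} {v : Fin n → A}
    (hv : ∀ a ∈ R, v a = 0) (hq : mat q = 1 + vecMulVec (Pi.single e 1) v) :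
    q ∈ GR t R (univ.erase e) := by
  refine ⟨fun b hb a => ?_, fun a ha b => ?_⟩
  · simp [hq, vecMulVec_apply, hv b hb]
  · simp [hq, vecMulVec_apply, ne_of_mem_erase ha]

theorem gr_mul {e : Fin n} {q q' : GG n t} {v w : Fin n → A} (hv : v e = 0)
    (hq : mat q = 1 + vecMulVec (Pi.single e 1) v) (hq' : mat q' = 1 + vecMulVec (Pi.single e 1) w) :
    mat (q * q') = 1 + vecMulVec (Pi.single e 1) (v + w) := by
  rw [mat_mul, hq, hq', add_mul, mul_add, mul_add, one_mul, one_mul, mul_one,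
    vecMulVec_mul_vecMulVec, vecMulVec_add]
  simp [hv]
  abel

theorem gr_conj {Rc Rr : Finset (Fin n)} {e : Fin n} (he : e ∈ Rc) {s q : GG n t}
    (hs : s ∈ GR t Rc Rr) {v : Fin n → A} (hq : mat q = 1 + vecMulVec (Pi.single e 1) v) :
    mat (s * q * s⁻¹) = 1 + vecMulVec (Pi.single e 1) (v ᵥ* mat s⁻¹) := by
  rw [mat_mul, mat_mul, hq, mul_add, mul_one, add_mul, mat_mul_inv, mul_vecMulVec, vecMulVec_mul]
  congr 2
  funext b
  simp [hs.1 e he b, Pi.single_apply, Matrix.one_apply]

theorem gr_col_frozen {Rc Rr : Finset (Fin n)} {s : GG n t} (hs : s ∈ GR t Rc Rr) {a : Fin n}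
    (ha : a ∈ Rc) (v : Fin n → A) : (v ᵥ* mat s) a = v a := by
  conv_rhs => rw [← Matrix.vecMul_one v]
  rw [gr_vm, gr_vm]
  exact sum_congr rfl fun b _ => by rw [hs.1 a ha b]

theorem gr_el {a e : Fin n} (hae : a ≠ e) {α : A} (h : tau t e a ∣ α) :
    mat (el t e a α) = 1 + vecMulVec (Pi.single e 1) (Pi.single a α) := by
  rw [mat_el hae.symm h, transvection]
  congr 1
  ext x y
  simp [Matrix.single, vecMulVec_apply, Pi.single_apply, ite_and, eq_comm]
  split_ifs <;> rfl

theorem gr_tau_dvd {a e : Fin n} {m : ℕ} (h : a.val < e.val + n * m) (x : A) :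
    tau t e a ∣ x * t ^ m := gc_tau_dvd h x

theorem semi_row (hg : Good p t) {Rc Rr : Finset (Fin n)} {e : Fin n} (he : e ∈ Rc) (he' : e ∉ Rr) :
    Semi (KK p t) (GR t Rc Rr) (GR t Rc (insert e Rr)) (GR t Rc (univ.erase e)) := by
  have hnorm : ∀ s ∈ GR t Rc (insert e Rr), ∀ q ∈ GR t Rc (univ.erase e),
      s * q * s⁻¹ ∈ GR t Rc (univ.erase e) := fun s hs q hq => by
    refine gr_mem (fun a ha => ?_) (gr_conj he hs (gr_form he hq))
    rw [gr_col_frozen (inv_mem hs) ha]
    split_ifs with h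
    · rfl
    · rw [hq.1 a ha, Matrix.one_apply_ne (Ne.symm h)]
  refine ⟨GR_anti subset_rfl (fun a ha => mem_erase.2 ⟨fun h => he' (h ▸ ha), mem_univ _⟩),
    GR_anti subset_rfl (subset_insert _ _), fun a ha b hb => ?_, hnorm,
    fun q hq hq' => ?_, fun s hs => ?_⟩
  · apply mat_inj
    rw [gr_mul (by simp) (gr_form he ha) (gr_form he hb),
      gr_mul (by simp) (gr_form he hb) (gr_form he ha), add_comm (fun a => _)]
  · apply mat_inj
    ext a b
    by_cases hb : a = e
    · subst hb; exact hq'.2 a (mem_insert_self _ _) b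
    · exact hq.2 a (by simp [hb]) b
  · obtain ⟨q, hq⟩ := exists_row (t := t) e (fun a => if a = e then 0 else mat s e a) (by simp)
      (fun a ha => by simp only [if_neg ha.ne']; exact mat_lt s ha)
    obtain ⟨q', hq'⟩ := exists_row (t := t) e (-fun a => if a = e then 0 else mat s e a) (by simp)
      (fun a ha => by simp only [Pi.neg_apply, if_neg ha.ne']; exact (mat_lt s ha).neg_right)
    have hqq : q' * q = 1 := mat_inj (by rw [gr_mul (by simp) hq' hq]; simp [mat_one])
    have hv : ∀ a ∈ Rc, (if a = e then 0 else mat s e a) = 0 := fun a ha => by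
      split_ifs with h
      · rfl
      · rw [hs.1 a ha, Matrix.one_apply_ne (Ne.symm h)]
    have hm : ∀ a b, mat (s * q') a b =
        mat s a b - (1 : Matrix (Fin n) (Fin n) A) a e * (if b = e then 0 else mat s e b) := by
      intro a b
      rw [mat_mul, hq', mul_add, mul_one, mul_vecMulVec]
      simp [vecMulVec_apply, hs.1 e he a, sub_eq_add_neg]
    have hs' : s * q' ∈ GR t Rc (insert e Rr) := by
      refine ⟨fun b hb a => ?_, fun a ha b => ?_⟩
      · rw [hm, hv b hb, hs.1 b hb, mul_zero, sub_zero]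
      · rw [hm]
        rcases mem_insert.1 ha with rfl | ha
        · by_cases hb : b = a
          · subst hb; simp [hs.1 b he]
          · simp [hb, Matrix.one_apply_ne (Ne.symm hb)]
        · rw [hs.2 a ha, Matrix.one_apply_ne (fun h : a = e => he' (h ▸ ha)), zero_mul, sub_zero]
    refine ⟨s * q' * q * (s * q')⁻¹, hnorm _ hs' _ (gr_mem hv hq), s * q', hs', ?_, fun j hj => ?_⟩
    · rw [inv_mul_cancel_right, mul_assoc, hqq, mul_one]
    · have h1 := row_mem_KK hg hj hq
      have h2 : q' ∈ KK p t j := by rw [eq_inv_of_mul_eq_one_left hqq]; exact inv_mem h1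
      exact mul_mem (mul_mem (mul_mem hj h2) h1) (inv_mem (mul_mem hj h2))

theorem gr_gen {R : Finset (Fin n)} {e a : Fin n} {c m : ℕ} (ha : a ∉ R)
    (h1 : a.val < e.val + n * m) (h2 : 2 * n + n * m ≤ c + a.val) (γ : ZMod p) :
    el t e a (algebraMap (ZMod p) A γ * t ^ m) ∈ FR p t e R c :=
  Subgroup.subset_closure ⟨a, γ, m, ha, h1, h2, rfl⟩

theorem gr_mod {j : Fin n} {c : ℕ} (hc : c % n = (n - j.val) % n) : ∃ d, c + j.val = n * d := by
  have h1 : c + j.val ≡ n - j.val + j.val [MOD n] := Nat.ModEq.add_right _ hc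
  rw [Nat.sub_add_cancel j.2.le] at h1
  exact (Nat.modEq_zero_iff_dvd).1 (h1.trans (Nat.modEq_zero_iff_dvd.2 dvd_rfl))

theorem gr_stab (hg : Good p t) {R Rr : Finset (Fin n)} {e : Fin n} (he : e ∈ R) {j : Fin n}
    {c : ℕ} (hc : c % n = (n - j.val) % n) {k : GG n t} (hk : k ∈ GR t R Rr) (hkj : k ∈ KK p t j)
    {q : GG n t} (hq : q ∈ FR p t e R c) : k * q * k⁻¹ ∈ FR p t e R c := by
  refine (Subgroup.closure_le ((FR p t e R c).comap (MulAut.conj k).toMonoidHom)).2 ?_ hq
  rintro _ ⟨a, γ, m, ha, h1, h2, rfl⟩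
  have hae : a ≠ e := fun h => ha (h ▸ he)
  obtain ⟨hU, hm⟩ := kap_spec hg (inv_mem hkj)
  show k * _ * k⁻¹ ∈ FR p t e R c
  refine row_mem ?_ (gr_conj he hk (gr_el hae (gr_tau_dvd h1 _))) fun a' _ h0 => ?_
  · rw [gr_col_frozen (inv_mem hk) he, Pi.single_eq_of_ne hae.symm]
  have hent : (Pi.single a (algebraMap (ZMod p) A γ * t ^ m) ᵥ* mat k⁻¹) a' =
      (algebraMap (ZMod p) A γ * t ^ m) * mat k⁻¹ a a' := by simp
  have ha' : a' ∉ R := fun h => h0 (by
    rw [gr_col_frozen (inv_mem hk) h, Pi.single_eq_of_ne (fun h' : a' = a => ha (h' ▸ h))])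
  rw [hent, hm] at h0 ⊢
  have hpos : pos j a' ≤ pos j a := by
    by_contra h
    exact h0 (by simp [phi, hU.2 a a' (not_le.1 h)])
  have : (algebraMap (ZMod p) A γ * t ^ m) * phi p t (kap p k⁻¹) a a' =
      algebraMap (ZMod p) A (kap p k⁻¹ a a' * γ) * t ^ (m + if a < a' then 1 else 0) := by
    simp only [phi, Matrix.of_apply, gc_tau_pow, map_mul, pow_add]; ring
  rw [this]
  obtain ⟨d, hd⟩ := gr_mod hc
  have h3 := gc_cases n (m + 1) d
  have h4 := gc_cases n (m + 2) d
  have := a.2; have := a'.2; have := j.2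
  simp only [pos_eq, Fin.le_def, mul_add, mul_one] at hpos h3 h4
  refine gr_gen ha' ?_ ?_ _ <;> simp only [Fin.lt_def, mul_add, mul_ite, mul_one, mul_zero] <;>
    split_ifs at hpos ⊢ <;> omega

theorem filt_row (hg : Good p t) {Rc Rr : Finset (Fin n)} {e : Fin n} (he : e ∈ Rc) :
    Filt (KK p t) (GR t Rc (insert e Rr)) (GR t Rc (univ.erase e)) Rcᶜ n (2 * n - e.val)
      (fun j => (n - j.val) % n) (FR p t e Rc) := by
  have hn := Nat.pos_of_neZero n
  refine ⟨hn, by have := e.2; omega, fun j _ => Nat.mod_lt _ hn, fun i _ j _ h => ?_, ?_, ?_, ?_,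
    fun j _ c hc k hk hkj q hq => gr_stab hg he hc hk hkj hq, ?_⟩
  · obtain ⟨d, hd⟩ := gr_mod (j := j) (c := n - i.val) h
    have h3 := gc_cases n 0 d
    have := i.2; have := j.2
    exact Fin.ext (by omega)
  · intro c c' h
    refine Subgroup.closure_mono ?_
    rintro _ ⟨a, γ, m, ha, h1, h2, rfl⟩
    exact ⟨a, γ, m, ha, h1, by omega, rfl⟩
  · intro c hc
    rw [eq_bot_iff]
    refine (Subgroup.closure_le _).2 ?_
    rintro _ ⟨a, γ, m, ha, h1, h2, rfl⟩
    have := a.2
    omega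
  · obtain ⟨s, hs⟩ := hg.nil
    refine ⟨n * s + 3 * n, fun q hq => row_mem (by simp) (gr_form he hq) fun a hae h0 => ?_⟩
    simp only [if_neg hae] at h0 ⊢
    have ha : a ∉ Rc := fun h => h0 (by rw [hq.1 a h, Matrix.one_apply_ne hae.symm])
    refine el_mem_of_span hg hae.symm (fun γ m => ?_) ?_
    · by_cases hm : s ≤ m
      · rw [pow_eq_zero_of_le hm hs, mul_zero, zero_mul, el_zero]; exact one_mem _
      · rw [gc_tau_pow, mul_assoc, ← pow_add]
        have h1 : n * m + n ≤ n * s := by nlinarith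
        have := a.2; have := e.2
        have h2 : a.val ≠ e.val := fun h => hae (Fin.ext h)
        refine gr_gen ha ?_ ?_ _ <;>
          simp only [Fin.lt_def, mul_add, mul_ite, mul_one, mul_zero] <;> split_ifs <;> omega
    · unfold tau
      split_ifs with h
      · exact mat_lt q h
      · exact one_dvd _
  · intro j hj c h1 h2 hc q
    have hje : j.val ≠ e.val := fun h => (mem_compl.1 hj) (Fin.ext h ▸ he)
    obtain ⟨d, hd⟩ := gr_mod hc
    have := j.2; have := e.2
    have hcase : (j.val < e.val ∧ c + j.val = 2 * n) ∨ (e.val < j.val ∧ c + j.val = 3 * n) := by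
      have h3 := gc_cases n 1 d
      have h4 := gc_cases n 2 d
      omega
    constructor
    · rintro ⟨hq, hqj⟩
      obtain ⟨hU, hm⟩ := kap_spec hg hqj
      refine row_mem (by simp) (gr_form he hq) fun a hae h0 => ?_
      simp only [if_neg hae] at h0 ⊢
      have ha : a ∉ Rc := fun h => h0 (by rw [hq.1 a h, Matrix.one_apply_ne hae.symm])
      rw [hm] at h0 ⊢
      have hpos : pos j a ≤ pos j e := by
        by_contra h
        exact h0 (by simp [phi, hU.2 e a (not_le.1 h)])
      simp only [phi, Matrix.of_apply, gc_tau_pow]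
      have := a.2
      have h2 : a.val ≠ e.val := fun h => hae (Fin.ext h)
      simp only [pos_eq, Fin.le_def] at hpos
      refine gr_gen ha ?_ ?_ _ <;> simp only [Fin.lt_def, mul_ite, mul_one, mul_zero] <;>
        split_ifs at hpos ⊢ <;> omega
    · intro hq
      refine (Subgroup.closure_le (GR t Rc (univ.erase e) ⊓ KK p t j)).2 ?_ hq
      rintro _ ⟨a, γ, m, ha, h3, h4, rfl⟩
      refine ⟨el_mem_GR ha (notMem_erase _ _), ?_⟩
      have := a.2
      have hae : a.val ≠ e.val := fun h => ha (Fin.ext h ▸ he)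
      have h5 := gc_cases n 0 m
      have hm : m = if e < a then 1 else 0 := by
        refine Nat.eq_of_mul_eq_mul_left (Nat.pos_of_neZero n) ?_
        simp only [Fin.lt_def, mul_ite, mul_one, mul_zero]
        split_ifs <;> omega
      have hm' : n * m = if e.val < a.val then n else 0 := by
        rw [hm]
        simp only [Fin.lt_def, mul_ite, mul_one, mul_zero]
      rw [hm, ← gc_tau_pow]
      refine el_mem_KK ?_ γ
      simp only [pos_eq, Fin.le_def]
      split_ifs at hm' ⊢ <;> omega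

theorem gr_sep {F : Type} [Field F] {X : Submodule F (Fin n → F)} {x : Fin n → F} (hx : x ∉ X) :
    ∃ l : Fin n → F, l ⬝ᵥ x ≠ 0 ∧ ∀ y ∈ X, l ⬝ᵥ y = 0 := by
  obtain ⟨f, h1, h2⟩ := Submodule.exists_dual_map_eq_bot_of_notMem hx inferInstance
  obtain ⟨l, rfl⟩ := (dotProductEquiv F (Fin n)).surjective f
  refine ⟨l, h1, fun y hy => ?_⟩
  have : dotProductEquiv F (Fin n) l y ∈ X.map (dotProductEquiv F (Fin n) l) := ⟨y, hy, rfl⟩
  rw [h2] at this
  exact this

theorem gr_ann {F : Type} [Field F] (H : Submodule F (Fin n → F)) :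
    ∃ W : Submodule F (Fin n → F), ∀ Z : Submodule F (Fin n → F),
      W ≤ Z ↔ ∀ l, (∀ z ∈ Z, l ⬝ᵥ z = 0) → l ∈ H := by
  refine ⟨{ carrier := {v | ∀ l ∈ H, l ⬝ᵥ v = 0}
            add_mem' := fun {u v} hu hv l hl => by rw [dotProduct_add, hu l hl, hv l hl, add_zero]
            zero_mem' := fun l _ => dotProduct_zero l
            smul_mem' := fun c v hv l hl => by rw [dotProduct_smul, hv l hl, smul_zero] },
    fun Z => ⟨fun hle l hl => ?_, fun h v hv => ?_⟩⟩
  · by_contra hc
    obtain ⟨v, h1, h2⟩ := gr_sep hc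
    exact h1 (by
      rw [dotProduct_comm]
      exact hl v (hle fun l' hl' => by rw [dotProduct_comm]; exact h2 l' hl'))
  · by_contra hc
    obtain ⟨l, h1, h2⟩ := gr_sep hc
    exact h1 (hv l (h l h2))

theorem link_row (hg : Good p t) {Rc Rr : Finset (Fin n)} {e : Fin n} (he : e ∈ Rc)
    {j : Fin n} (hj : j ∉ Rc) {c : ℕ} (hc : 2 * n - e.val ≤ c) (hcj : c % n = (n - j.val) % n)
    {N : Subgroup (GG n t)} (h1 : FR p t e Rc c ≤ N) (h2 : ¬ FR p t e Rc (c + n) ≤ N) :
    ∃ W' : Submodule (ZMod p) (Fin n → ZMod p), ¬ W' ≤ Zc (ZMod p) (fun a => a ∉ Rc) ∧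
      ∀ i, i ∉ Rc → i ≠ j → ∀ k ∈ GR t Rc (insert e Rr), k ∈ KK p t j →
        (okF n (fun j : Fin n => (n - j.val) % n) (FR p t e Rc) N c i k ↔
          ¬ W' ≤ YY p j i k ⊔ Zc (ZMod p) (fun a => a ∉ Rc)) := by
  have hn := Nat.pos_of_neZero n
  have hen := e.2
  obtain ⟨d, hd⟩ : ∃ d, c + j.val = n * d + 2 * n := by
    obtain ⟨d, hd⟩ := gr_mod hcj
    have h4 : 2 ≤ d := by
      by_contra h
      have : n * d ≤ n * 1 := Nat.mul_le_mul_left _ (by omega)
      omega
    obtain ⟨d, rfl⟩ := Nat.exists_eq_add_of_le' h4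
    exact ⟨d, by rw [hd]; ring⟩
  set μ : Fin n → ℕ := fun a => d + if j ≤ a then 1 else 0 with hμ
  have hμ1 : ∀ a : Fin n, a.val + c = n + pos j a + n * μ a := fun a => by
    have := a.2; have := j.2
    simp only [hμ, pos_eq, Fin.le_def, mul_add, mul_ite, mul_one, mul_zero]
    split_ifs <;> omega
  have hpos : ∀ a : Fin n, pos j a < n := fun a => (a - j).2
  have hμ2 : ∀ (a : Fin n) (m : ℕ), n + n * m ≤ c + a.val → c + a.val < 2 * n + n * m →
      m = μ a := by
    intro a m h3 h4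
    have h5 := hμ1 a
    have h6 := hpos a
    rcases lt_trichotomy m (μ a) with h | h | h
    · have : n * m + n ≤ n * μ a := by nlinarith
      omega
    · exact h
    · have : n * μ a + n ≤ n * m := by nlinarith
      omega
  have hμ3 : ∀ a : Fin n, a.val < e.val + n * μ a := fun a => by
    have := hμ1 a; have := hpos a; omega
  set u : (Fin n → ZMod p) → Fin n → A :=
    fun v a => if a ∈ Rc then 0 else algebraMap (ZMod p) A (v a) * t ^ μ a with hu
  have hue : ∀ v, u v e = 0 := fun v => by simp [hu, he]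
  have hex : ∀ v, ∃ g : GG n t, mat g = 1 + vecMulVec (Pi.single e 1) (u v) := fun v =>
    exists_row e _ (hue v) fun a ha => by
      simp only [hu]
      split_ifs
      · exact dvd_zero _
      · have := gr_tau_dvd (t := t) (hμ3 a) (algebraMap (ZMod p) A (v a))
        rwa [tau, if_pos ha] at this
  choose ι hι using hex
  have hadd : ∀ v w, ι (v + w) = ι v * ι w := fun v w => mat_inj (by
    rw [gr_mul (hue v) (hι v) (hι w), hι]
    congr 2
    funext a
    simp only [hu, Pi.add_apply, map_add]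
    split_ifs <;> ring)
  have hzero : ι 0 = 1 := mat_inj (by
    have : u 0 = 0 := by
      funext a
      simp [hu]
    rw [hι, this, vecMulVec_zero, add_zero, mat_one])
  have hsingle : ∀ a, a ∉ Rc → ∀ γ,
      ι (Pi.single a γ) = el t e a (algebraMap (ZMod p) A γ * t ^ μ a) := fun a ha γ => mat_inj (by
    rw [hι, gr_el (fun h : a = e => ha (h ▸ he)) (gr_tau_dvd (hμ3 a) _)]
    congr 2
    funext x
    by_cases hx : x = a
    · subst hx; simp [hu, ha]
    · simp [hu, hx])
  have hconj : ∀ k ∈ GR t Rc (insert e Rr), k ∈ KK p t j → ∀ v, (∀ a ∈ Rc, v a = 0) →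
      k * ι v * k⁻¹ = ι (v ᵥ* kap p k⁻¹) := by
    intro k hk hkj v hv
    obtain ⟨hU, hm⟩ := kap_spec hg (inv_mem hkj)
    apply mat_inj
    rw [gr_conj he hk (hι v), hι]
    congr 2
    funext a'
    by_cases ha' : a' ∈ Rc
    · rw [gr_col_frozen (inv_mem hk) ha']; simp [hu, ha']
    simp only [hu, if_neg ha', gr_vm, map_sum, sum_mul]
    refine sum_congr rfl fun a _ => ?_
    by_cases ha : a ∈ Rc
    · simp [ha, hv a ha]
    rw [if_neg ha, hm]
    rcases lt_or_ge (pos j a) (pos j a') with h | h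
    · simp [phi, hU.2 a a' h]
    have : (if a < a' then 1 else 0) + μ a = μ a' := by
      have := a.2; have := a'.2; have := j.2
      simp only [hμ, pos_eq, Fin.lt_def, Fin.le_def] at h ⊢
      split_ifs at h ⊢ <;> omega
    simp only [phi, Matrix.of_apply, gc_tau_pow, ← this, pow_add, map_mul]
    ring
  let H0 : AddSubgroup (Fin n → ZMod p) :=
    { carrier := {v | ι v ∈ N}
      add_mem' := fun {v w} hv hw => by
        show ι (v + w) ∈ N
        rw [hadd]; exact mul_mem hv hw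
      zero_mem' := by
        show ι 0 ∈ N
        rw [hzero]; exact one_mem _
      neg_mem' := fun {v} hv => by
        show ι (-v) ∈ N
        have : ι (-v) = (ι v)⁻¹ := by
          rw [eq_inv_iff_mul_eq_one, ← hadd, neg_add_cancel, hzero]
        rw [this]; exact inv_mem hv }
  obtain ⟨W, hW⟩ := gr_ann (AddSubgroup.toZModSubmodule p H0)
  replace hW : ∀ Z : Submodule (ZMod p) (Fin n → ZMod p),
      W ≤ Z ↔ ∀ l, (∀ z ∈ Z, l ⬝ᵥ z = 0) → ι l ∈ N := hW
  have hB : ∀ l : Fin n → ZMod p, (∀ a ∈ Rc, l a = 0) →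
      ∀ z ∈ Zc (ZMod p) (fun a => a ∉ Rc), l ⬝ᵥ z = 0 := fun l hl z hz =>
    sum_eq_zero fun a _ => by
      by_cases ha : a ∈ Rc
      · rw [hl a ha, zero_mul]
      · rw [hz a ha, mul_zero]
  refine ⟨W, fun hle => h2 ?_, ?_⟩
  · refine (Subgroup.closure_le _).2 ?_
    rintro _ ⟨a, γ, m, ha, h3, h4, rfl⟩
    by_cases h5 : 2 * n + n * m ≤ c + a.val
    · exact h1 (gr_gen ha h3 h5 γ)
    · rw [hμ2 a m (by omega) (by omega), ← hsingle a ha]
      exact (hW _).1 hle _ (hB _ fun x hx => Pi.single_eq_of_ne (by rintro rfl; exact ha hx) _)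
  intro i hi hij k hk hkj
  have hi0 : 0 < pos j i := Nat.pos_of_ne_zero fun h => hij (pos_inj j (by rw [h]; simp [pos]))
  have hfro : ∀ {k : GG n t}, k ∈ GR t Rc (insert e Rr) → k ∈ KK p t j → ∀ a ∈ Rc, ∀ b,
      kap p k b a = (1 : Matrix (Fin n) (Fin n) (ZMod p)) b a := by
    intro k hk hkj a ha b
    have h3 := hk.1 a ha b
    rw [(kap_spec hg hkj).2, ← phi_one p t] at h3
    exact entry_inj hg h3
  have hvm : ∀ {k : GG n t}, k ∈ GR t Rc (insert e Rr) → k ∈ KK p t j → ∀ a ∈ Rc,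
      ∀ v : Fin n → ZMod p, (v ᵥ* kap p k) a = v a := by
    intro k hk hkj a ha v
    conv_rhs => rw [← Matrix.vecMul_one v]
    rw [gr_vm, gr_vm]
    exact sum_congr rfl fun b _ => by rw [hfro hk hkj a ha b]
  have hinv1 : kap p k * kap p k⁻¹ = 1 := by
    rw [← kap_mul hg hkj (inv_mem hkj), mul_inv_cancel, kap_one hg]
  have hinv2 : kap p k⁻¹ * kap p k = 1 := by
    rw [← kap_mul hg (inv_mem hkj) hkj, inv_mul_cancel, kap_one hg]
  have h6 := hpos i
  have h9 := hμ1 i
  constructor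
  · intro hok hle
    refine hok (c + n - pos j i) ?_ (by omega) fun q hq => ?_
    · have := i.2
      have : c + n - pos j i = (n - i.val) + n * (μ i + 1) := by rw [mul_add]; omega
      rw [this, Nat.add_mul_mod_self_left]
    refine (Subgroup.closure_le (N.comap (MulAut.conj k).toMonoidHom)).2 ?_ hq
    rintro _ ⟨a, γ, m, ha, h3, h4, rfl⟩
    show k * _ * k⁻¹ ∈ N
    by_cases h5 : 2 * n + n * m ≤ c + a.val
    · exact h1 (gr_stab hg he hcj hk hkj (gr_gen ha h3 h5 γ))
    · have h7 := hμ2 a m (by omega) (by omega)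
      have h8 := hμ1 a
      rw [h7] at h4
      have hs0 : ∀ x ∈ Rc, (Pi.single a γ : Fin n → ZMod p) x = 0 :=
        fun x hx => Pi.single_eq_of_ne (by rintro rfl; exact ha hx) _
      rw [h7, ← hsingle a ha, hconj k hk hkj _ hs0]
      refine (hW _).1 hle _ fun z hz => ?_
      obtain ⟨_, ⟨s, hs, rfl⟩, b, hb, rfl⟩ := Submodule.mem_sup.1 hz
      rw [dotProduct_add, hB _ (fun x hx => by
        rw [hvm (inv_mem hk) (inv_mem hkj) x hx, hs0 x hx]) b hb, add_zero, Matrix.toLin'_apply,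
        ← Matrix.dotProduct_mulVec, Matrix.mulVec_mulVec, hinv2, Matrix.one_mulVec,
        single_dotProduct, hs a (by show pos j i ≤ pos j a; omega), mul_zero]
  · intro hnle c' hc' hcc' hall
    apply hnle
    refine (hW _).2 fun l hl => ?_
    have hl0 : ∀ a ∈ Rc, l a = 0 := fun a ha => by
      have := hl (Pi.single a 1) (Submodule.mem_sup_right
        fun x hx => Pi.single_eq_of_ne (by rintro rfl; exact hx ha) _)
      simpa using this
    have hl1 : ∀ a ∈ Rc, (l ᵥ* kap p k) a = 0 := fun a ha => by rw [hvm hk hkj a ha, hl0 a ha]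
    have : l = (l ᵥ* kap p k) ᵥ* kap p k⁻¹ := by
      rw [Matrix.vecMul_vecMul, hinv1, Matrix.vecMul_one]
    rw [this, ← hconj k hk hkj _ hl1]
    refine hall _ (row_mem (hue _) (hι _) fun a _ h0 => ?_)
    have ha : a ∉ Rc := fun h => h0 (by simp [hu, h])
    have hpa : pos j i ≤ pos j a := by
      by_contra h
      have := hl (kap p k *ᵥ Pi.single a 1) (Submodule.mem_sup_left ⟨Pi.single a 1,
        fun x hx => Pi.single_eq_of_ne (by rintro rfl; exact h hx) _, rfl⟩)
      rw [Matrix.dotProduct_mulVec, dotProduct_single, mul_one] at this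
      exact h0 (by simp [hu, this])
    simp only [hu, if_neg ha]
    have h3 := hμ1 a
    obtain ⟨d', hd'⟩ := gr_mod hc'
    have h7 := gc_cases n (μ i + 1) d'
    simp only [mul_add, mul_one] at h7
    exact gr_gen ha (hμ3 a) (by omega) _

end Crest.Agent.R66
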