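import Crest.Agent.R66.L2GAux1

/-! Task R66-L2G: local-to-global (Evra–Kaufman / Kaufman–Mass / Dikstein–Dinur) in coset form. -/
set_option autoImplicit false
set_option linter.unusedSectionVars false
namespace Crest.Agent.R66
open Finset

section Aux
variable {I G : Type} [Fintype I] [DecidableEq I] [Group G] [Fintype G]

theorem l2g_sum_up {β : Type} [AddCommMonoid β] (R : Finset I) {m : ℕ} (hR : R.card ≤ m)
    (F : Finset I → β) :
    ∑ J ∈ Rᶜ.powersetCard (m - R.card), F (J ∪ R) = ∑ J ∈ l2gUp R m, F J := by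
  refine sum_bij' (fun J _ => J ∪ R) (fun J _ => J \ R) ?_ ?_ ?_ ?_ ?_
  · intro J hJ
    simp only [mem_powersetCard, l2gUp, mem_filter, subset_univ, true_and] at hJ ⊢
    refine ⟨?_, subset_union_right⟩
    rw [card_union_of_disjoint (disjoint_left.2 fun a ha => mem_compl.1 (hJ.1 ha))]
    omega
  · intro J hJ
    simp only [mem_powersetCard, l2gUp, mem_filter, subset_univ, true_and] at hJ ⊢
    refine ⟨fun a ha => mem_compl.2 (mem_sdiff.1 ha).2, ?_⟩
    rw [card_sdiff_of_subset hJ.2, hJ.1]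
  · intro J hJ
    simp only [mem_powersetCard] at hJ
    rw [union_sdiff_right]
    exact sdiff_eq_self_of_disjoint (disjoint_left.2 fun a ha => mem_compl.1 (hJ.1 ha))
  · intro J hJ
    simp only [l2gUp, mem_filter] at hJ
    exact sdiff_union_of_subset hJ.2
  · intro J _; rfl

open Classical in
/-- number of `k ∈ H` with `h J (g k) ≠ 0` -/
noncomputable def l2gCnt (H : Subgroup G) (h : Finset I → G → ZMod 2) (J : Finset I) (g : G) : ℕ :=
  (univ.filter fun k : G => k ∈ H ∧ h J (g * k) ≠ 0).card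

/-- indicator of the support -/
noncomputable def l2gInd (h : Finset I → G → ZMod 2) (J : Finset I) (g : G) : ℝ :=
  if h J g ≠ 0 then 1 else 0

open Classical in
theorem l2g_avg_ind (H : Subgroup G) (h : Finset I → G → ZMod 2) (J : Finset I) (g : G) :
    avg H (l2gInd h J) g = l2gCnt H h J g / (univ.filter (fun k : G => k ∈ H)).card := by
  unfold avg l2gInd l2gCnt
  congr 1
  rw [sum_boole, filter_filter]

theorem l2g_nrm_ind (h : Finset I → G → ZMod 2) (m : ℕ) :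
    (Nrm ⊤ univ m h : ℝ) = ∑ J ∈ univ.powersetCard m, ∑ g, l2gInd h J g := by
  classical
  unfold Nrm l2gInd
  push_cast
  refine sum_congr rfl fun J _ => ?_
  rw [sum_boole]
  congr 2
  ext g; simp

theorem l2g_nrm_loc (H : Subgroup G) (h : Finset I → G → ZMod 2) (R : Finset I) {m : ℕ}
    (hR : R.card ≤ m) (g : G) :
    Nrm H Rᶜ (m - R.card) (fun J k => h (J ∪ R) (g * k)) = ∑ J ∈ l2gUp R m, l2gCnt H h J g := by
  rw [← l2g_sum_up R hR]
  rfl

open Classical in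
theorem l2g_nrm_split (H : Subgroup G) (h : Finset I → G → ZMod 2) (R : Finset I) (m : ℕ)
    (g : G) : Nrm ⊤ univ m h = ∑ J ∈ l2gUp R m, l2gCnt H h J g +
      ∑ J ∈ univ.powersetCard m,
        (univ.filter fun x : G => ¬ (R ⊆ J ∧ g⁻¹ * x ∈ H) ∧ h J x ≠ 0).card := by
  unfold Nrm l2gUp
  rw [sum_filter, ← sum_add_distrib]
  refine sum_congr rfl fun J _ => ?_
  have h1 : (if R ⊆ J then l2gCnt H h J g else 0) =
      (univ.filter fun x : G => (R ⊆ J ∧ g⁻¹ * x ∈ H) ∧ h J x ≠ 0).card := by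
    split_ifs with hJ
    · unfold l2gCnt
      refine card_bij' (fun k _ => g * k) (fun x _ => g⁻¹ * x) ?_ ?_ ?_ ?_
      · intro k hk; simpa [hJ] using hk
      · intro k hk; simpa [hJ] using hk
      · intro k _; simp
      · intro k _; simp
    · simp [hJ]
  rw [h1, ← card_union_of_disjoint]
  · congr 1
    ext x
    simp only [mem_filter, mem_univ, true_and, mem_union, Subgroup.mem_top]
    tauto
  · rw [disjoint_left]
    intro x h1 h2
    simp only [mem_filter] at h1 h2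
    exact h2.2.1 h1.2.1

theorem l2g_nrm_add_le (H : Subgroup G) (T : Finset I) (m : ℕ) (u v : Finset I → G → ZMod 2) :
    Nrm H T m (u + v) ≤ Nrm H T m u + Nrm H T m v := by
  classical
  unfold Nrm
  rw [← sum_add_distrib]
  refine sum_le_sum fun J _ => le_trans (card_le_card ?_) (card_union_le _ _)
  intro g hg
  simp only [mem_filter, mem_univ, true_and, mem_union, Pi.add_apply] at hg ⊢
  by_cases h1 : u J g = 0
  · right; exact ⟨hg.1, fun h2 => hg.2 (by rw [h1, h2, add_zero])⟩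
  · left; exact ⟨hg.1, h1⟩

open Classical in
/-- extension by zero of a cochain on the link of `(R, g)` -/
noncomputable def l2gExt (K : I → Subgroup G) (R : Finset I) (g : G) (y : Finset I → G → ZMod 2) :
    Finset I → G → ZMod 2 :=
  fun J x => if R ⊆ J ∧ g⁻¹ * x ∈ KJ K R then y (J \ R) (g⁻¹ * x) else 0

theorem l2gExt_inv {K : I → Subgroup G} {R : Finset I} (g : G) {y : Finset I → G → ZMod 2}
    (hy : Inv K (KJ K R) y) : Inv K ⊤ (l2gExt K R g y) := by
  intro J x k _ hk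
  unfold l2gExt
  by_cases hJ : R ⊆ J
  · have hkR : k ∈ KJ K R := mem_KJ.2 fun j hj => hk j (hJ hj)
    have : g⁻¹ * (x * k) ∈ KJ K R ↔ g⁻¹ * x ∈ KJ K R := by
      rw [← mul_assoc]; exact (KJ K R).mul_mem_cancel_right hkR
    by_cases hx : g⁻¹ * x ∈ KJ K R
    · rw [if_pos ⟨hJ, this.2 hx⟩, if_pos ⟨hJ, hx⟩, ← mul_assoc]
      exact hy _ _ k hkR fun j hj => hk j (mem_sdiff.1 hj).1
    · rw [if_neg fun h => hx (this.1 h.2), if_neg fun h => hx h.2]
  · rw [if_neg fun h => hJ h.1, if_neg fun h => hJ h.1]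

theorem l2gExt_dl_out {K : I → Subgroup G} {R : Finset I} (g : G) (y : Finset I → G → ZMod 2)
    {J : Finset I} {x : G} (h : ¬ (R ⊆ J ∧ g⁻¹ * x ∈ KJ K R)) : dl (l2gExt K R g y) J x = 0 := by
  refine sum_eq_zero fun j _ => ?_
  unfold l2gExt
  rw [if_neg]
  exact fun h' => h ⟨h'.1.trans (erase_subset _ _), h'.2⟩

theorem l2gExt_dl_in {K : I → Subgroup G} {R : Finset I} (g : G) (y : Finset I → G → ZMod 2)
    {J : Finset I} (hJ : J ⊆ Rᶜ) {k : G} (hk : k ∈ KJ K R) :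
    dl (l2gExt K R g y) (J ∪ R) (g * k) = dl y J k := by
  have hd : Disjoint J R := disjoint_left.2 fun a ha => mem_compl.1 (hJ ha)
  unfold dl
  rw [sum_union hd]
  have h2 : ∑ j ∈ R, l2gExt K R g y ((J ∪ R).erase j) (g * k) = 0 := by
    refine sum_eq_zero fun j hj => ?_
    unfold l2gExt
    rw [if_neg]
    exact fun h' => by simpa using h'.1 hj
  rw [h2, add_zero]
  refine sum_congr rfl fun j hj => ?_
  have hjR : j ∉ R := disjoint_left.1 hd hj
  unfold l2gExt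
  rw [if_pos ⟨fun a ha => mem_erase.2 ⟨fun e => hjR (e ▸ ha), mem_union_right _ ha⟩,
    by simpa using hk⟩, inv_mul_cancel_left]
  congr 1
  ext a
  simp only [mem_sdiff, mem_erase, mem_union]
  constructor
  · rintro ⟨⟨h1, h2 | h2⟩, h3⟩
    · exact ⟨h1, h2⟩
    · exact absurd h2 h3
  · rintro ⟨h1, h2⟩; exact ⟨⟨h1, Or.inl h2⟩, disjoint_left.1 hd h2⟩

open Classical in
theorem l2gExt_nrm {K : I → Subgroup G} (R : Finset I) (g : G) (y : Finset I → G → ZMod 2)
    {n : ℕ} (hn : Fintype.card I ≤ n) (m : ℕ) :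
    Nrm ⊤ univ m (l2gExt K R g y) ≤ 2 ^ n * (univ.filter (fun k : G => k ∈ KJ K R)).card := by
  unfold Nrm
  refine (sum_le_card_nsmul _ _ (univ.filter (fun k : G => k ∈ KJ K R)).card fun J _ => ?_).trans ?_
  · refine card_le_card_of_injOn (fun x => g⁻¹ * x) ?_ fun x _ x' _ h => by simpa using h
    intro x hx
    simp only [coe_filter, mem_univ, true_and, Set.mem_setOf_eq] at hx ⊢
    by_contra hc
    apply hx.2
    unfold l2gExt
    rw [if_neg fun h' => hc h'.2]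
  · rw [smul_eq_mul]
    exact Nat.mul_le_mul_right _ ((l2g_card_pc m).trans (Nat.pow_le_pow_right (by norm_num) hn))

theorem l2g_nrm_dl_loc (H : Subgroup G) (f : Finset I → G → ZMod 2) (R : Finset I) {m : ℕ}
    (hR : R.card ≤ m) (g : G) :
    Nrm H Rᶜ (m - R.card + 1) (dl fun J k => dl f (J ∪ R) (g * k)) ≤
      ∑ j ∈ R, ∑ J ∈ l2gSide R j m, l2gCnt H (dl f) J g := by
  classical
  have h1 : Nrm H Rᶜ (m - R.card + 1) (dl fun J k => dl f (J ∪ R) (g * k)) ≤
      ∑ J ∈ Rᶜ.powersetCard (m - R.card + 1), ∑ j ∈ R, l2gCnt H (dl f) ((J ∪ R).erase j) g := by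
    unfold Nrm
    refine sum_le_sum fun J hJ => ?_
    have hd : Disjoint J R :=
      disjoint_left.2 fun a ha => mem_compl.1 ((mem_powersetCard.1 hJ).1 ha)
    refine le_trans (card_le_card ?_) (card_biUnion_le (s := R)
      (t := fun j => univ.filter fun k : G => k ∈ H ∧ dl f ((J ∪ R).erase j) (g * k) ≠ 0))
    intro k hk
    simp only [mem_filter, mem_univ, true_and, mem_biUnion] at hk ⊢
    by_contra hc
    push Not at hc
    apply hk.2
    have h0 := dl_dl f (J ∪ R) (g * k)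
    rw [dl, sum_union hd, sum_eq_zero (s := R) (fun j hj => hc j hj hk.1), add_zero] at h0
    rw [← h0, dl]
    refine sum_congr rfl fun j hj => ?_
    rw [erase_union_distrib, erase_eq_of_notMem (disjoint_left.1 hd hj)]
  refine h1.trans ?_
  rw [sum_comm]
  refine sum_le_sum fun j hj => ?_
  rw [← sum_image (f := fun J => l2gCnt H (dl f) J g) (g := fun J => (J ∪ R).erase j)]
  · refine sum_le_sum_of_subset ?_
    intro J hJ
    obtain ⟨J', hJ', rfl⟩ := mem_image.1 hJ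
    rw [mem_powersetCard] at hJ'
    have hd : Disjoint J' R := disjoint_left.2 fun a ha => mem_compl.1 (hJ'.1 ha)
    simp only [l2gSide, mem_filter, mem_powersetCard, subset_univ, true_and]
    refine ⟨?_, erase_subset_erase _ subset_union_right, notMem_erase _ _⟩
    rw [card_erase_of_mem (mem_union_right _ hj), card_union_of_disjoint hd]
    omega
  · intro J hJ J' hJ' e
    rw [mem_coe, mem_powersetCard] at hJ hJ'
    have e' : J ∪ R = J' ∪ R := by
      rw [← insert_erase (mem_union_right J hj), ← insert_erase (mem_union_right J' hj)]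
      exact congrArg _ e
    have : ∀ J : Finset I, J ⊆ Rᶜ → (J ∪ R) \ R = J := fun J h => by
      rw [union_sdiff_right]
      exact sdiff_eq_self_of_disjoint (disjoint_left.2 fun a ha => mem_compl.1 (h ha))
    rw [← this J hJ.1, ← this J' hJ'.1, e']

open Classical in
/-- local minimality and link expansion -/
theorem l2g_local {K : I → Subgroup G} {n m C C₀ : ℕ} (hn : Fintype.card I ≤ n)
    {f f' : Finset I → G → ZMod 2} (hf' : Inv K ⊤ f')
    (hmin : ∀ f'', Inv K ⊤ f'' → C * Nrm ⊤ univ (m + 1) (dl f') + Nrm ⊤ univ m (f - f') ≤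
      C * Nrm ⊤ univ (m + 1) (dl f'') + Nrm ⊤ univ m (f - f''))
    {R : Finset I} (hR : R.card ≤ m + 1) (hexp : CobExp K (KJ K R) Rᶜ (m + 1 - R.card) C₀)
    (g : G) :
    C * ∑ J ∈ l2gUp R (m + 1), l2gCnt (KJ K R) (dl f') J g ≤
      C * (C₀ * ∑ j ∈ R, ∑ J ∈ l2gSide R j (m + 1), l2gCnt (KJ K R) (dl f') J g)
        + 2 ^ n * (univ.filter (fun k : G => k ∈ KJ K R)).card := by
  have hinv : Inv K (KJ K R) (fun J k => dl f' (J ∪ R) (g * k)) := by
    intro J x k hk hJ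
    show dl f' (J ∪ R) (g * (x * k)) = _
    rw [← mul_assoc]
    refine hf'.dl _ _ k trivial fun j hj => ?_
    rcases mem_union.1 hj with h | h
    · exact hJ j h
    · exact mem_KJ.1 hk j h
  obtain ⟨y, hy, hle⟩ := hexp _ hinv
  have h1 := hmin (f' - l2gExt K R g y) (hf'.sub (l2gExt_inv g hy))
  have h2 : Nrm ⊤ univ m (f - (f' - l2gExt K R g y)) ≤
      Nrm ⊤ univ m (f - f') + 2 ^ n * (univ.filter (fun k : G => k ∈ KJ K R)).card := by
    rw [show f - (f' - l2gExt K R g y) = (f - f') + l2gExt K R g y by abel]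
    exact (l2g_nrm_add_le _ _ _ _ _).trans (Nat.add_le_add_left (l2gExt_nrm R g y hn m) _)
  rw [l2g_nrm_split (KJ K R) (dl f') R (m + 1) g,
    l2g_nrm_split (KJ K R) (dl (f' - l2gExt K R g y)) R (m + 1) g] at h1
  have h3 : ∑ J ∈ univ.powersetCard (m + 1), (univ.filter fun x : G =>
        ¬ (R ⊆ J ∧ g⁻¹ * x ∈ KJ K R) ∧ dl (f' - l2gExt K R g y) J x ≠ 0).card =
      ∑ J ∈ univ.powersetCard (m + 1), (univ.filter fun x : G =>
        ¬ (R ⊆ J ∧ g⁻¹ * x ∈ KJ K R) ∧ dl f' J x ≠ 0).card := by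
    refine sum_congr rfl fun J _ => ?_
    congr 1
    ext x
    simp only [mem_filter, mem_univ, true_and]
    refine and_congr_right fun hx => ?_
    rw [dl_sub, Pi.sub_apply, Pi.sub_apply, l2gExt_dl_out g y hx, sub_zero]
  have h4 : ∑ J ∈ l2gUp R (m + 1), l2gCnt (KJ K R) (dl (f' - l2gExt K R g y)) J g =
      Nrm (KJ K R) Rᶜ (m + 1 - R.card) ((fun J k => dl f' (J ∪ R) (g * k)) - dl y) := by
    rw [← l2g_nrm_loc _ _ _ hR]
    unfold Nrm
    refine sum_congr rfl fun J hJ => ?_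
    congr 1
    ext k
    simp only [mem_filter, mem_univ, true_and]
    refine and_congr_right fun hk => ?_
    rw [dl_sub, Pi.sub_apply, Pi.sub_apply, l2gExt_dl_in g y (mem_powersetCard.1 hJ).1 hk]
    rfl
  rw [h3, h4, mul_add, mul_add] at h1
  have h5 := Nat.mul_le_mul_left C (hle.trans
    (Nat.mul_le_mul_left C₀ (l2g_nrm_dl_loc (KJ K R) f' R hR g)))
  omega

end Aux

/-
PLAN.  WLOG `C₀ ≥ 1`.  Constants: `ρ₀ ∈ (0,1)` small, `θ j = ρ₀^(m+1-j)` (`θ (m+1) = 1`, all `≥ θmin = ρ₀^(n+1)`;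
if `m + 1 > n` everything is trivial since `Nrm ⊤ univ (m+1) = 0`... simply note `Cocyc` is vacuous and take
`f' = f`), `η = θmin / 2`.  Choose a natural number `C ≥ 2^n/η`, `C ≥ 2^n/θmin`.
(1) Among invariant `f'` (finite type) minimise `Φ f' = C * Nrm (m+1) (dl f') + Nrm m (f - f')`.  Then
`Nrm (dl f') ≤ Nrm (dl f)`, `Nrm (f - f') ≤ C Nrm (dl f)`.  Let `h = dl f'`, `ε = Nrm ⊤ univ (m+1) h / |G|`.
If `Nrm (dl f) ≥ θmin |G|` use `f' = 0` instead (`Nrm m f ≤ 2^n |G|`).  Otherwise show `ε = 0`.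
(2) local minimality: for `R ≠ ∅`, `|R| ≤ m+1`, `g`: `h_{R,g} J k = h (J ∪ R) (g k)` (invariant for `KJ K R`),
`w R g = Nrm (KJ K R) Rᶜ (m+1-|R|) h_{R,g} / |K_R| = ∑_{J ⊇ R, |J| = m+1} avg (KJ K R) 1_{A_J} g`,
`A_J = {h J · ≠ 0}`.  For invariant `y` on the link, `ŷ J g' = if R ⊆ J ∧ g⁻¹ g' ∈ K_R then y (J \ R) (g⁻¹ g') else 0`;
`dl ŷ` is `dl y` on the faces containing `(R, g)` and `0` elsewhere; `Nrm m ŷ ≤ 2^n |K_R|`; minimality gives
`Nrm (h_{R,g} - dl y) ≥ Nrm h_{R,g} - η |K_R|`.  With `hlink`: `w R g - η ≤ C₀ Nrm (dl h_{R,g}) / |K_R|`, and since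
`dl h = 0`, `dl h_{R,g} J'' k = ∑_{j ∈ R} h ((J'' ∪ R).erase j) (g k)`, so
`w R g - η ≤ C₀ ∑_{j ∈ R} ∑_{J ⊇ R.erase j, j ∉ J, |J| = m+1} avg (KJ K R) 1_{A_J} g`.
(3) `Hv R = {g | θ |R| ≤ w R g}` (`K_R`-invariant), `M R = ∑_g w R g 1_{Hv R} g`; `Hv ∅ = ∅` as `w ∅ = ε < θ 0`.
On `Hv R`, `w ≤ 2 (w - η)`.  Averaging is self-adjoint, so
`M R ≤ 2 C₀ ∑_j ∑_J ∑_g 1_{Hv R} 1_{A_J}`.  With `R' = R.erase j = R ∩ J`, split by `Hv R'`: the heavy part sums
(over `J`) to `≤ M R'`; on the light part apply `Spec` to `u = 1_{Hv R} 1_{light}`, `v = 1_{A_J} 1_{light}`: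
`avg (KJ K R') u ≤ w R' / θ|R| ≤ ρ₀` on light points (Markov: `1_{Hv R} ≤ w R / θ|R|`, `avg_{R'} (w R) ≤ w R'`),
`∑ u² ≤ ε|G|/θmin`, `∑ v² ≤ ε |G|`.  So `M R ≤ 2 C₀ ∑_{j ∈ R} (M R' + δ ε |G|)`, `δ = ρ₀ + 2^n lam/√θmin`;
by induction on `|R|`, `M R ≤ |R| (2 C₀ n)^|R| δ ε |G|` or similar; for `|R| = m+1`, `M R = |A_R|` and
`∑_R |A_R| = ε|G|`, a contradiction when `2^n (n+1) (2 C₀ n+1)^(n+1) δ < 1` unless `ε = 0`.
-/
theorem l2g (n C₀ : ℕ) : ∃ lam : ℝ, 0 < lam ∧ ∃ C : ℕ,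
    ∀ (I G : Type) [Fintype I] [DecidableEq I] [Group G] [Fintype G] (K : I → Subgroup G) (m : ℕ),
      Fintype.card I ≤ n →
      (∀ R : Finset I, R.Nonempty → R.card ≤ m + 1 → CobExp K (KJ K R) Rᶜ (m + 1 - R.card) C₀) →
      Spec K lam → ∀ f : Finset I → G → ZMod 2, Inv K ⊤ f →
        ∃ f' : Finset I → G → ZMod 2, Inv K ⊤ f' ∧ Cocyc (full ⊤ univ) m f' ∧
          Nrm ⊤ univ m (f - f') ≤ C * Nrm ⊤ univ (m + 1) (dl f) := by
  classical
  set Λ : ℝ := 2 ^ n * (n * (2 * (C₀ : ℝ) * n + 1) ^ n) with hΛ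
  have hΛ0 : 0 ≤ Λ := by positivity
  set ρ : ℝ := 1 / (4 * (Λ + 1)) with hρ
  have hρ0 : 0 < ρ := by positivity
  have hρ1 : ρ ≤ 1 := by rw [hρ, div_le_one (by positivity)]; linarith
  set θ : ℝ := ρ ^ n with hθ
  have hθ0 : 0 < θ := by positivity
  obtain ⟨C, hC⟩ := exists_nat_ge (2 * 2 ^ n / θ)
  have hC' : 2 * 2 ^ n ≤ C * θ := by rwa [div_le_iff₀ hθ0] at hC
  have hC0 : (0 : ℝ) < C := lt_of_lt_of_le (by positivity) hC
  refine ⟨ρ * θ / 2 ^ n, by positivity, C, ?_⟩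
  intro I G _ _ _ _ K m hn hlink hS f hf
  by_cases hmn : n < m + 1
  · refine ⟨f, hf, fun J g hJ _ => ?_, ?_⟩
    · have := card_le_univ J
      omega
    · simp [Nrm]
  by_cases hbig : θ * Fintype.card G ≤ Nrm ⊤ univ (m + 1) (dl f)
  · refine ⟨0, Inv.zero, fun J g _ _ => by simp [dl], ?_⟩
    have h1 : Nrm ⊤ univ m (f - 0) ≤ 2 ^ n * Fintype.card G := by
      unfold Nrm
      refine (sum_le_card_nsmul _ _ (Fintype.card G) fun J _ => card_le_univ _).trans ?_
      rw [smul_eq_mul]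
      exact Nat.mul_le_mul_right _ ((l2g_card_pc m).trans (Nat.pow_le_pow_right (by norm_num) hn))
    have h2 : (2 : ℝ) ^ n * Fintype.card G ≤ C * Nrm ⊤ univ (m + 1) (dl f) := by
      have h3 := mul_le_mul_of_nonneg_left hbig hC0.le
      have h4 := mul_le_mul_of_nonneg_right hC' (Nat.cast_nonneg (α := ℝ) (Fintype.card G))
      have h5 : (0 : ℝ) ≤ 2 ^ n * Fintype.card G := by positivity
      nlinarith
    exact h1.trans (by exact_mod_cast h2)
  obtain ⟨f', hf', hmin⟩ := exists_min_image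
    (univ.filter fun f'' : Finset I → G → ZMod 2 => Inv K ⊤ f'')
    (fun f'' => C * Nrm ⊤ univ (m + 1) (dl f'') + Nrm ⊤ univ m (f - f'')) ⟨f, by simpa using hf⟩
  have hf'' : Inv K ⊤ f' := (mem_filter.1 hf').2
  have hmin' : ∀ f'', Inv K ⊤ f'' → C * Nrm ⊤ univ (m + 1) (dl f') + Nrm ⊤ univ m (f - f') ≤
      C * Nrm ⊤ univ (m + 1) (dl f'') + Nrm ⊤ univ m (f - f'') :=
    fun f'' h => hmin f'' (by simpa using h)
  have h0 := hmin' f hf
  have hz : Nrm ⊤ univ m (f - f) = 0 := by simp [Nrm]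
  rw [hz] at h0
  refine ⟨f', hf'', ?_, by omega⟩
  have hle : Nrm ⊤ univ (m + 1) (dl f') ≤ Nrm ⊤ univ (m + 1) (dl f) :=
    Nat.le_of_mul_le_mul_left (le_trans (Nat.le_add_right _ _) h0) (by exact_mod_cast hC0)
  have hcore := l2g_core (K := K) (a := l2gInd (dl f')) (m := m + 1) (n := n)
    (lam := ρ * θ / 2 ^ n) (ρ := ρ) (θ := θ) (η := 2 ^ n / C) (C₀ := C₀) hn (by omega)
    (by positivity) hρ0 hρ1 hθ0 (by positivity) (pow_le_pow_of_le_one hρ0.le hρ1 (by omega))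
    (by rw [← mul_div_assoc, div_le_iff₀ hC0]; linarith)
    (by
      have : ρ + 2 ^ n * (ρ * θ / 2 ^ n) / θ = 2 * ρ := by field_simp; ring
      rw [this, ← hΛ, hρ, ← mul_div_assoc, ← mul_div_assoc, div_le_iff₀ (by positivity)]
      linarith)
    (fun J g => by unfold l2gInd; split_ifs <;> simp)
    (fun J g k hk => by unfold l2gInd; rw [hf''.dl J g k trivial (mem_KJ.1 hk)]) hS
    (fun R hR hRm g => by
      have h1 := l2g_local hn hf'' hmin' hRm (hlink R hR hRm) g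
      have hpos := l2g_card_pos (KJ K R)
      unfold l2gW
      simp_rw [l2g_avg_ind, ← sum_div]
      rw [div_le_iff₀ hpos, add_mul, mul_assoc, div_mul_cancel₀ _ hpos.ne']
      have h2 : (C : ℝ) * ∑ J ∈ l2gUp R (m + 1), (l2gCnt (KJ K R) (dl f') J g : ℝ) ≤
          C * (C₀ * ∑ j ∈ R, ∑ J ∈ l2gSide R j (m + 1), (l2gCnt (KJ K R) (dl f') J g : ℝ))
            + 2 ^ n * (univ.filter (fun k : G => k ∈ KJ K R)).card := by exact_mod_cast h1
      refine le_of_mul_le_mul_left (h2.trans (le_of_eq ?_)) hC0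
      field_simp
      ring)
    (by
      rw [← l2g_nrm_ind]
      exact lt_of_le_of_lt (by exact_mod_cast hle) (not_le.1 hbig))
  rw [← l2g_nrm_ind, Nat.cast_eq_zero] at hcore
  intro J g hJ _
  unfold Nrm at hcore
  have := (sum_eq_zero_iff.1 hcore) J (mem_powersetCard.2 ⟨subset_univ _, hJ⟩)
  rw [card_eq_zero, filter_eq_empty_iff] at this
  simpa using this (mem_univ g)

end Crest.Agent.R66
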