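import Crest.Agent.R66.Basic

/-! Local-to-global: averaging operators and the analytic core. -/
set_option autoImplicit false
set_option linter.unusedSectionVars false
namespace Crest.Agent.R66
open Finset

section Avg
variable {G : Type} [Group G] [Fintype G] {H H' : Subgroup G}

open Classical in
theorem l2g_card_pos (H : Subgroup G) : (0 : ℝ) < (univ.filter (fun k : G => k ∈ H)).card := by
  exact_mod_cast card_pos.2 ⟨1, by simp⟩

theorem l2g_avg_mono {u v : G → ℝ} (h : ∀ g, u g ≤ v g) (g : G) : avg H u g ≤ avg H v g := by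
  unfold avg
  exact div_le_div_of_nonneg_right (sum_le_sum fun k _ => h _) (l2g_card_pos H).le

theorem l2g_avg_nonneg {u : G → ℝ} (h : ∀ g, 0 ≤ u g) (g : G) : 0 ≤ avg H u g := by
  unfold avg
  exact div_nonneg (sum_nonneg fun k _ => h _) (l2g_card_pos H).le

theorem l2g_avg_sum {ι : Type} (s : Finset ι) (u : ι → G → ℝ) (g : G) :
    avg H (fun g => ∑ i ∈ s, u i g) g = ∑ i ∈ s, avg H (u i) g := by
  unfold avg
  rw [sum_comm, sum_div]

theorem l2g_avg_div (u : G → ℝ) (c : ℝ) (g : G) : avg H (fun g => u g / c) g = avg H u g / c := by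
  unfold avg
  rw [← sum_div, div_right_comm]

theorem l2g_avg_inv (u : G → ℝ) (g : G) {k : G} (hk : k ∈ H) : avg H u (g * k) = avg H u g := by
  classical
  unfold avg
  congr 1
  refine sum_bij' (fun x _ => k * x) (fun x _ => k⁻¹ * x) ?_ ?_ ?_ ?_ ?_
  · intro x hx; simp only [mem_filter, mem_univ, true_and] at hx ⊢; exact H.mul_mem hk hx
  · intro x hx; simp only [mem_filter, mem_univ, true_and] at hx ⊢
    exact H.mul_mem (H.inv_mem hk) hx
  · intro x _; simp
  · intro x _; simp
  · intro x _; rw [mul_assoc]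

theorem l2g_avg_self {u : G → ℝ} (hu : ∀ g k, k ∈ H → u (g * k) = u g) (g : G) :
    avg H u g = u g := by
  classical
  unfold avg
  rw [sum_congr rfl (fun k hk => hu g k (mem_filter.1 hk).2), sum_const, nsmul_eq_mul,
    mul_div_cancel_left₀ _ (l2g_card_pos H).ne']

theorem l2g_sum_avg_mul (u : G → ℝ) {v : G → ℝ} (hv : ∀ g k, k ∈ H → v (g * k) = v g) :
    ∑ g, avg H u g * v g = ∑ g, u g * v g := by
  classical
  unfold avg
  simp_rw [div_mul_eq_mul_div, sum_mul]
  rw [← sum_div, sum_comm]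
  have : ∀ k ∈ univ.filter (fun k : G => k ∈ H), ∑ g, u (g * k) * v g = ∑ g, u g * v g := by
    intro k hk
    rw [← Equiv.sum_comp (Equiv.mulRight k) (fun g => u g * v g)]
    exact sum_congr rfl fun g _ => by simp [hv g k (mem_filter.1 hk).2]
  rw [sum_congr rfl this, sum_const, nsmul_eq_mul, mul_div_cancel_left₀ _ (l2g_card_pos H).ne']

theorem l2g_sum_avg (u : G → ℝ) : ∑ g, avg H u g = ∑ g, u g := by
  simpa using l2g_sum_avg_mul (H := H) u (v := fun _ => 1) (fun _ _ _ => rfl)

theorem l2g_avg_avg (hle : H ≤ H') (u : G → ℝ) (g : G) : avg H' (avg H u) g = avg H' u g := by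
  classical
  have h1 : avg H' (avg H u) g = avg H (fun x => avg H' (fun y => u (y * (g⁻¹ * x))) g) g := by
    unfold avg
    rw [← sum_div, sum_comm, ← sum_div, div_right_comm]
    simp
  rw [h1]
  unfold avg
  have : ∀ k ∈ univ.filter (fun k : G => k ∈ H),
      (∑ x ∈ univ.filter (fun k : G => k ∈ H'), u (g * x * (g⁻¹ * (g * k))))
        = ∑ x ∈ univ.filter (fun k : G => k ∈ H'), u (g * x) := by
    intro k hk
    have hk' : k ∈ H' := hle (mem_filter.1 hk).2
    refine sum_bij' (fun x _ => x * k) (fun x _ => x * k⁻¹) ?_ ?_ ?_ ?_ ?_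
    · intro x hx; simp only [mem_filter, mem_univ, true_and] at hx ⊢; exact H'.mul_mem hx hk'
    · intro x hx; simp only [mem_filter, mem_univ, true_and] at hx ⊢
      exact H'.mul_mem hx (H'.inv_mem hk')
    · intro x _; simp
    · intro x _; simp
    · intro x _; simp [mul_assoc]
  simp only []
  rw [← sum_div, sum_congr rfl this, sum_const, nsmul_eq_mul, div_right_comm,
    mul_div_cancel_left₀ _ (l2g_card_pos H).ne']

theorem l2g_avg_top (u : G → ℝ) (g : G) : avg ⊤ u g = (∑ x, u x) / Fintype.card G := by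
  classical
  unfold avg
  simp only [Subgroup.mem_top, filter_true, card_univ]
  rw [← Equiv.sum_comp (Equiv.mulLeft g) u]
  rfl

end Avg

section Core
variable {I G : Type} [Fintype I] [DecidableEq I] [Group G] [Fintype G]

/-- the sets of cardinality `m` containing `R` -/
def l2gUp (R : Finset I) (m : ℕ) : Finset (Finset I) := (univ.powersetCard m).filter (R ⊆ ·)

/-- the sets of cardinality `m` meeting `R` in `R.erase j` -/
def l2gSide (R : Finset I) (j : I) (m : ℕ) : Finset (Finset I) :=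
  (univ.powersetCard m).filter (fun J => R.erase j ⊆ J ∧ j ∉ J)

/-- local density -/
noncomputable def l2gW (K : I → Subgroup G) (a : Finset I → G → ℝ) (m : ℕ) (R : Finset I)
    (g : G) : ℝ := ∑ J ∈ l2gUp R m, avg (KJ K R) (a J) g

theorem l2g_card_pc (m : ℕ) : ((univ : Finset I).powersetCard m).card ≤ 2 ^ Fintype.card I := by
  rw [card_powersetCard, card_univ]
  exact Nat.choose_le_two_pow _ _

theorem l2g_rec {K : I → Subgroup G} {a : Finset I → G → ℝ} {m n : ℕ} {lam ρ θ η C₀ : ℝ}
    (hn : Fintype.card I ≤ n) (hlam : 0 ≤ lam) (hρ : 0 < ρ) (hρ1 : ρ ≤ 1) (hθ : 0 < θ)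
    (hC₀ : 0 ≤ C₀) (hθm : θ ≤ ρ ^ m) (hη : 2 * η ≤ θ)
    (ha01 : ∀ J g, a J g = 0 ∨ a J g = 1)
    (hainv : ∀ J g k, k ∈ KJ K J → a J (g * k) = a J g) (hS : Spec K lam)
    {R : Finset I} (hR : R.card ≤ m)
    (hloc : ∀ g, l2gW K a m R g ≤ η + C₀ * ∑ j ∈ R, ∑ J ∈ l2gSide R j m, avg (KJ K R) (a J) g) :
    ∑ g, l2gW K a m R g * (if ρ ^ (m - R.card) ≤ l2gW K a m R g then 1 else 0) ≤
      2 * C₀ * ∑ j ∈ R, (∑ g, l2gW K a m (R.erase j) g *
        (if ρ ^ (m - (R.erase j).card) ≤ l2gW K a m (R.erase j) g then 1 else 0)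
        + (ρ + 2 ^ n * lam / θ) * ∑ J ∈ univ.powersetCard m, ∑ g, a J g) := by
  classical
  set E := ∑ J ∈ (univ : Finset I).powersetCard m, ∑ g, a J g with hE
  have ha0 : ∀ J g, 0 ≤ a J g := fun J g => by rcases ha01 J g with h | h <;> simp [h]
  have hE0 : 0 ≤ E := sum_nonneg fun J _ => sum_nonneg fun g _ => ha0 J g
  have hθ' : ∀ i, θ ≤ ρ ^ (m - i) := fun i =>
    hθm.trans (pow_le_pow_of_le_one hρ.le hρ1 (Nat.sub_le _ _))
  have hθ1 : θ ≤ 1 := hθm.trans (pow_le_one₀ hρ.le hρ1)
  have hw0 : ∀ R g, 0 ≤ l2gW K a m R g := fun R g =>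
    sum_nonneg fun J _ => l2g_avg_nonneg (ha0 J) g
  have hwinv : ∀ R g k, k ∈ KJ K R → l2gW K a m R (g * k) = l2gW K a m R g := fun R g k hk =>
    sum_congr rfl fun J _ => l2g_avg_inv _ g hk
  set hv : Finset I → G → ℝ := fun R g => if ρ ^ (m - R.card) ≤ l2gW K a m R g then 1 else 0
    with hhv
  have hvinv : ∀ R g k, k ∈ KJ K R → hv R (g * k) = hv R g := fun R g k hk => by
    simp only [hhv, hwinv R g k hk]
  have hv01 : ∀ R g, hv R g = 0 ∨ hv R g = 1 := fun R g => by
    simp only [hhv]; split_ifs <;> simp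
  have hmark : ∀ g, hv R g ≤ l2gW K a m R g / ρ ^ (m - R.card) := fun g => by
    simp only [hhv]
    split_ifs with h
    · rwa [le_div_iff₀ (pow_pos hρ _), one_mul]
    · exact div_nonneg (hw0 R g) (pow_pos hρ _).le
  have hsumw : ∑ g, l2gW K a m R g ≤ E := by
    unfold l2gW
    rw [sum_comm]
    simp_rw [l2g_sum_avg]
    exact sum_le_sum_of_subset_of_nonneg (filter_subset _ _)
      fun J _ _ => sum_nonneg fun g _ => ha0 J g
  have hsumhv : ∑ g, hv R g ≤ E / θ := by
    calc ∑ g, hv R g ≤ ∑ g, l2gW K a m R g / θ := sum_le_sum fun g _ =>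
          (hmark g).trans (div_le_div_of_nonneg_left (hw0 R g) hθ (hθ' _))
      _ = (∑ g, l2gW K a m R g) / θ := by rw [sum_div]
      _ ≤ E / θ := div_le_div_of_nonneg_right hsumw hθ.le
  -- step 1
  have h1 : ∑ g, l2gW K a m R g * hv R g ≤
      2 * C₀ * ∑ j ∈ R, ∑ J ∈ l2gSide R j m, ∑ g, a J g * hv R g := by
    have : ∀ g, l2gW K a m R g * hv R g ≤
        2 * C₀ * ∑ j ∈ R, ∑ J ∈ l2gSide R j m, avg (KJ K R) (a J) g * hv R g := by
      intro g
      simp_rw [← sum_mul]
      have h2 := hloc g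
      simp only [hhv]
      split_ifs with h
      · have := hθ' R.card
        nlinarith
      · simp
    refine (sum_le_sum fun g _ => this g).trans (le_of_eq ?_)
    rw [← mul_sum, sum_comm]
    congr 1
    refine sum_congr rfl fun j _ => ?_
    rw [sum_comm]
    exact sum_congr rfl fun J _ => l2g_sum_avg_mul _ (hvinv R)
  refine h1.trans (mul_le_mul_of_nonneg_left (sum_le_sum fun j hj => ?_) (by positivity))
  -- step 2
  have hle : KJ K R ≤ KJ K (R.erase j) := KJ_anti (erase_subset _ _)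
  have h2 : ∀ J ∈ l2gSide R j m, ∑ g, a J g * hv R g ≤
      ∑ g, avg (KJ K (R.erase j)) (a J) g * hv (R.erase j) g + ρ * ∑ g, a J g + lam * (E / θ) := by
    intro J hJ
    simp only [l2gSide, mem_filter] at hJ
    have hRJ : R ∩ J = R.erase j := by
      ext x
      simp only [mem_inter, mem_erase]
      constructor
      · rintro ⟨h1, h2⟩; exact ⟨fun h => hJ.2.2 (h ▸ h2), h1⟩
      · rintro ⟨h1, h2⟩; exact ⟨h2, hJ.2.1 (mem_erase.2 ⟨h1, h2⟩)⟩
    have hsp := hS R J (fun g => hv R g * (1 - hv (R.erase j) g))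
      (fun g => a J g * (1 - hv (R.erase j) g))
      (fun g k hk => by rw [hvinv R g k hk, hvinv _ g k (hle hk)])
      (fun g k hk => by rw [hainv J g k hk, hvinv _ g k (KJ_anti hJ.2.1 hk)])
    rw [hRJ] at hsp
    rw [l2g_sum_avg_mul _ (hvinv _)]
    have hA : ∑ g, a J g * hv R g ≤ ∑ g, a J g * hv (R.erase j) g +
        ∑ g, hv R g * (1 - hv (R.erase j) g) * (a J g * (1 - hv (R.erase j) g)) := by
      rw [← sum_add_distrib]
      refine sum_le_sum fun g _ => ?_
      rcases ha01 J g with h | h <;> rcases hv01 R g with h' | h' <;>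
        rcases hv01 (R.erase j) g with h'' | h'' <;> simp [h, h', h'']
    have hB : ∑ g, avg (KJ K (R.erase j)) (fun g => hv R g * (1 - hv (R.erase j) g)) g *
        (a J g * (1 - hv (R.erase j) g)) ≤ ρ * ∑ g, a J g := by
      rw [mul_sum]
      refine sum_le_sum fun g _ => ?_
      by_cases hh : ρ ^ (m - (R.erase j).card) ≤ l2gW K a m (R.erase j) g
      · have : hv (R.erase j) g = 1 := by simp only [hhv, if_pos hh]
        rw [this]
        simpa using mul_nonneg hρ.le (ha0 J g)
      · have h0 : hv (R.erase j) g = 0 := by simp only [hhv, if_neg hh]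
        rw [h0, sub_zero, mul_one]
        refine mul_le_mul_of_nonneg_right ?_ (ha0 J g)
        have h3 : avg (KJ K (R.erase j)) (fun g => hv R g * (1 - hv (R.erase j) g)) g ≤
            avg (KJ K (R.erase j)) (fun g => l2gW K a m R g / ρ ^ (m - R.card)) g := by
          refine l2g_avg_mono (fun x => le_trans ?_ (hmark x)) g
          rcases hv01 R x with h' | h' <;> rcases hv01 (R.erase j) x with h'' | h'' <;>
            simp [h', h'']
        refine h3.trans ?_
        rw [l2g_avg_div, div_le_iff₀ (pow_pos hρ _)]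
        have h4 : avg (KJ K (R.erase j)) (l2gW K a m R) g ≤ l2gW K a m (R.erase j) g := by
          have : avg (KJ K (R.erase j)) (l2gW K a m R) g
              = ∑ J ∈ l2gUp R m, avg (KJ K (R.erase j)) (a J) g := by
            unfold l2gW
            rw [l2g_avg_sum]
            exact sum_congr rfl fun J _ => l2g_avg_avg hle _ g
          rw [this]
          refine sum_le_sum_of_subset_of_nonneg ?_ fun J _ _ => l2g_avg_nonneg (ha0 J) g
          intro J hJ
          simp only [l2gUp, mem_filter] at hJ ⊢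
          exact ⟨hJ.1, (erase_subset _ _).trans hJ.2⟩
        have h5 : m - (R.erase j).card = (m - R.card) + 1 := by
          rw [card_erase_of_mem hj]
          have := card_pos.2 ⟨j, hj⟩
          omega
        rw [h5, pow_succ, not_le] at hh
        linarith
    have hEθ : E ≤ E / θ := le_div_self hE0 hθ hθ1
    have hC : √(∑ g, (hv R g * (1 - hv (R.erase j) g)) ^ 2) *
        √(∑ g, (a J g * (1 - hv (R.erase j) g)) ^ 2) ≤ E / θ := by
      have e1 : ∑ g, (hv R g * (1 - hv (R.erase j) g)) ^ 2 ≤ E / θ := by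
        refine le_trans (sum_le_sum fun g _ => ?_) hsumhv
        rcases hv01 R g with h' | h' <;> rcases hv01 (R.erase j) g with h'' | h'' <;>
          simp [h', h'']
      have e2 : ∑ g, (a J g * (1 - hv (R.erase j) g)) ^ 2 ≤ E / θ := by
        refine le_trans ?_ hEθ
        calc ∑ g, (a J g * (1 - hv (R.erase j) g)) ^ 2 ≤ ∑ g, a J g := by
              refine sum_le_sum fun g _ => ?_
              rcases ha01 J g with h' | h' <;> rcases hv01 (R.erase j) g with h'' | h'' <;>
                simp [h', h'']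
          _ ≤ E := single_le_sum (f := fun J => ∑ g, a J g)
              (fun J _ => sum_nonneg fun g _ => ha0 J g) hJ.1
      calc _ ≤ √(E / θ) * √(E / θ) :=
            mul_le_mul (Real.sqrt_le_sqrt e1) (Real.sqrt_le_sqrt e2) (Real.sqrt_nonneg _)
              (Real.sqrt_nonneg _)
        _ = E / θ := Real.mul_self_sqrt (hE0.trans hEθ)
    have := mul_le_mul_of_nonneg_left hC hlam
    linarith
  refine (sum_le_sum h2).trans ?_
  rw [sum_add_distrib, sum_add_distrib]
  have hside : l2gSide R j m ⊆ l2gUp (R.erase j) m := by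
    intro J hJ
    simp only [l2gUp, l2gSide, mem_filter] at hJ ⊢
    exact ⟨hJ.1, hJ.2.1⟩
  have e1 : ∑ J ∈ l2gSide R j m, ∑ g, avg (KJ K (R.erase j)) (a J) g * hv (R.erase j) g ≤
      ∑ g, l2gW K a m (R.erase j) g * hv (R.erase j) g := by
    unfold l2gW
    simp_rw [sum_mul]
    rw [sum_comm (s := univ)]
    refine sum_le_sum_of_subset_of_nonneg hside fun J _ _ => sum_nonneg fun g _ =>
      mul_nonneg (l2g_avg_nonneg (ha0 J) g) ?_
    rcases hv01 (R.erase j) g with h | h <;> simp [h]
  have e2 : ∑ J ∈ l2gSide R j m, ρ * ∑ g, a J g ≤ ρ * E := by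
    rw [← mul_sum]
    exact mul_le_mul_of_nonneg_left (sum_le_sum_of_subset_of_nonneg (filter_subset _ _)
      fun J _ _ => sum_nonneg fun g _ => ha0 J g) hρ.le
  have e3 : ∑ J ∈ l2gSide R j m, lam * (E / θ) ≤ 2 ^ n * lam / θ * E := by
    rw [sum_const, nsmul_eq_mul]
    have : ((l2gSide R j m).card : ℝ) ≤ 2 ^ n := by
      have := (card_le_card (filter_subset (fun J => R.erase j ⊆ J ∧ j ∉ J) _)).trans
        ((l2g_card_pc (I := I) m).trans (Nat.pow_le_pow_right (by norm_num) hn))
      exact_mod_cast this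
    calc _ ≤ 2 ^ n * (lam * (E / θ)) := mul_le_mul_of_nonneg_right this (by positivity)
      _ = _ := by ring
  simp only [hhv] at e1
  linarith

theorem l2g_core {K : I → Subgroup G} {a : Finset I → G → ℝ} {m n : ℕ} {lam ρ θ η C₀ : ℝ}
    (hn : Fintype.card I ≤ n) (hmn : m ≤ n) (hlam : 0 ≤ lam) (hρ : 0 < ρ) (hρ1 : ρ ≤ 1)
    (hθ : 0 < θ) (hC₀ : 0 ≤ C₀) (hθm : θ ≤ ρ ^ m) (hη : 2 * η ≤ θ)
    (hδ : 2 ^ n * (n * (2 * C₀ * n + 1) ^ n) * (ρ + 2 ^ n * lam / θ) ≤ 1 / 2)
    (ha01 : ∀ J g, a J g = 0 ∨ a J g = 1)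
    (hainv : ∀ J g k, k ∈ KJ K J → a J (g * k) = a J g) (hS : Spec K lam)
    (hloc : ∀ R : Finset I, R.Nonempty → R.card ≤ m → ∀ g,
      l2gW K a m R g ≤ η + C₀ * ∑ j ∈ R, ∑ J ∈ l2gSide R j m, avg (KJ K R) (a J) g)
    (hsmall : ∑ J ∈ univ.powersetCard m, ∑ g, a J g < θ * Fintype.card G) :
    ∑ J ∈ univ.powersetCard m, ∑ g, a J g = 0 := by
  classical
  set E := ∑ J ∈ (univ : Finset I).powersetCard m, ∑ g, a J g with hE
  have ha0 : ∀ J g, 0 ≤ a J g := fun J g => by rcases ha01 J g with h | h <;> simp [h]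
  have hE0 : 0 ≤ E := sum_nonneg fun J _ => sum_nonneg fun g _ => ha0 J g
  set δ := ρ + 2 ^ n * lam / θ with hδdef
  have hδ0 : 0 ≤ δ := by positivity
  set B := 2 * C₀ * n + 1 with hB
  have hB1 : 1 ≤ B := by rw [hB]; have : 0 ≤ 2 * C₀ * n := by positivity
                         linarith
  have key : ∀ i, i ≤ m → ∀ R : Finset I, R.card = i →
      ∑ g, l2gW K a m R g * (if ρ ^ (m - R.card) ≤ l2gW K a m R g then 1 else 0)
        ≤ i * B ^ i * (δ * E) := by
    intro i
    induction i with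
    | zero =>
      intro _ R hR
      obtain rfl := card_eq_zero.1 hR
      have : ∀ g, ¬ ρ ^ (m - (∅ : Finset I).card) ≤ l2gW K a m ∅ g := by
        intro g
        have hw : l2gW K a m ∅ g = E / Fintype.card G := by
          unfold l2gW l2gUp
          simp only [empty_subset, filter_true, KJ_empty, l2g_avg_top]
          rw [← sum_div]
        have hG : (0 : ℝ) < Fintype.card G := by exact_mod_cast Fintype.card_pos
        rw [hw, not_le, div_lt_iff₀ hG, card_empty, Nat.sub_zero]
        exact hsmall.trans_le (mul_le_mul_of_nonneg_right hθm hG.le)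
      simp only [if_neg (this _)]
      simp
    | succ i ih =>
      intro hi R hR
      refine (l2g_rec hn hlam hρ hρ1 hθ hC₀ hθm hη ha01 hainv hS (by omega)
        (hloc R (card_pos.1 (by omega)) (by omega))).trans ?_
      have h1 : ∑ j ∈ R, (∑ g, l2gW K a m (R.erase j) g *
          (if ρ ^ (m - (R.erase j).card) ≤ l2gW K a m (R.erase j) g then 1 else 0) + δ * E)
          ≤ ∑ _j ∈ R, (i * B ^ i + 1) * (δ * E) := by
        refine sum_le_sum fun j hj => ?_
        have := ih (by omega) (R.erase j) (by rw [card_erase_of_mem hj]; omega)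
        linarith
      refine (mul_le_mul_of_nonneg_left h1 (by positivity)).trans ?_
      rw [sum_const, nsmul_eq_mul]
      have hRn : (R.card : ℝ) ≤ n := by exact_mod_cast (card_le_univ R).trans hn
      have hBi : 1 ≤ B ^ i := one_le_pow₀ hB1
      have hδE : 0 ≤ δ * E := mul_nonneg hδ0 hE0
      have h2 : 2 * C₀ * R.card ≤ B := by
        have := mul_le_mul_of_nonneg_left hRn (show 0 ≤ 2 * C₀ by positivity)
        linarith
      have h3 : (i : ℝ) * B ^ i + 1 ≤ (i + 1) * B ^ i := by linarith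
      calc 2 * C₀ * (R.card * ((i * B ^ i + 1) * (δ * E)))
          = (2 * C₀ * R.card) * ((i * B ^ i + 1) * (δ * E)) := by ring
        _ ≤ B * (((i + 1) * B ^ i) * (δ * E)) :=
            mul_le_mul h2 (mul_le_mul_of_nonneg_right h3 hδE) (by positivity) (by positivity)
        _ = _ := by push_cast; ring
  have htop : ∀ R ∈ (univ : Finset I).powersetCard m, ∑ g, a R g ≤ n * B ^ n * (δ * E) := by
    intro R hR
    have hRc : R.card = m := (mem_powersetCard.1 hR).2
    have hup : l2gUp R m = {R} := by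
      ext J
      simp only [l2gUp, mem_filter, mem_powersetCard, subset_univ, true_and, mem_singleton]
      constructor
      · rintro ⟨h1, h2⟩; exact (eq_of_subset_of_card_le h2 (by omega)).symm
      · rintro rfl; exact ⟨hRc, subset_rfl⟩
    have hw : ∀ g, l2gW K a m R g = a R g := fun g => by
      unfold l2gW
      rw [hup, sum_singleton, l2g_avg_self (hainv R)]
    have := key m le_rfl R hRc
    simp only [hw, hRc, Nat.sub_self, pow_zero] at this
    have e : ∑ g, a R g = ∑ g, a R g * (if 1 ≤ a R g then 1 else 0) :=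
      sum_congr rfl fun g _ => by rcases ha01 R g with h | h <;> simp [h]
    rw [e]
    refine this.trans (mul_le_mul_of_nonneg_right ?_ (mul_nonneg hδ0 hE0))
    exact mul_le_mul (by exact_mod_cast hmn) (pow_le_pow_right₀ hB1 hmn) (by positivity)
      (by positivity)
  have hfin : E ≤ 2 ^ n * (n * B ^ n * (δ * E)) := by
    refine (sum_le_sum htop).trans ?_
    rw [sum_const, nsmul_eq_mul]
    refine mul_le_mul_of_nonneg_right ?_ (by positivity)
    have := (l2g_card_pc (I := I) m).trans (Nat.pow_le_pow_right (by norm_num) hn)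
    exact_mod_cast this
  have : 2 ^ n * (n * B ^ n * (δ * E)) ≤ 1 / 2 * E := by
    calc _ = (2 ^ n * (n * B ^ n) * δ) * E := by ring
      _ ≤ _ := mul_le_mul_of_nonneg_right hδ hE0
  linarith

end Core

end Crest.Agent.R66
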