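import Crest.Agent.R66.Basic

/-! Task R66-Transfer: cone functions on posets give cone functions on coset complexes; cone
functions give exactness and coboundary expansion. -/
set_option autoImplicit false
set_option linter.unusedSectionVars false
namespace Crest.Agent.R66
open Finset

variable {I G : Type} [DecidableEq I] [Group G]

/-
PLAN.  `s J g = J.image (ver · g)`; for allowed `(J,g)` it has card `J.card` and
`s (J.erase j) g = (s J g).erase (ver j g)` (h2).  If `(J,g)`, `(J',g')` are allowed and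
`s J g = s J' g'` then `J = J'` and `g⁻¹ g' ∈ H ⊓ K_J` (h2, h1), so `f J g = f J' g'` for invariant `f`.
Choose a section `sec σ : Finset I × G` (h4; junk otherwise), `c J g := if alw J g then
(cP (s J g)).map sec else 0` (invariant by `alw_mul` and h1).  For invariant `f` put
`φ σ := f (sec σ).1 (sec σ).2`; then `φ (s J g) = f J g` and `dW φ (s J g) = dl f J g` for allowed
`(J, g)`; faces of allowed simplices are allowed (`alw_subset`).
-/
theorem bcone_of_pcone {W : Type} [DecidableEq W] {K : I → Subgroup G} {H : Subgroup G}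
    {T : Finset I} {ok : I → G → Prop} (hok : OkInv K H T ok)
    {lt : W → W → Prop} {val : W → Prop} {ρ : Finset W} (ver : I → G → W)
    (h1 : ∀ i ∈ T, ∀ g ∈ H, ∀ g' ∈ H, ver i g = ver i g' ↔ g⁻¹ * g' ∈ K i)
    (h2 : ∀ i ∈ T, ∀ i' ∈ T, ∀ g ∈ H, ∀ g' ∈ H, ver i g = ver i' g' → i = i')
    (h3 : ∀ J g, alw H T ok J g → Simp lt val ρ (J.image fun i => ver i g))
    (h4 : ∀ σ, Simp lt val ρ σ → ∃ J g, alw H T ok J g ∧ σ = J.image fun i => ver i g)
    {Mx κ : ℕ} (hc : PCone lt val ρ Mx κ) : BCone K H (alw H T ok) Mx κ := by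
  classical
  obtain ⟨cP, hcP⟩ := hc
  have key : ∀ J g J' g', alw H T ok J g → alw H T ok J' g' →
      (J.image fun i => ver i g) = (J'.image fun i => ver i g') →
      J ⊆ J' ∧ ∀ j ∈ J, g⁻¹ * g' ∈ K j := by
    intro J g J' g' ha ha' e
    have : ∀ j ∈ J, j ∈ J' ∧ g⁻¹ * g' ∈ K j := by
      intro j hj
      have hm : ver j g ∈ J'.image fun i => ver i g' := e ▸ mem_image_of_mem _ hj
      obtain ⟨j', hj', e'⟩ := mem_image.1 hm
      obtain rfl : j = j' := h2 j (ha.1 hj) j' (ha'.1 hj') g ha.2.1 g' ha'.2.1 e'.symm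
      exact ⟨hj', (h1 j (ha.1 hj) g ha.2.1 g' ha'.2.1).1 e'.symm⟩
    exact ⟨fun j hj => (this j hj).1, fun j hj => (this j hj).2⟩
  have inj : ∀ J g, alw H T ok J g → Set.InjOn (fun i => ver i g) J := fun J g ha i hi j hj e =>
    h2 i (ha.1 hi) j (ha.1 hj) g ha.2.1 g ha.2.1 e
  have hers : ∀ J g, alw H T ok J g → ∀ j ∈ J,
      ((J.erase j).image fun i => ver i g) = (J.image fun i => ver i g).erase (ver j g) := by
    intro J g ha j hj
    ext w
    simp only [mem_image, mem_erase]
    constructor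
    · rintro ⟨i, ⟨hij, hi⟩, rfl⟩
      exact ⟨fun e => hij (inj J g ha hi hj e), i, hi, rfl⟩
    · rintro ⟨hw, i, hi, rfl⟩
      exact ⟨i, ⟨fun e => hw (by rw [e]), hi⟩, rfl⟩
  have hsec : ∀ σ : Finset W, ∃ x : Finset I × G, Simp lt val ρ σ →
      alw H T ok x.1 x.2 ∧ σ = x.1.image fun i => ver i x.2 := by
    intro σ
    by_cases hσ : Simp lt val ρ σ
    · obtain ⟨J, g, ha, e⟩ := h4 σ hσ
      exact ⟨(J, g), fun _ => ⟨ha, e⟩⟩
    · exact ⟨(∅, 1), fun h => absurd h hσ⟩
  choose sec hsec using hsec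
  refine ⟨fun J g => if alw H T ok J g then (cP (J.image fun i => ver i g)).map sec else 0, ?_, ?_⟩
  · intro J g k hk hJ
    by_cases ha : alw H T ok J g
    · have ha' := (alw_mul hok hk hJ).2 ha
      have e : (J.image fun i => ver i (g * k)) = J.image fun i => ver i g :=
        image_congr fun j hj => ((h1 j (ha.1 hj) g ha.2.1 (g * k) ha'.2.1).2
          (by simpa using hJ j hj)).symm
      simp only [if_pos ha, if_pos ha', e]
    · have ha' : ¬ alw H T ok J (g * k) := fun h => ha ((alw_mul hok hk hJ).1 h)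
      simp only [if_neg ha, if_neg ha']
  · intro J g hJ ha
    have hcard : (J.image fun i => ver i g).card = J.card := card_image_of_injOn (inj J g ha)
    obtain ⟨c1, c2, c3⟩ := hcP _ (h3 J g ha) (by rw [hcard]; exact hJ)
    refine ⟨by simpa only [if_pos ha, Multiset.card_map] using c1, ?_, ?_⟩
    · intro x hx
      simp only [if_pos ha] at hx
      obtain ⟨τ, hτ, rfl⟩ := Multiset.mem_map.1 hx
      obtain ⟨a1, a2⟩ := hsec τ (c2 τ hτ).1
      refine ⟨a1, ?_⟩
      rw [← card_image_of_injOn (inj _ _ a1), ← a2, (c2 τ hτ).2, hcard]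
    · intro M _ _ f hf
      have hφ : ∀ J g, alw H T ok J g → f (sec (J.image fun i => ver i g)).1
          (sec (J.image fun i => ver i g)).2 = f J g := by
        intro J g ha
        obtain ⟨a1, a2⟩ := hsec _ (h3 J g ha)
        obtain ⟨k1, k2⟩ := key _ _ _ _ ha a1 a2
        obtain ⟨k3, -⟩ := key _ _ _ _ a1 ha a2.symm
        have e : (sec (J.image fun i => ver i g)).1 = J := Subset.antisymm k3 k1
        have := hf J g _ (H.mul_mem (H.inv_mem ha.2.1) a1.2.1) k2
        rw [mul_inv_cancel_left] at this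
        rw [e, this]
      have hd : ∀ J g, alw H T ok J g →
          dW (fun σ => f (sec σ).1 (sec σ).2) (J.image fun i => ver i g) = dl f J g := by
        intro J g ha
        unfold dW dl
        rw [sum_image (inj J g ha)]
        refine sum_congr rfl fun j hj => ?_
        rw [← hers J g ha j hj]
        exact hφ _ _ (alw_subset ha (erase_subset _ _))
      have := c3 M (fun σ => f (sec σ).1 (sec σ).2)
      rw [hφ J g ha] at this
      rw [this, sum_image (inj J g ha)]
      simp only [if_pos ha, Multiset.map_map, Function.comp_def]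
      congr 1
      · congr 1
        refine Multiset.map_congr rfl fun τ hτ => ?_
        obtain ⟨a1, a2⟩ := hsec τ (c2 τ hτ).1
        rw [← hd _ _ a1, ← a2]
      · refine sum_congr rfl fun j hj => ?_
        rw [if_pos (alw_subset ha (erase_subset j J)), hers J g ha j hj, Multiset.map_map]
        rfl

/- PLAN: `y J g := ((c J g).map fun x => f x.1 x.2).sum`. -/
theorem ex_of_bcone {M : Type} [AddCommGroup M] [Module (ZMod 2) M] {K : I → Subgroup G}
    {H : Subgroup G} {A : Finset I → G → Prop} {Mx κ m : ℕ} (hc : BCone K H A Mx κ) (hm : m < Mx) :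
    Ex M K H A m := by
  obtain ⟨c, hci, hc⟩ := hc
  intro f hf hcoc
  refine ⟨fun J g => ((c J g).map fun x => f x.1 x.2).sum, fun J g k hk hJ => ?_, ?_⟩
  · simp only [hci J g k hk hJ]
  · intro J g hJ ha
    obtain ⟨-, c2, c3⟩ := hc J g (by omega) ha
    rw [c3 M f hf]
    have : ((c J g).map fun x => dl f x.1 x.2).sum = 0 :=
      Multiset.sum_eq_zero fun y hy => by
        obtain ⟨x, hx, rfl⟩ := Multiset.mem_map.1 hy
        exact hcoc _ _ (by rw [(c2 x hx).2, hJ]) (c2 x hx).1
    rw [this, zero_add]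
    rfl

/-
PLAN (averaging over translates of the cone).  For `ℓ ∈ H` put
`y_ℓ J g := ((c J (ℓ⁻¹ * g)).map fun x => f x.1 (ℓ * x.2)).sum` (invariant).  The cone identity for
`fun J g => f J (ℓ * g)` (`Inv.transl`) at `(J, ℓ⁻¹ g)` gives
`(f - dl y_ℓ) J g = ((c J (ℓ⁻¹ g)).map fun x => dl f x.1 (ℓ * x.2)).sum`, so it is nonzero only if some
term is.  Hence `∑_{ℓ ∈ H} Nrm (f - dl y_ℓ) ≤ ∑_J ∑_{x ∈ H} ∑_{(J', g') ∈ c J x} #{ℓ ∈ H | dl f J' (ℓ g') ≠ 0}`
(substitute `g = ℓ x`) and `#{ℓ ∈ H | dl f J' (ℓ g') ≠ 0} = #{g ∈ H | dl f J' g ≠ 0} ≤ Nrm H T (m+1) (dl f)`.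
So the sum is `≤ 2^|T| · |H| · κ · Nrm (dl f)`; pick a good `ℓ` (`Finset.exists_le_of_sum_le`).
-/
theorem cobExp_of_bcone [Fintype G] {K : I → Subgroup G} {H : Subgroup G} {T : Finset I}
    {Mx κ m : ℕ} (hc : BCone K H (full H T) Mx κ) (hm : m < Mx) :
    CobExp K H T m (2 ^ T.card * κ) := by
  classical
  obtain ⟨c, hci, hc⟩ := hc
  intro f hf
  set HH : Finset G := univ.filter fun g => g ∈ H with hHH
  set y : G → Finset I → G → ZMod 2 :=
    fun l J g => ((c J (l⁻¹ * g)).map fun x => f x.1 (l * x.2)).sum with hy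
  have hyi : ∀ l, Inv K H (y l) := by
    intro l J g k hk hJ
    simp only [hy, ← mul_assoc, hci J _ k hk hJ]
  set N := Nrm H T (m + 1) (dl f) with hN
  have hcnt : ∀ (J' : Finset I) (g' : G), J' ⊆ T → J'.card = m + 1 → g' ∈ H →
      (HH.filter fun l => dl f J' (l * g') ≠ 0).card ≤ N := by
    intro J' g' h1 h2 h3
    refine le_trans ?_ (single_le_sum (f := fun J => (univ.filter fun g : G =>
      g ∈ H ∧ dl f J g ≠ 0).card) (fun _ _ => Nat.zero_le _) (mem_powersetCard.2 ⟨h1, h2⟩))
    refine card_le_card_of_injOn (fun l => l * g') ?_ (fun a _ b _ e => mul_right_cancel e)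
    intro l hl
    simp only [hHH, coe_filter, mem_filter, mem_univ, true_and, Set.mem_setOf_eq] at hl ⊢
    exact ⟨H.mul_mem hl.1 h3, hl.2⟩
  have hid : ∀ l ∈ H, ∀ J ∈ T.powersetCard m, ∀ x ∈ H,
      (f - dl (y l)) J (l * x) = ((c J x).map fun z => dl f z.1 (l * z.2)).sum := by
    intro l hl J hJ x hx
    obtain ⟨hJ1, hJ2⟩ := mem_powersetCard.1 hJ
    have := (hc J x (by omega) ⟨hJ1, hx, fun _ _ => trivial⟩).2.2 (ZMod 2) _ (hf.transl l)
    simp only [Pi.sub_apply]
    rw [this, sub_eq_iff_eq_add]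
    simp only [hy, dl, inv_mul_cancel_left]
  have hone : ∀ J ∈ T.powersetCard m, ∀ x ∈ H,
      (HH.filter fun l => (f - dl (y l)) J (l * x) ≠ 0).card ≤ κ * N := by
    intro J hJ x hx
    obtain ⟨hJ1, hJ2⟩ := mem_powersetCard.1 hJ
    obtain ⟨c1, c2, -⟩ := hc J x (by omega) ⟨hJ1, hx, fun _ _ => trivial⟩
    calc _ ≤ ((c J x).toFinset.biUnion fun z => HH.filter fun l => dl f z.1 (l * z.2) ≠ 0).card := by
          refine card_le_card fun l hl => ?_
          obtain ⟨hl1, hl2⟩ := mem_filter.1 hl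
          rw [hid l (mem_filter.1 hl1).2 J hJ x hx] at hl2
          by_contra hne
          refine hl2 (Multiset.sum_eq_zero fun w hw => ?_)
          obtain ⟨z, hz, rfl⟩ := Multiset.mem_map.1 hw
          by_contra hz'
          exact hne (mem_biUnion.2 ⟨z, Multiset.mem_toFinset.2 hz, mem_filter.2 ⟨hl1, hz'⟩⟩)
      _ ≤ (c J x).toFinset.card * N := by
          refine card_biUnion_le_card_mul _ _ _ fun z hz => ?_
          obtain ⟨a1, a2⟩ := c2 z (Multiset.mem_toFinset.1 hz)
          exact hcnt _ _ a1.1 (by omega) a1.2.1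
      _ ≤ κ * N := Nat.mul_le_mul_right _ ((Multiset.toFinset_card_le _).trans c1)
  have hsum : ∑ l ∈ HH, Nrm H T m (f - dl (y l)) ≤ ∑ l ∈ HH, 2 ^ T.card * κ * N := by
    have e1 : ∀ l ∈ HH, Nrm H T m (f - dl (y l)) =
        ∑ J ∈ T.powersetCard m, ∑ x ∈ HH, if (f - dl (y l)) J (l * x) ≠ 0 then 1 else 0 := by
      intro l hl
      have hl' : l ∈ H := (mem_filter.1 hl).2
      refine sum_congr rfl fun J _ => ?_
      rw [← card_filter]
      symm
      refine card_bij (fun x _ => l * x) ?_ (fun a _ b _ e => mul_left_cancel e) ?_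
      · intro x hx
        simp only [hHH, mem_filter, mem_univ, true_and] at hx ⊢
        exact ⟨H.mul_mem hl' hx.1, hx.2⟩
      · intro g hg
        simp only [hHH, mem_filter, mem_univ, true_and] at hg ⊢
        exact ⟨l⁻¹ * g, ⟨H.mul_mem (H.inv_mem hl') hg.1, by simpa using hg.2⟩, by simp⟩
    rw [sum_congr rfl e1, sum_comm]
    calc _ ≤ ∑ J ∈ T.powersetCard m, ∑ x ∈ HH, κ * N := by
          refine sum_le_sum fun J hJ => ?_
          rw [sum_comm]
          refine sum_le_sum fun x hx => ?_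
          rw [← card_filter]
          exact hone J hJ x (mem_filter.1 hx).2
      _ = (T.powersetCard m).card * (HH.card * (κ * N)) := by simp
      _ ≤ 2 ^ T.card * (HH.card * (κ * N)) := by
          refine Nat.mul_le_mul_right _ ?_
          rw [card_powersetCard]
          exact Nat.choose_le_two_pow _ _
      _ = _ := by simp only [sum_const, smul_eq_mul]; ring
  obtain ⟨l, -, hl⟩ := exists_le_of_sum_le ⟨1, by simp [hHH]⟩ hsum
  exact ⟨y l, hyi l, hl⟩

/- PLAN: embed `ZMod 2 → FF` (`algebraMap`, additive, injective), get a primitive `y`, and apply a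
`ZMod 2`-linear retraction `FF → ZMod 2` (`LinearMap.exists_leftInverse_of_injective`). -/
theorem ex_descend {K : I → Subgroup G} {H : Subgroup G} {A : Finset I → G → Prop} {m : ℕ}
    (h : Ex FF K H A m) : Ex (ZMod 2) K H A m := by
  intro f hf hc
  obtain ⟨r, hr⟩ := LinearMap.exists_leftInverse_of_injective (Algebra.linearMap (ZMod 2) FF)
    (LinearMap.ker_eq_bot.2 (algebraMap (ZMod 2) FF).injective)
  have hr' : ∀ a : ZMod 2, r (algebraMap (ZMod 2) FF a) = a := fun a => LinearMap.congr_fun hr a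
  obtain ⟨y, hy, e⟩ := h (fun J g => algebraMap (ZMod 2) FF (f J g))
    (fun J g k hk hJ => by simp only [hf J g k hk hJ])
    (fun J g hJ ha => by
      have := hc J g hJ ha
      simp only [dl] at this ⊢
      rw [← map_sum, this, map_zero])
  refine ⟨fun J g => r (y J g), fun J g k hk hJ => by simp only [hy J g k hk hJ], ?_⟩
  intro J g hJ ha
  have := congrArg r (e J g hJ ha)
  rw [hr'] at this
  rw [this]
  simp only [dl, map_sum]

end Crest.Agent.R66
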