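import Crest.Agent.R66.GrpBasic
import Crest.Agent.R66.Geom
import Crest.Agent.R66.Transfer

/-! Task R66-LinkGeo: links of the coset complexes are subspace posets. -/
set_option autoImplicit false
set_option linter.unusedSectionVars false
namespace Crest.Agent.R66
open Finset Matrix

variable {p : ℕ} [Fact p.Prime] {A : Type} [CommRing A] [Algebra (ZMod p) A] [Finite A]
  {n : ℕ} [NeZero n] {t : A}

/- PLAN: enumerate the live coordinates `Rcᶜ` by increasing `pos j` (`Finset.orderEmbOfFin` on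
`Rcᶜ.image (pos j)`, or on `Rcᶜ.map (Equiv.subRight j)`; `π l = n` for `l ≥ ν`); `j` is live with
`pos j j = 0`. -/
theorem exists_lay {j : Fin n} {Rc Rr : Finset (Fin n)} (hj : j ∉ Rc) (hR : Rr ⊆ Rc) :
    ∃ (π : ℕ → ℕ) (lv : ℕ → Fin n) (idx : Fin n → ℕ), Lay (pos j) Rcᶜ.card π lv Rc Rr ∧
      (∀ i, i ∉ Rc → idx i < Rcᶜ.card ∧ lv (idx i) = i) ∧ (∀ l, l < Rcᶜ.card → idx (lv l) = l) := by
  classical
  have hS : (Rcᶜ.image (pos j)).card = Rcᶜ.card :=
    card_image_of_injective _ fun a b h => pos_inj j h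
  set e := (Rcᶜ.image (pos j)).orderEmbOfFin hS with he
  have h1 : ∀ l : Fin Rcᶜ.card, ∃ a, a ∉ Rc ∧ pos j a = e l := fun l => by
    obtain ⟨a, ha, h⟩ := mem_image.1 (orderEmbOfFin_mem _ hS l)
    exact ⟨a, mem_compl.1 ha, h⟩
  have h2 : ∀ a, a ∉ Rc → ∃ l : Fin Rcᶜ.card, e l = pos j a := fun a ha => by
    have : pos j a ∈ Set.range e := by
      rw [he, range_orderEmbOfFin]
      exact mem_coe.2 (mem_image_of_mem _ (mem_compl.2 ha))
    exact this
  choose lv0 hlv1 hlv2 using h1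
  choose idx0 hidx using h2
  have hlt : ∀ a, pos j a < n := fun a => (a - j).2
  have hν : 0 < Rcᶜ.card := card_pos.2 ⟨j, mem_compl.2 hj⟩
  refine ⟨fun l => if h : l < Rcᶜ.card then e ⟨l, h⟩ else n,
    fun l => if h : l < Rcᶜ.card then lv0 ⟨l, h⟩ else j,
    fun a => if h : a ∉ Rc then (idx0 a h).val else 0, ⟨?_, ?_, ?_, ?_, ?_, ?_, hR⟩, ?_, ?_⟩
  · rw [dif_pos hν]
    have h0 : e (idx0 j hj) = 0 := by rw [hidx]; simp [pos]
    have : e ⟨0, hν⟩ ≤ e (idx0 j hj) := e.monotone (Nat.zero_le _)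
    omega
  · intro l hl
    simp only [dif_pos hl]
    split_ifs with h
    · exact e.strictMono (by simp [Fin.lt_def])
    · rw [← hlv2]; exact hlt _
  · intro a; simp [hlt a]
  · intro l hl; simp only [dif_pos hl, hlv2]
  · intro l hl; simp only [dif_pos hl]; exact hlv1 _
  · intro a l hl h3 h4
    by_cases ha : a ∈ Rc
    · exact Or.inr ha
    left
    simp only [dif_pos hl] at h3 ⊢
    rw [← hidx a ha] at h3 h4
    have h5 : l ≤ (idx0 a ha).val := e.le_iff_le.1 h3
    have h6 : (idx0 a ha).val < l + 1 := by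
      by_cases h : l + 1 < Rcᶜ.card
      · simp only [dif_pos h] at h4; exact e.lt_iff_lt.1 h4
      · have := (idx0 a ha).2; omega
    have h7 : idx0 a ha = ⟨l, hl⟩ := Fin.ext (by simp; omega)
    apply pos_inj j
    rw [hlv2, ← h7, hidx]
  · intro i hi
    simp only [dif_pos hi, dif_pos (idx0 i hi).2]
    refine ⟨(idx0 i hi).2, pos_inj j ?_⟩
    rw [hlv2, Fin.eta, hidx]
  · intro l hl
    simp only [dif_pos hl, dif_pos (hlv1 ⟨l, hl⟩)]
    have : idx0 _ (hlv1 ⟨l, hl⟩) = ⟨l, hl⟩ := e.injective (by rw [hidx, hlv2])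
    rw [this]

theorem lg_lay_lt {ι : Type} {ps : ι → ℕ} {ν : ℕ} {π : ℕ → ℕ} {lv : ℕ → ι} {Rc Rr : Finset ι}
    (hL : Lay ps ν π lv Rc Rr) {l l' : ℕ} (h : l < l') (h' : l' ≤ ν) : π l < π l' := by
  induction l' with
  | zero => omega
  | succ k ih =>
    have := hL.mono k (by omega)
    rcases Nat.lt_succ_iff_lt_or_eq.1 h with h1 | rfl
    · exact (ih h1 (by omega)).trans this
    · exact this

section Lin
variable {F : Type} [Field F] {j : Fin n}

theorem lg_mv (κ : Matrix (Fin n) (Fin n) F) (v : Fin n → F) (a : Fin n) :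
    (κ *ᵥ v) a = ∑ b, κ a b * v b := rfl

theorem lg_compl (c : ℕ) :
    IsCompl (Zc F (fun a => c ≤ pos j a)) (Zc F (fun a => pos j a < c)) := by
  refine ⟨Submodule.disjoint_def.2 fun v h1 h2 => ?_, codisjoint_iff.2 ?_⟩
  · funext a
    rcases le_or_gt c (pos j a) with h | h
    · exact h1 a h
    · exact h2 a h
  · rw [eq_top_iff]
    intro v _
    refine Submodule.mem_sup.2 ⟨fun a => if pos j a < c then v a else 0, fun a ha => ?_,
      fun a => if pos j a < c then 0 else v a, fun a ha => ?_, ?_⟩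
    · simp [not_lt.2 ha]
    · simp [ha]
    · funext a; by_cases h : pos j a < c <;> simp [h]

theorem lg_E {κ : Matrix (Fin n) (Fin n) F} (h : UU j κ) {c : ℕ} {v : Fin n → F}
    (hv : v ∈ Zc F (fun a => pos j a < c)) : κ *ᵥ v ∈ Zc F (fun a => pos j a < c) := by
  intro a ha
  rw [lg_mv]
  refine sum_eq_zero fun b _ => ?_
  rcases lt_or_ge (pos j b) c with hb | hb
  · simp [hv b hb]
  · simp [h.2 a b (lt_of_lt_of_le ha hb)]

theorem lg_map_compl {κ κ' : Matrix (Fin n) (Fin n) F} (h : UU j κ) (h' : UU j κ')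
    (e1 : κ * κ' = 1) (e2 : κ' * κ = 1) (c : ℕ) :
    IsCompl ((Zc F (fun a => c ≤ pos j a)).map (Matrix.toLin' κ)) (Zc F (fun a => pos j a < c)) := by
  refine ⟨Submodule.disjoint_def.2 ?_, codisjoint_iff.2 ?_⟩
  · rintro _ ⟨s, hs, rfl⟩ h2
    have h3 := lg_E h' h2
    rw [Matrix.toLin'_apply, Matrix.mulVec_mulVec, e2, Matrix.one_mulVec] at h3
    rw [Submodule.disjoint_def.1 (lg_compl c).1 s hs h3, map_zero]
  · rw [eq_top_iff]
    intro v _
    have : κ' *ᵥ v ∈ Zc F (fun a => c ≤ pos j a) ⊔ Zc F (fun a => pos j a < c) := by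
      rw [(lg_compl c).sup_eq_top]; trivial
    obtain ⟨s, hs, x, hx, e⟩ := Submodule.mem_sup.1 this
    refine Submodule.mem_sup.2 ⟨κ *ᵥ s, ⟨s, hs, rfl⟩, κ *ᵥ x, lg_E h hx, ?_⟩
    rw [← Matrix.mulVec_add, e, Matrix.mulVec_mulVec, e1, Matrix.one_mulVec]

theorem lg_UU_iff {κ : Matrix (Fin n) (Fin n) F} (h : UU j κ) (i : Fin n) :
    UU i κ ↔ ∀ v ∈ Zc F (fun a => pos j i ≤ pos j a), κ *ᵥ v ∈ Zc F (fun a => pos j i ≤ pos j a) := by
  constructor
  · intro hi v hv a ha
    rw [lg_mv]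
    refine sum_eq_zero fun b _ => ?_
    rcases le_or_gt (pos j i) (pos j b) with hb | hb
    · simp [hv b hb]
    · have : pos i a < pos i b := by
        simp only [pos_eq, Fin.le_def] at *
        have := a.2; have := b.2; have := i.2; have := j.2
        split_ifs at * <;> omega
      simp [hi.2 a b this]
  · intro hv
    refine ⟨h.1, fun a b hab => ?_⟩
    rcases lt_or_ge (pos j a) (pos j b) with h1 | h1
    · exact h.2 a b h1
    have h2 : pos j b < pos j i ∧ pos j i ≤ pos j a := by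
      simp only [pos_eq, Fin.le_def] at *
      have := a.2; have := b.2; have := i.2; have := j.2
      split_ifs at * <;> omega
    have := hv (Pi.single b 1) (fun x hx => Pi.single_eq_of_ne (by rintro rfl; omega) _) a h2.2
    simpa using this

theorem lg_eq_of_le {Y Y' E : Submodule F (Fin n → F)} (h : IsCompl Y E) (h' : IsCompl Y' E)
    (hle : Y ≤ Y') : Y = Y' := by
  refine le_antisymm hle fun y hy => ?_
  have : y ∈ Y ⊔ E := by rw [h.sup_eq_top]; trivial
  obtain ⟨x, hx, e, he, rfl⟩ := Submodule.mem_sup.1 this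
  have : e = 0 := Submodule.disjoint_def.1 h'.1 e
    ((Submodule.add_mem_iff_right _ (hle hx)).1 hy) he
  simpa [this] using hx

end Lin

theorem lg_entry_inj (hg : Good p t) {γ γ' : ZMod p} {a b : Fin n}
    (h : algebraMap (ZMod p) A γ * tau t a b = algebraMap (ZMod p) A γ' * tau t a b) : γ = γ' := by
  have := phi_injective (n := n) hg (a₁ := Matrix.single a b γ) (a₂ := Matrix.single a b γ') (by
    ext x y
    by_cases hxy : a = x ∧ b = y
    · obtain ⟨rfl, rfl⟩ := hxy; simpa [phi] using h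
    · simp [phi, Matrix.single, hxy])
  simpa using congrFun (congrFun this a) b

theorem lg_frozen_iff {κ : Matrix (Fin n) (Fin n) (ZMod p)} (hg : Good p t) (a b : Fin n) :
    phi p t κ a b = (1 : Matrix (Fin n) (Fin n) A) a b ↔
      κ a b = (1 : Matrix (Fin n) (Fin n) (ZMod p)) a b := by
  rw [← phi_one p t]
  exact ⟨fun h => lg_entry_inj hg h, fun h => by simp only [phi, Matrix.of_apply, h]⟩

theorem lg_mem_KK (hg : Good p t) {j i : Fin n} {g : GG n t} (h : g ∈ KK p t j) :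
    g ∈ KK p t i ↔ UU i (kap p g) :=
  ⟨fun h' => (kap_spec hg h').1, fun h' => ⟨_, h', (kap_spec hg h).2⟩⟩

theorem lg_kap_inv (hg : Good p t) {j : Fin n} {g : GG n t} (h : g ∈ KK p t j) :
    kap p g * kap p g⁻¹ = 1 ∧ kap p g⁻¹ * kap p g = 1 := by
  have h' := (KK p t j).inv_mem h
  rw [← kap_mul hg h h', ← kap_mul hg h' h, mul_inv_cancel, inv_mul_cancel, kap_one hg]
  exact ⟨rfl, rfl⟩

theorem lg_kap_compl (hg : Good p t) {j : Fin n} {g : GG n t} (h : g ∈ KK p t j) (c : ℕ) :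
    IsCompl ((Zc (ZMod p) (fun a => c ≤ pos j a)).map (Matrix.toLin' (kap p g)))
      (Zc (ZMod p) (fun a => pos j a < c)) :=
  lg_map_compl (kap_spec hg h).1 (kap_spec hg ((KK p t j).inv_mem h)).1 (lg_kap_inv hg h).1
    (lg_kap_inv hg h).2 c

theorem lg_YY_le (hg : Good p t) {j i : Fin n} {g k : GG n t} (h : g ∈ KK p t j)
    (hk : k ∈ KK p t j) (hki : k ∈ KK p t i) : YY p j i (g * k) ≤ YY p j i g := by
  rintro _ ⟨s, hs, rfl⟩
  refine ⟨kap p k *ᵥ s, (lg_UU_iff (kap_spec hg hk).1 i).1 (kap_spec hg hki).1 s hs, ?_⟩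
  rw [kap_mul hg h hk, Matrix.toLin'_apply, Matrix.toLin'_apply, Matrix.mulVec_mulVec]

theorem lg_YY_eq (hg : Good p t) {j i : Fin n} {g g' : GG n t} (h : g ∈ KK p t j)
    (h' : g' ∈ KK p t j) : YY p j i g = YY p j i g' ↔ g⁻¹ * g' ∈ KK p t i := by
  have hk : g⁻¹ * g' ∈ KK p t j := mul_mem (inv_mem h) h'
  constructor
  · intro e
    rw [lg_mem_KK hg hk, lg_UU_iff (kap_spec hg hk).1]
    intro v hv
    have : kap p g' *ᵥ v ∈ YY p j i g := by rw [e]; exact ⟨v, hv, rfl⟩
    obtain ⟨s, hs, e'⟩ := this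
    rw [Matrix.toLin'_apply] at e'
    rw [kap_mul hg (inv_mem h) h', ← Matrix.mulVec_mulVec, ← e', Matrix.mulVec_mulVec,
      (lg_kap_inv hg h).2, Matrix.one_mulVec]
    exact hs
  · intro hi
    refine le_antisymm ?_ ?_
    · have := lg_YY_le hg h' (inv_mem hk) (inv_mem hi)
      simpa using this
    · have := lg_YY_le hg h hk hi
      simpa using this

theorem lg_YY_std (hg : Good p t) {j i : Fin n} {g : GG n t} (h : g ∈ KK p t j)
    (hi : g ∈ KK p t i) : YY p j i g = Zc (ZMod p) (fun a => pos j i ≤ pos j a) := by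
  rw [← (lg_YY_eq hg (one_mem _) h).2 (by simpa using hi), YY, kap_one hg, Matrix.toLin'_one,
    Submodule.map_id]

theorem lg_YY_mono {j i i' : Fin n} (g : GG n t) (h : pos j i ≤ pos j i') :
    YY p j i g ≤ YY p j i' g :=
  Submodule.map_mono fun _ hv a ha => hv a (h.trans ha)

/-
PLAN.  `std c = Zc (c ≤ pos j a)`, `E c = Zc (pos j a < c)`; for `κ` with `UU j κ`: `κ (E c) ≤ E c`;
`κ = kap g` is invertible with inverse `kap g⁻¹` (`kap_mul`, `kap_one`), so `IsCompl (κ std c) (E c)`;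
for `UU j κ`: `UU i κ ↔ κ (std (pos j i)) ≤ std (pos j i)`; hence for `g, g' ∈ KK j`:
`YY j i g = YY j i g' ↔ g⁻¹ g' ∈ KK i`.
Take `exists_lay`, `W = ℕ × Submodule`, `ver i g = (idx i, YY p j i g)`, `r' + 1 = ν = Rcᶜ.card ≤ n`,
`ρ = insert (ν, ⊤) (J0.image fun i => (idx i, std (pos j i)))` (for `i = j` this is `(0, ⊥)`), `ρ.card =
J0.card + 1`; `hc` + `tpos_geom` + `gen_geom` (`ENat.card (ZMod p) = p`) give the `PCone`, and
`bcone_of_pcone` the claim.  h3: frozen columns are fixed by `κ`, frozen rows vanish; `κ` preserves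
`std (pos j i)` for `i ∈ J0`.  h4: a vertex `(l, Y)` of `σ` has `0 < l < ν`, `l ∉ idx '' J0`; put
`J = σ.image (lv ∘ fst)`.  For each coordinate `c` let `(l, Y)` be the member of the chain `σ ∪ ρ` with
the least `l` such that `pos j c < π l`, and `y_c ∈ Y` with `y_c - e_c ∈ E (π l)` (`IsCompl`); `κ` = matrix
with columns `y_c`.  It is `UU j`, has trivial frozen columns (uniqueness: `e_c ∈ Y`) and rows, and
`κ (std (π l)) ≤ Y` for every member `(l, Y)`, so `= Y` (both complements of `E (π l)`: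
`IsCompl` + modular law `eq_of_le_of_inf_le_of_le_sup` or finrank).  `g` from `exists_phi`.
-/
theorem link_bcone (hg : Good p t) {N κ : ℕ} (hc : ConeConst n N κ) (hp : 2 * N < p)
    {j : Fin n} {J0 Rc Rr : Finset (Fin n)} (hj : j ∈ J0) (hd : Disjoint J0 Rc) (hR : Rr ⊆ Rc)
    {okY : Submodule (ZMod p) (Fin n → ZMod p) → Prop} (hk : OkKind Rc Rr okY)
    (h0 : ∀ i ∈ J0, i ≠ j → okY (Zc (ZMod p) (fun a => pos j i ≤ pos j a))) :
    BCone (KK p t) (GR t Rc Rr ⊓ KJ (KK p t) J0)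
      (alw (GR t Rc Rr ⊓ KJ (KK p t) J0) (Rcᶜ \ J0) (fun i g => okY (YY p j i g)))
      (Rcᶜ \ J0).card κ := by
  classical
  have hJ0 : ∀ i ∈ J0, i ∉ Rc := fun i hi => disjoint_left.1 hd hi
  obtain ⟨π, lv, idx, hL, hidx, hlv⟩ := exists_lay (hJ0 j hj) hR
  set ν := Rcᶜ.card with hν
  have hν0 : 0 < ν := card_pos.2 ⟨j, mem_compl.2 (hJ0 j hj)⟩
  have hνn : ν ≤ n := by simpa using card_le_univ Rcᶜ
  have hπ : ∀ i, i ∉ Rc → π (idx i) = pos j i := fun i hi => by
    rw [← hL.pos_lv _ (hidx i hi).1, (hidx i hi).2]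
  have hinj : ∀ i, i ∉ Rc → ∀ i', i' ∉ Rc → idx i = idx i' → i = i' := fun i hi i' hi' e => by
    rw [← (hidx i hi).2, e, (hidx i' hi').2]
  have hposlt : ∀ i, i ∉ Rc → ∀ i', i' ∉ Rc → idx i < idx i' → pos j i ≤ pos j i' :=
    fun i hi i' hi' h => by
      rw [← hπ i hi, ← hπ i' hi']; exact (lg_lay_lt hL h (hidx i' hi').1.le).le
  have hidxj : idx j = 0 := by
    by_contra h
    have := lg_lay_lt hL (Nat.pos_of_ne_zero h) (hidx j (hJ0 j hj)).1.le
    rw [hπ j (hJ0 j hj), hL.zero] at this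
    simp [pos] at this
  set H := GR t Rc Rr ⊓ KJ (KK p t) J0 with hH
  have hHj : ∀ g ∈ H, g ∈ KK p t j := fun g h => mem_KJ.1 h.2 j hj
  set val := GVal (pos j) ν π Rc Rr okY with hval
  set ρ : Finset (ℕ × Submodule (ZMod p) (Fin n → ZMod p)) := insert (ν, ⊤)
    (J0.image fun i => (idx i, Zc (ZMod p) (fun a => pos j i ≤ pos j a))) with hρ
  -- vertices of group elements are valid
  have hver : ∀ i, i ∉ Rc → ∀ g ∈ H, (i ≠ j → okY (YY p j i g)) → val (idx i, YY p j i g) := by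
    intro i hi g hgH hok
    have hs := kap_spec hg (hHj g hgH)
    refine ⟨(hidx i hi).1.le, ?_, ?_, ?_, fun h1 _ => hok ?_⟩
    · intro v hv
      simp only [hπ i hi] at hv
      refine ⟨v, fun a ha => hv a fun h => absurd h.2 (not_lt.2 ha), ?_⟩
      rw [Matrix.toLin'_apply]
      conv_rhs => rw [← Matrix.one_mulVec v]
      funext a
      rw [lg_mv, lg_mv]
      refine sum_congr rfl fun b _ => ?_
      by_cases hb : b ∈ Rc
      · have := hgH.1.1 b hb a
        rw [hs.2, lg_frozen_iff hg] at this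
        simp only [this]
      · simp [hv b fun h => hb h.1]
    · rintro _ ⟨s, hs', rfl⟩ a ha
      simp only [hπ i hi] at ha
      have : (kap p g *ᵥ s) a = ((1 : Matrix (Fin n) (Fin n) (ZMod p)) *ᵥ s) a := by
        rw [lg_mv, lg_mv]
        refine sum_congr rfl fun b _ => ?_
        have := hgH.1.2 a ha.1 b
        rw [hs.2, lg_frozen_iff hg] at this
        simp only [this]
      rw [Matrix.toLin'_apply, this, Matrix.one_mulVec]
      exact hs' a ha.2
    · simp only [hπ i hi]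
      exact lg_kap_compl hg (hHj g hgH) _
    · rintro rfl
      simp only [hidxj] at h1
      exact lt_irrefl _ h1
  have hstd : ∀ i ∈ J0, ∀ g ∈ H, YY p j i g = Zc (ZMod p) (fun a => pos j i ≤ pos j a) :=
    fun i hi g hgH => lg_YY_std hg (hHj g hgH) (mem_KJ.1 hgH.2 i hi)
  have hcmp : ∀ i, i ∉ Rc → ∀ i', i' ∉ Rc → i ≠ i' → ∀ g : GG n t,
      GLt (idx i, YY p j i g) (idx i', YY p j i' g) ∨
        GLt (idx i', YY p j i' g) (idx i, YY p j i g) := by
    intro i hi i' hi' hne g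
    rcases lt_trichotomy (idx i) (idx i') with h | h | h
    · exact Or.inl ⟨h, lg_YY_mono g (hposlt i hi i' hi' h)⟩
    · exact absurd (hinj i hi i' hi' h) hne
    · exact Or.inr ⟨h, lg_YY_mono g (hposlt i' hi' i hi h)⟩
  have htop : val (ν, ⊤) := by
    refine ⟨le_rfl, le_top, fun v _ a ha => absurd ha.2 (not_le.2 (hL.lt_top a)), ?_,
      fun _ h => absurd h (lt_irrefl _)⟩
    have : Zc (ZMod p) (fun a : Fin n => pos j a < π ν) = ⊥ := by
      rw [eq_bot_iff]; intro v hv; funext a; exact hv a (hL.lt_top a)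
    simp only [this]
    exact isCompl_top_bot
  have hframe : Frame GLt Prod.fst val (ν - 1) ρ := by
    refine ⟨fun v hv => ?_, fun u hu v hv huv => ?_, ⟨_, mem_insert_of_mem
      (mem_image_of_mem _ hj), hidxj⟩, ⟨_, mem_insert_self _ _, by simp only []; omega⟩⟩
    · rcases mem_insert.1 hv with rfl | hv
      · exact htop
      · obtain ⟨i, hi, rfl⟩ := mem_image.1 hv
        rw [← hstd i hi 1 (one_mem _)]
        exact hver i (hJ0 i hi) 1 (one_mem _) fun h => by
          rw [hstd i hi 1 (one_mem _)]; exact h0 i hi h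
    · rcases mem_insert.1 hu with rfl | hu <;> rcases mem_insert.1 hv with rfl | hv
      · exact absurd rfl huv
      · obtain ⟨i, hi, rfl⟩ := mem_image.1 hv
        exact Or.inr ⟨(hidx i (hJ0 i hi)).1, le_top⟩
      · obtain ⟨i, hi, rfl⟩ := mem_image.1 hu
        exact Or.inl ⟨(hidx i (hJ0 i hi)).1, le_top⟩
      · obtain ⟨i, hi, rfl⟩ := mem_image.1 hu
        obtain ⟨i', hi', rfl⟩ := mem_image.1 hv
        rw [← hstd i hi 1 (one_mem _), ← hstd i' hi' 1 (one_mem _)]
        exact hcmp i (hJ0 i hi) i' (hJ0 i' hi') (by rintro rfl; exact huv rfl) 1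
  have hρcard : ρ.card = J0.card + 1 := by
    rw [hρ, card_insert_of_notMem, card_image_of_injOn]
    · intro i hi i' hi' e
      exact hinj i (hJ0 i hi) i' (hJ0 i' hi') (congrArg Prod.fst e)
    · intro h
      obtain ⟨i, hi, e⟩ := mem_image.1 h
      have := (hidx i (hJ0 i hi)).1
      have e' : idx i = ν := congrArg Prod.fst e
      omega
  have hpc := hc _ GLt Prod.fst val (ν - 1) (by omega)
    (by have := tpos_geom (pos j) (ν - 1) π Rc Rr okY
        rwa [Nat.sub_add_cancel hν0] at this)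
    (gen_geom hL hk (by
      rw [ENat.card_eq_coe_natCard, Nat.card_zmod]; exact_mod_cast hp)) ρ hframe
  have hcard : ν - 1 + 2 - ρ.card = (Rcᶜ \ J0).card := by
    rw [card_sdiff_of_subset fun i hi => mem_compl.2 (hJ0 i hi), hρcard]; omega
  rw [hcard] at hpc
  have hT : ∀ i ∈ Rcᶜ \ J0, i ∉ Rc := fun i hi => mem_compl.1 (mem_sdiff.1 hi).1
  refine bcone_of_pcone ?_ (fun i g => (idx i, YY p j i g)) ?_ ?_ ?_ ?_ hpc
  · intro i _ g hgH k hkH hki
    simp only []
    rw [← (lg_YY_eq hg (hHj g hgH) (hHj _ (mul_mem hgH hkH))).2 (by simpa using hki)]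
  · intro i _ g hgH g' hg'H
    rw [← lg_YY_eq hg (hHj g hgH) (hHj g' hg'H)]
    simp
  · intro i hi i' hi' g _ g' _ e
    exact hinj i (hT i hi) i' (hT i' hi') (congrArg Prod.fst e)
  · rintro J g ⟨hJ, hgH, hok⟩
    refine ⟨fun v hv => ?_, fun u hu v hv huv => ?_⟩
    · obtain ⟨i, hi, rfl⟩ := mem_image.1 hv
      refine ⟨hver i (hT i (hJ hi)) g hgH fun _ => hok i hi, fun x hx => ?_⟩
      rcases mem_insert.1 hx with rfl | hx
      · exact Or.inl ⟨(hidx i (hT i (hJ hi))).1, le_top⟩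
      · obtain ⟨i', hi', rfl⟩ := mem_image.1 hx
        rw [← hstd i' hi' g hgH]
        exact hcmp i (hT i (hJ hi)) i' (hJ0 i' hi')
          (by rintro rfl; exact (mem_sdiff.1 (hJ hi)).2 hi') g
    · obtain ⟨i, hi, rfl⟩ := mem_image.1 hu
      obtain ⟨i', hi', rfl⟩ := mem_image.1 hv
      exact hcmp i (hT i (hJ hi)) i' (hT i' (hJ hi')) (by rintro rfl; exact huv rfl) g
  · rintro σ ⟨hσ1, hσ2⟩
    have hCval : ∀ v ∈ σ ∪ ρ, val v := fun v hv => by
      rcases mem_union.1 hv with h | h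
      · exact (hσ1 v h).1
      · exact hframe.1 v h
    have hCcmp : ∀ u ∈ σ ∪ ρ, ∀ v ∈ σ ∪ ρ, u.1 ≤ v.1 → u.2 ≤ v.2 := by
      intro u hu v hv huv
      by_cases e : u = v
      · rw [e]
      have : GLt u v ∨ GLt v u := by
        rcases mem_union.1 hu with h | h <;> rcases mem_union.1 hv with h' | h'
        · exact hσ2 u h v h' e
        · exact (hσ1 u h).2 v h'
        · exact ((hσ1 v h').2 u h).symm
        · exact hframe.2.1 u h v h' e
      rcases this with h | h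
      · exact h.2
      · exact absurd h.1 (not_lt.2 huv)
    have hex : ∀ c : Fin n, ∃ w ∈ σ ∪ ρ, pos j c < π w.1 ∧
        (∀ v ∈ σ ∪ ρ, pos j c < π v.1 → w.2 ≤ v.2) ∧
        ∃ y ∈ w.2, Pi.single c 1 - y ∈ Zc (ZMod p) (fun a => pos j a < π w.1) := by
      intro c
      obtain ⟨w, hw, hmin⟩ := exists_min_image ((σ ∪ ρ).filter fun v => pos j c < π v.1) Prod.fst
        ⟨(ν, ⊤), mem_filter.2 ⟨mem_union_right _ (mem_insert_self _ _), hL.lt_top c⟩⟩
      obtain ⟨hw1, hw2⟩ := mem_filter.1 hw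
      refine ⟨w, hw1, hw2, fun v hv h => hCcmp w hw1 v hv (hmin v (mem_filter.2 ⟨hv, h⟩)), ?_⟩
      have : (Pi.single c 1 : Fin n → ZMod p) ∈ w.2 ⊔ Zc (ZMod p) (fun a => pos j a < π w.1) := by
        rw [(hCval w hw1).2.2.2.1.sup_eq_top]; trivial
      obtain ⟨y, hy, x, hx, e⟩ := Submodule.mem_sup.1 this
      exact ⟨y, hy, by rw [← e]; simpa using hx⟩
    choose w hw1 hw2 hw3 y hy1 hy2 using hex
    have hone : ∀ a c : Fin n, (Pi.single c 1 : Fin n → ZMod p) a
        = (1 : Matrix (Fin n) (Fin n) (ZMod p)) a c := fun a c => by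
      simp [Pi.single_apply, Matrix.one_apply]
    have hlow : ∀ c a, pos j a < π (w c).1 → y c a = (1 : Matrix (Fin n) (Fin n) (ZMod p)) a c :=
      fun c a h => by
        have := hy2 c a h
        rw [Pi.sub_apply, sub_eq_zero, hone] at this
        exact this.symm
    have hUU : UU j (Matrix.of fun a c => y c a) := by
      refine ⟨fun a => ?_, fun a c h => ?_⟩
      · rw [Matrix.of_apply, hlow a a (hw2 a), Matrix.one_apply_eq]
      · rw [Matrix.of_apply, hlow c a (h.trans (hw2 c)),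
          Matrix.one_apply_ne (by rintro rfl; exact lt_irrefl _ h)]
    obtain ⟨g, hgm⟩ := exists_phi (t := t) hUU
    have hgj : g ∈ KK p t j := ⟨_, hUU, hgm⟩
    have hkap := kap_eq hg hgm
    have hmap : ∀ v ∈ σ ∪ ρ,
        (Zc (ZMod p) (fun a => π v.1 ≤ pos j a)).map (Matrix.toLin' (kap p g)) = v.2 := by
      intro v hv
      refine lg_eq_of_le (lg_kap_compl hg hgj _) (hCval v hv).2.2.2.1 ?_
      rintro _ ⟨s, hs, rfl⟩
      have : Matrix.toLin' (kap p g) s = ∑ c, s c • y c := by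
        funext a
        rw [hkap, Matrix.toLin'_apply, Finset.sum_apply, lg_mv]
        exact sum_congr rfl fun c _ => by simp [mul_comm]
      rw [this]
      refine Submodule.sum_mem _ fun c _ => ?_
      rcases le_or_gt (π v.1) (pos j c) with h | h
      · rw [hs c h, zero_smul]; exact zero_mem _
      · exact Submodule.smul_mem _ _ (hw3 c v hv h (hy1 c))
    have hgH : g ∈ H := by
      refine ⟨⟨fun c hcR a => ?_, fun a haR c => ?_⟩, mem_KJ.2 fun i hi => ?_⟩
      · rw [hgm, lg_frozen_iff hg, Matrix.of_apply, ← hone]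
        have h1 : (Pi.single c 1 : Fin n → ZMod p) ∈ (w c).2 :=
          (hCval _ (hw1 c)).2.1 fun a ha =>
            Pi.single_eq_of_ne (by rintro rfl; exact ha ⟨hcR, hw2 a⟩) _
        have := Submodule.disjoint_def.1 (hCval _ (hw1 c)).2.2.2.1.1 _
          (Submodule.sub_mem _ h1 (hy1 c)) (hy2 c)
        rw [← sub_eq_zero.1 this]
      · rw [hgm, lg_frozen_iff hg, Matrix.of_apply]
        rcases lt_or_ge (pos j a) (π (w c).1) with h | h
        · exact hlow c a h
        · rw [(hCval _ (hw1 c)).2.2.1 (hy1 c) a ⟨haR, h⟩,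
            Matrix.one_apply_ne (by rintro rfl; exact absurd (hw2 a) (not_lt.2 h))]
      · rw [lg_mem_KK hg hgj, lg_UU_iff (kap_spec hg hgj).1]
        intro v hv
        have := hmap _ (mem_union_right _ (mem_insert_of_mem (mem_image_of_mem _ hi)))
        simp only [hπ i (hJ0 i hi)] at this
        rw [← this]
        exact ⟨v, hv, rfl⟩
    have hσν : ∀ v ∈ σ, v.1 < ν := fun v hv => by
      rcases (hσ1 v hv).2 _ (mem_insert_self _ _) with h | h
      · exact h.1
      · exact absurd h.1 (not_lt.2 (hσ1 v hv).1.1)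
    have hσJ : ∀ v ∈ σ, lv v.1 ∉ J0 := fun v hv hJ => by
      have h1 := hlv _ (hσν v hv)
      rcases (hσ1 v hv).2 _ (mem_insert_of_mem (mem_image_of_mem _ hJ)) with h | h
      · exact absurd h.1 (by simp only [h1]; exact lt_irrefl _)
      · exact absurd h.1 (by simp only [h1]; exact lt_irrefl _)
    have hσv : ∀ v ∈ σ, (idx (lv v.1), YY p j (lv v.1) g) = v := fun v hv => by
      refine Prod.ext (hlv _ (hσν v hv)) ?_
      simp only [YY, hL.pos_lv _ (hσν v hv)]
      exact hmap v (mem_union_left _ hv)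
    refine ⟨σ.image fun v => lv v.1, g, ⟨fun i hi => ?_, hgH, fun i hi => ?_⟩, ?_⟩
    · obtain ⟨v, hv, rfl⟩ := mem_image.1 hi
      exact mem_sdiff.2 ⟨mem_compl.2 (hL.live _ (hσν v hv)), hσJ v hv⟩
    · obtain ⟨v, hv, rfl⟩ := mem_image.1 hi
      have e : YY p j (lv v.1) g = v.2 := congrArg Prod.snd (hσv v hv)
      rw [e]
      refine (hσ1 v hv).1.2.2.2.2 (Nat.pos_of_ne_zero fun h => hσJ v hv ?_) (hσν v hv)
      rw [h, ← hidxj, (hidx j (hJ0 j hj)).2]; exact hj
    · rw [image_image]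
      exact ((image_congr (g := id) fun v hv => hσv v hv).trans image_id).symm

end Crest.Agent.R66
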