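import Crest.Agent.R66.ConeJoin

/-! Task R66-MainStep: the double complex argument. -/
set_option autoImplicit false
set_option linter.unusedSectionVars false
namespace Crest.Agent.R66
open Finset

variable {I P G M : Type} [DecidableEq I] [DecidableEq P] [Group G] [Finite G] [AddCommGroup M]
  [Module (ZMod 2) M]

private theorem MainStep_dl_map (e : I ↪ P) (y : Finset P → G → M) (J : Finset I) (g : G) :
    dl y (J.map e) g = dl (fun J => y (J.map e)) J g := by
  simp only [dl, Finset.sum_map, Finset.map_erase]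

private theorem MainStep_inv_map (e : I ↪ P) {K : P → Subgroup G} {H : Subgroup G}
    {y : Finset P → G → M} (hy : Inv K H y) :
    Inv (fun i => K (e i)) H (fun J => y (J.map e)) := by
  intro J g k hk hJ
  refine hy _ g k hk fun j hj => ?_
  obtain ⟨i, hi, rfl⟩ := Finset.mem_map.1 hj
  exact hJ i hi

/-- reindexing along an embedding of the types: coboundaries -/
theorem cob_map (e : I ↪ P) {K : P → Subgroup G} {H : Subgroup G} {T : Finset I} {m : ℕ}
    {f : Finset P → G → M} (h : Cob (fun i => K (e i)) H (full H T) m (fun J => f (J.map e))) :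
    Cob K H (full H (T.map e)) m f := by
  classical
  obtain ⟨y, hy, hfy⟩ := h
  refine ⟨fun J g => y (J.preimage e e.injective.injOn) g, ?_, ?_⟩
  · intro J g k hk hJ
    exact hy _ g k hk fun i hi => hJ _ (Finset.mem_preimage.1 hi)
  · intro J g hJ ha
    obtain ⟨J', hJ', rfl⟩ := Finset.subset_map_iff.1 ha.1
    rw [Finset.card_map] at hJ
    rw [MainStep_dl_map]
    have := hfy J' g hJ ⟨hJ', ha.2.1, fun _ _ => trivial⟩
    simpa only [Finset.preimage_map] using this

/-- reindexing along an embedding of the types: exactness -/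
theorem ex_map (e : I ↪ P) {K : P → Subgroup G} {H : Subgroup G} {T : Finset I} {m : ℕ}
    (h : Ex M (fun i => K (e i)) H (full H T) m) : Ex M K H (full H (T.map e)) m := by
  intro f hf hc
  refine cob_map e (h _ (MainStep_inv_map e hf) ?_)
  intro J g hJ ha
  rw [← MainStep_dl_map]
  exact hc _ g (by rw [Finset.card_map, hJ])
    ⟨Finset.map_subset_map.2 ha.1, ha.2.1, fun _ _ => trivial⟩

/-- a `0/1` level function -/
private def MainStep_lam {X : Type} (G : Type) (q : X → Bool) : X → G → ℕ :=
  fun i _ => if q i then 1 else 0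

private theorem MainStep_lev_lt {X : Type} [DecidableEq X] (q : X → Bool) {U J : Finset X}
    (hJ : J ⊆ U) (g : G) :
    lev U (MainStep_lam G q) J g < U.card + 2 ↔ ∀ j ∈ J, q j = false := by
  constructor
  · intro h j hj
    by_contra hq
    have hq' : q j = true := by simpa using hq
    have h1 : mxl (MainStep_lam G q) J g = 1 := by
      apply le_antisymm
      · refine Finset.sup_le fun i _ => ?_
        unfold MainStep_lam
        split_ifs <;> omega
      · have := Finset.le_sup (f := fun i => MainStep_lam G q i g) hj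
        simpa [MainStep_lam, hq', mxl] using this
    have h2 : j ∈ tp (MainStep_lam G q) J g := by
      rw [tp, Finset.mem_filter, h1]
      exact ⟨hj, by simp [MainStep_lam, hq']⟩
    have h3 : 0 < (tp (MainStep_lam G q) J g).card := Finset.card_pos.2 ⟨j, h2⟩
    rw [lev, h1] at h
    omega
  · intro h
    have h1 : mxl (MainStep_lam G q) J g = 0 := by
      apply Nat.eq_zero_of_le_zero
      refine Finset.sup_le fun i hi => ?_
      simp [MainStep_lam, h i hi]
    have h2 : (tp (MainStep_lam G q) J g).card ≤ U.card :=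
      Finset.card_le_card ((Finset.filter_subset _ _).trans hJ)
    rw [lev, h1]
    omega

private theorem MainStep_link {X : Type} (q : X → Bool) {U ρ : Finset X} (hρ : ρ ⊆ U)
    (hne : ρ.Nonempty) {g : G} {c : ℕ} (hc : ∀ j ∈ ρ, MainStep_lam G q j g = c)
    (hL : U.card + 2 ≤ c * (U.card + 1) + ρ.card) : c = 1 ∧ ∀ j ∈ ρ, q j = true := by
  have h0 : c ≠ 0 := by
    rintro rfl
    have := Finset.card_le_card hρ
    omega
  have key : ∀ j ∈ ρ, q j = true ∧ c = 1 := by
    intro j hj
    have := hc j hj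
    unfold MainStep_lam at this
    split_ifs at this with hq
    · exact ⟨hq, this.symm⟩
    · exact absurd this.symm h0
  obtain ⟨j, hj⟩ := hne
  exact ⟨(key j hj).2, fun i hi => (key i hi).1⟩

private theorem MainStep_eq_inl {ρ : Finset (I ⊕ P)} (h : ∀ j ∈ ρ, j.isRight = false) :
    ρ = ρ.toLeft.map Function.Embedding.inl := by
  ext x
  rcases x with x | x
  · simp
  · simp only [Finset.mem_map, Function.Embedding.inl_apply, reduceCtorEq, and_false,
      exists_false, iff_false]
    intro hx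
    simpa using h _ hx

private theorem MainStep_eq_inr {ρ : Finset (I ⊕ P)} (h : ∀ j ∈ ρ, j.isLeft = false) :
    ρ = ρ.toRight.map Function.Embedding.inr := by
  ext x
  rcases x with x | x
  · simp only [Finset.mem_map, Function.Embedding.inr_apply, reduceCtorEq, and_false,
      exists_false, iff_false]
    intro hx
    simpa using h _ hx
  · simp

private theorem MainStep_KJ_inl (K : I → Subgroup G) (S : P → Subgroup G) (J : Finset I) :
    KJ (Sum.elim K S) (J.map Function.Embedding.inl) = KJ K J := by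
  ext g
  simp [mem_KJ]

private theorem MainStep_KJ_inr (K : I → Subgroup G) (S : P → Subgroup G) (J : Finset P) :
    KJ (Sum.elim K S) (J.map Function.Embedding.inr) = KJ S J := by
  ext g
  simp [mem_KJ]

/-- the link of a simplex of `inl` types for the level `isLeft` -/
private theorem MainStep_alw_left {T : Finset I} {Pos : Finset P} (H' : Subgroup G)
    (J₀ : Finset I) (g₀ : G) (J : Finset (I ⊕ P)) (k : G) :
    alw H' (T.disjSum Pos \ J₀.map Function.Embedding.inl)
      (fun i k => True ∧ MainStep_lam G (Sum.isLeft : I ⊕ P → Bool) i (g₀ * k) < 1) J k ↔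
    full H' (Pos.map Function.Embedding.inr) J k := by
  constructor
  · rintro ⟨h1, h2, h3⟩
    refine ⟨fun x hx => ?_, h2, fun _ _ => trivial⟩
    have a1 := h1 hx
    have a2 := (h3 x hx).2
    rcases x with x | x
    · simp [MainStep_lam] at a2
    · simpa using a1
  · rintro ⟨h1, h2, -⟩
    refine ⟨fun x hx => ?_, h2, fun x hx => ⟨trivial, ?_⟩⟩
    · obtain ⟨b, hb, rfl⟩ := Finset.mem_map.1 (h1 hx)
      simpa using hb
    · obtain ⟨b, hb, rfl⟩ := Finset.mem_map.1 (h1 hx)
      simp [MainStep_lam]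

/-- the link of a simplex of `inr` types for the level `isRight` -/
private theorem MainStep_alw_right {T : Finset I} {Pos : Finset P} (H' : Subgroup G)
    (τ : Finset P) (g₀ : G) (J : Finset (I ⊕ P)) (k : G) :
    alw H' (T.disjSum Pos \ τ.map Function.Embedding.inr)
      (fun i k => True ∧ MainStep_lam G (Sum.isRight : I ⊕ P → Bool) i (g₀ * k) < 1) J k ↔
    full H' (T.map Function.Embedding.inl) J k := by
  constructor
  · rintro ⟨h1, h2, h3⟩
    refine ⟨fun x hx => ?_, h2, fun _ _ => trivial⟩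
    have a1 := h1 hx
    have a2 := (h3 x hx).2
    rcases x with x | x
    · simpa using a1
    · simp [MainStep_lam] at a2
  · rintro ⟨h1, h2, -⟩
    refine ⟨fun x hx => ?_, h2, fun x hx => ⟨trivial, ?_⟩⟩
    · obtain ⟨b, hb, rfl⟩ := Finset.mem_map.1 (h1 hx)
      simpa using hb
    · obtain ⟨b, hb, rfl⟩ := Finset.mem_map.1 (h1 hx)
      simp [MainStep_lam]

/-- part (a) of the plan -/
private theorem MainStep_ex {K : I → Subgroup G} {S : P → Subgroup G} {H : Subgroup G}
    {T : Finset I} {Pos : Finset P} {m : ℕ} (hm : m < Pos.card)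
    (hj : ∀ J ⊆ T, ∀ τ ⊆ Pos, ∀ a ∈ Pos, a ∉ τ → ∀ k ∈ H, (∀ j ∈ J, k ∈ K j) →
      ∃ k' ∈ H, (∀ j ∈ J, k' ∈ K j) ∧ (∀ b ∈ τ, k' ∈ S b) ∧ k'⁻¹ * k ∈ S a) :
    Ex M (Sum.elim K S) H (full H (T.disjSum Pos)) m := by
  have hjoin : ∀ J ⊆ T, ∀ m' ≤ m, Ex M (Sum.elim K S) (H ⊓ KJ K J)
      (full (H ⊓ KJ K J) (Pos.map Function.Embedding.inr)) m' := by
    intro J hJ m' hm'
    refine ex_map Function.Embedding.inr ?_
    refine ex_join (K := S) ?_ (lt_of_le_of_lt hm' hm)
    intro τ hτ a ha haτ k hk
    obtain ⟨k', h1, h2, h3, h4⟩ := hj J hJ τ hτ a ha haτ k hk.1 (mem_KJ.1 hk.2)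
    exact ⟨k', ⟨h1, mem_KJ.2 h2⟩, h3, h4⟩
  intro F hF hc
  have h0 := hjoin ∅ (Finset.empty_subset _) m le_rfl
  rw [KJ_empty, inf_top_eq] at h0
  have hsub : Pos.map Function.Embedding.inr ⊆ T.disjSum Pos := by
    intro x hx
    obtain ⟨b, hb, rfl⟩ := Finset.mem_map.1 hx
    simpa using hb
  obtain ⟨y₀, hy₀, e₀⟩ := h0 F hF (hc.mono (full_mono le_rfl hsub))
  obtain ⟨y, hy, -, e⟩ := shell (K := Sum.elim K S) (H := H) (T := T.disjSum Pos)
    (ok := fun _ _ => True) (lam := MainStep_lam G Sum.isLeft) (okInv_true _)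
    (fun _ _ _ _ _ _ _ => rfl) (L₀ := (T.disjSum Pos).card + 2) (by omega) (m := m)
    (f := F - dl y₀) (by
      intro ρ g₀ c ha hne hcst hL hρm
      obtain ⟨rfl, hq⟩ := MainStep_link _ ha.1 hne hcst hL
      have hρ : ρ = ρ.toLeft.map Function.Embedding.inl :=
        MainStep_eq_inl fun j hj => by
          have := hq j hj
          cases j <;> simp_all
      have hT : ρ.toLeft ⊆ T := by
        intro x hx
        have := ha.1 (Finset.mem_toLeft.1 hx)
        simpa using this
      generalize ρ.toLeft = J at hρ hT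
      subst hρ
      rw [MainStep_KJ_inl]
      exact (hjoin J hT _ (Nat.sub_le _ _)).congr (MainStep_alw_left _ _ _))
    (hF.sub hy₀.dl) (hc.sub (Cocyc.dl _)) (by
      intro J g hJ ha hlt
      have hq := (MainStep_lev_lt _ ha.1 g).1 hlt
      have hJ' : J ⊆ Pos.map Function.Embedding.inr := by
        intro x hx
        have a1 := ha.1 hx
        have a2 := hq x hx
        rcases x with x | x
        · simp at a2
        · simpa using a1
      rw [Pi.sub_apply, Pi.sub_apply, e₀ J g hJ ⟨hJ', ha.2.1, fun _ _ => trivial⟩, sub_self])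
  refine ⟨y₀ + y, hy₀.add hy, fun J g hJ ha => ?_⟩
  have := e J g hJ ha
  rw [Pi.sub_apply, Pi.sub_apply, sub_eq_iff_eq_add'] at this
  rw [dl_add, Pi.add_apply, Pi.add_apply, this]

/-- extension by zero -/
private def MainStep_ext (P : Type) [DecidableEq P] (f : Finset I → G → M) :
    Finset (I ⊕ P) → G → M :=
  fun J g => if J.toRight = ∅ then f J.toLeft g else 0

private theorem MainStep_ext_inl (f : Finset I → G → M) (J : Finset I) :
    MainStep_ext P f (J.map Function.Embedding.inl) = f J := by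
  funext g
  have h1 : (J.map (Function.Embedding.inl : I ↪ I ⊕ P)).toRight = ∅ := by
    ext x; simp
  have h2 : (J.map (Function.Embedding.inl : I ↪ I ⊕ P)).toLeft = J := by
    ext x; simp
  simp only [MainStep_ext, h1, h2, if_true]

private theorem MainStep_ext_inv {K : I → Subgroup G} (S : P → Subgroup G) {H : Subgroup G}
    {f : Finset I → G → M} (hf : Inv K H f) : Inv (Sum.elim K S) H (MainStep_ext P f) := by
  intro J g k hk hJ
  unfold MainStep_ext
  split_ifs
  · exact hf _ g k hk fun i hi => hJ (Sum.inl i) (Finset.mem_toLeft.1 hi)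
  · rfl

private theorem MainStep_dl_ext (f : Finset I → G → M) (J : Finset (I ⊕ P)) (a : P)
    (ha : Sum.inr a ∉ J) (g : G) :
    dl (MainStep_ext P f) (J ∪ {Sum.inr a}) g = MainStep_ext P f J g := by
  have hJ : J ∪ {Sum.inr a} = insert (Sum.inr a) J := by
    ext x; simp [or_comm]
  rw [hJ, dl, Finset.sum_insert ha, Finset.erase_insert ha, Finset.sum_eq_zero, add_zero]
  intro j hj
  have hne : Sum.inr a ≠ j := fun h => ha (h ▸ hj)
  have : a ∈ ((insert (Sum.inr a) J).erase j).toRight := by
    rw [Finset.mem_toRight, Finset.mem_erase]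
    exact ⟨hne, Finset.mem_insert_self _ _⟩
  unfold MainStep_ext
  rw [if_neg (Finset.ne_empty_of_mem this)]

/-
PLAN.  Work with types `I ⊕ P`, `𝕂 = Sum.elim K S`, `𝕋 = T.disjSum Pos`.
(a) `Ex M 𝕂 H (full H 𝕋) m`: first on the types `Pos.map inr` (`ex_join` with `J = ∅`, `ex_map`), subtract, then
`shell` with `lam = 1` on `inl`, `0` on `inr`, `L₀ = 𝕋.card + 2`; the links of `ρ = J.map inl` are joins for
`H ⊓ KJ K J` (`ex_join`, `ex_map`, `Ex.congr`).
(b) `f⁰ J g = if J.toRight = ∅ then f J.toLeft g else 0`, `ω = dl f⁰` is a cocycle in card `m+1`; with `lam = 1`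
on `inr`, `0` on `inl` it vanishes for `lev < 𝕋.card + 2`.  `shell_step` at `L = 𝕋.card + 2` (`ρ = {inr a}`,
the local cochain is `f (g₀ ·)` on the `inl` types: `h1`, `cob_map`, `Cob.mono`), then `shell` from
`𝕋.card + 3` (`hl`).  So `ω = dl y` with `y` supported on simplices with a `Pos`-vertex; `Ω = f⁰ - y` is a
cocycle in card `m`, `Ω = dl Θ` by (a), and `Θ (J.map inl)` is a primitive of `f`.
-/
theorem main_step {K : I → Subgroup G} {S : P → Subgroup G} {H : Subgroup G} {T : Finset I}
    {Pos : Finset P} {m : ℕ} (hm : m < Pos.card)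
    (hj : ∀ J ⊆ T, ∀ τ ⊆ Pos, ∀ a ∈ Pos, a ∉ τ → ∀ k ∈ H, (∀ j ∈ J, k ∈ K j) →
      ∃ k' ∈ H, (∀ j ∈ J, k' ∈ K j) ∧ (∀ b ∈ τ, k' ∈ S b) ∧ k'⁻¹ * k ∈ S a)
    (hl : ∀ τ ⊆ Pos, 2 ≤ τ.card → τ.card ≤ m + 1 →
      Ex M K (H ⊓ KJ S τ) (full (H ⊓ KJ S τ) T) (m + 1 - τ.card))
    {f : Finset I → G → M} (hf : Inv K H f) (hc : Cocyc (full H T) m f)
    (h1 : ∀ a ∈ Pos, ∀ g ∈ H,
      Cob K (H ⊓ KJ S {a}) (full (H ⊓ KJ S {a}) T) m (fun J k => f J (g * k))) :
    Cob K H (full H T) m f := by
  have hf0 : Inv (Sum.elim K S) H (MainStep_ext P f) := MainStep_ext_inv S hf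
  have hinl : ∀ J : Finset (I ⊕ P), J ⊆ T.disjSum Pos → J.toLeft ⊆ T := by
    intro J hJ x hx
    have := hJ (Finset.mem_toLeft.1 hx)
    simpa using this
  have hinr : ∀ J : Finset (I ⊕ P), J ⊆ T.disjSum Pos → J.toRight ⊆ Pos := by
    intro J hJ x hx
    have := hJ (Finset.mem_toRight.1 hx)
    simpa using this
  -- first shell
  obtain ⟨y₁, hy₁, s₁, e₁⟩ := shell_step (K := Sum.elim K S) (H := H) (T := T.disjSum Pos)
    (ok := fun _ _ => True) (lam := MainStep_lam G Sum.isRight) (okInv_true _)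
    (fun _ _ _ _ _ _ _ => rfl) (L := (T.disjSum Pos).card + 2) (by omega) (m := m + 1)
    (f := dl (MainStep_ext P f)) (by
      intro J g hJ ha hlt
      have hq := (MainStep_lev_lt _ ha.1 g).1 hlt
      have hJ' := MainStep_eq_inl hq
      have hT := hinl J ha.1
      generalize J.toLeft = J' at hJ' hT
      subst hJ'
      rw [Finset.card_map] at hJ
      rw [MainStep_dl_map]
      simp only [MainStep_ext_inl]
      exact hc J' g hJ ⟨hT, ha.2.1, fun _ _ => trivial⟩) (by
      intro ρ g₀ c ha hne hcst hL hρm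
      obtain ⟨rfl, hq⟩ := MainStep_link _ ha.1 hne hcst hL.ge
      have hcard : ρ.card = 1 := by omega
      obtain ⟨x, rfl⟩ := Finset.card_eq_one.1 hcard
      have hx := hq x (Finset.mem_singleton_self _)
      rcases x with x | a
      · simp at hx
      have haP : a ∈ Pos := by simpa using ha.1 (Finset.mem_singleton_self _)
      have hs : ({Sum.inr a} : Finset (I ⊕ P)) = ({a} : Finset P).map Function.Embedding.inr := by
        simp
      have hK : KJ (Sum.elim K S) {Sum.inr a} = KJ S {a} := by rw [hs, MainStep_KJ_inr]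
      have hcob : Cob (Sum.elim K S) (H ⊓ KJ S {a})
          (full (H ⊓ KJ S {a}) (T.map Function.Embedding.inl)) m
          (fun J k => MainStep_ext P f J (g₀ * k)) := by
        refine cob_map Function.Embedding.inl ?_
        simp only [MainStep_ext_inl]
        exact h1 a haP g₀ ha.2.1
      rw [hK, Finset.card_singleton, Nat.add_sub_cancel]
      refine (hcob.mono le_rfl fun J k hJ => ?_).congr fun J k _ hJ => ?_
      · rw [hs] at hJ
        exact (MainStep_alw_right _ _ _ _ _).1 hJ
      · refine MainStep_dl_ext f J a (fun h => ?_) _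
        have := hJ.1 h
        simp at this)
  -- second shell
  obtain ⟨y₂, hy₂, s₂, e₂⟩ := shell (K := Sum.elim K S) (H := H) (T := T.disjSum Pos)
    (ok := fun _ _ => True) (lam := MainStep_lam G Sum.isRight) (okInv_true _)
    (fun _ _ _ _ _ _ _ => rfl) (L₀ := (T.disjSum Pos).card + 3) (by omega) (m := m + 1)
    (f := dl (MainStep_ext P f) - dl y₁) (by
      intro ρ g₀ c ha hne hcst hL hρm
      obtain ⟨rfl, hq⟩ := MainStep_link _ ha.1 hne hcst (by omega)
      have hρ : ρ = ρ.toRight.map Function.Embedding.inr :=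
        MainStep_eq_inr fun j hj => by
          have := hq j hj
          cases j <;> simp_all
      have hP := hinr ρ ha.1
      generalize ρ.toRight = τ at hρ hP
      subst hρ
      rw [Finset.card_map] at hL hρm ⊢
      rw [MainStep_KJ_inr]
      exact (ex_map Function.Embedding.inl (hl τ hP (by omega) hρm)).congr
        (MainStep_alw_right _ _ _))
    (hf0.dl.sub hy₁.dl) ((Cocyc.dl _).sub (Cocyc.dl _)) (by
      intro J g hJ ha hlt
      rw [Pi.sub_apply, Pi.sub_apply, e₁ J g hJ ha (by omega), sub_self])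
  obtain ⟨Θ, hΘ, e⟩ := MainStep_ex (M := M) hm hj (MainStep_ext P f - y₁ - y₂)
    ((hf0.sub hy₁).sub hy₂) (by
      intro J g hJ ha
      rw [dl_sub, dl_sub, Pi.sub_apply, Pi.sub_apply, e₂ J g hJ ha, sub_self])
  refine ⟨fun J => Θ (J.map Function.Embedding.inl),
    MainStep_inv_map Function.Embedding.inl hΘ, fun J g hJ ha => ?_⟩
  have hsub : J.map Function.Embedding.inl ⊆ T.disjSum Pos := by
    intro x hx
    obtain ⟨b, hb, rfl⟩ := Finset.mem_map.1 hx
    simpa using ha.1 hb
  have hlev : lev (T.disjSum Pos) (MainStep_lam G Sum.isRight) (J.map Function.Embedding.inl) g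
      < (T.disjSum Pos).card + 2 := by
    refine (MainStep_lev_lt _ hsub g).2 fun x hx => ?_
    obtain ⟨b, _, rfl⟩ := Finset.mem_map.1 hx
    simp
  have z₁ : y₁ (J.map Function.Embedding.inl) g = 0 := by
    by_contra h
    have := (s₁ _ _ h).2
    omega
  have z₂ : y₂ (J.map Function.Embedding.inl) g = 0 := by
    by_contra h
    have := (s₂ _ _ h).2
    omega
  have := e (J.map Function.Embedding.inl) g (by rw [Finset.card_map, hJ])
    ⟨hsub, ha.2.1, fun _ _ => trivial⟩
  rw [Pi.sub_apply, Pi.sub_apply, Pi.sub_apply, Pi.sub_apply, z₁, z₂, sub_zero, sub_zero,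
    MainStep_ext_inl, MainStep_dl_map] at this
  exact this

end Crest.Agent.R66
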