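import Crest.Agent.R66.Shell

/-! Task R66-Morse: the Morse function attached to a character. -/
set_option autoImplicit false
set_option linter.unusedSectionVars false
namespace Crest.Agent.R66
open Finset

variable {I G M : Type} [DecidableEq I] [Group G] [Finite G] [AddCommGroup M] [Module (ZMod 2) M]

theorem Morse_cut {n : ℕ} (a : ℕ) {r : ℕ} (hr : r < n) : ∃ c, a ≤ c ∧ c < a + n ∧ c % n = r := by
  have hn : 0 < n := by omega
  refine ⟨a + (r + n - a % n) % n, by omega, by have := Nat.mod_lt (r + n - a % n) hn; omega, ?_⟩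
  have h1 := Nat.div_add_mod a n
  have h2 := Nat.mod_lt a hn
  have h3 : a + (r + n - a % n) = r + n * (a / n + 1) := by rw [mul_add]; omega
  rw [Nat.add_mod_mod, h3, Nat.add_mul_mod_self_left, Nat.mod_eq_of_lt hr]

theorem Morse_lev {a c t k : ℕ} (hk : k ≤ t) : a * (t + 1) ≤ c * (t + 1) + k ↔ a ≤ c := by
  constructor
  · intro h
    by_contra h'
    have := Nat.mul_le_mul_right (t + 1) (show c + 1 ≤ a by omega)
    rw [add_mul] at this
    omega
  · intro h
    exact (Nat.mul_le_mul_right _ h).trans (Nat.le_add_right _ _)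

/-
PLAN.  `good c g := ∀ q ∈ F c, g q g⁻¹ ∈ N` (antitone in `c`; true for `c < n`; false for `c ≥ c₀` where
`Q ≤ F c₀`, `g ∈ S'`, by `hnorm` and `hN`).  `lam j g := Nat.findGreatest (fun c => c % n = r j ∧ good c g) (c₀ + n)`
(classical).  For `j ∈ T`, `g ∈ S'`: `lam j g % n = r j`, `good (lam j g) g`, every `c ≡ r j` with `good c g` is
`≤ lam j g`; invariance under `S' ⊓ K j` by `stab` (for `k` and `k⁻¹`); distinct types have distinct levels.
For `J ⊆ T`: `Bad K Q N J g ↔ a ≤ mxl lam J g` (`J = ∅`: not bad; else take `j₀ ∈ J` with the least cut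
`c_j ∈ [a, a+n)`, `c_j % n = r j`; `Q ⊓ K_J = F c_{j₀}` by `cut`, `mono`), and
`a ≤ mxl ↔ a (T.card+1) ≤ lev`.  Apply `shell` with `ok = True`, `L₀ = a (T.card + 1)`: stars have `ρ = {j}`,
`c = lam j g₀`, `N' = N.comap (MulAut.conj g₀)`, `F c ≤ N'`, `¬ F (c+n) ≤ N'`, and for `i ∈ T \ {j}`,
`k ∈ S' ⊓ K j`: `lam i (g₀ k) < c ↔ okF n r F N' c i k` (`Ex.congr`).
-/
theorem relEx_of_filt {K : I → Subgroup G} {S' Q : Subgroup G} {T : Finset I} {n a : ℕ}
    {r : I → ℕ} {F : ℕ → Subgroup G} (hF : Filt K S' Q T n a r F)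
    (hnorm : ∀ s ∈ S', ∀ q ∈ Q, s * q * s⁻¹ ∈ Q) {m : ℕ}
    (hlink : ∀ j ∈ T, ∀ c, a ≤ c → c % n = r j → ∀ N : Subgroup G, F c ≤ N → ¬ F (c + n) ≤ N →
      1 ≤ m → Ex M K (S' ⊓ KJ K {j}) (alw (S' ⊓ KJ K {j}) (T \ {j}) (okF n r F N c)) (m - 1))
    (N : Subgroup G) (hN : ¬ Q ≤ N) : RelEx M K S' T Q N m := by
  classical
  obtain ⟨c₀, hc₀⟩ := hF.top
  let good : ℕ → G → Prop := fun c g => ∀ q ∈ F c, g * q * g⁻¹ ∈ N
  have hQ : ∀ g ∈ S', ¬ ∀ q ∈ Q, g * q * g⁻¹ ∈ N := by
    intro g hg h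
    refine hN fun q hq => ?_
    have := h _ (hnorm g⁻¹ (S'.inv_mem hg) q hq)
    simpa [mul_assoc] using this
  have not_good : ∀ g ∈ S', ∀ c, good c g → c < c₀ := by
    intro g hg c h
    by_contra h'
    exact hQ g hg fun q hq => h q (hF.mono (not_lt.1 h') (hc₀ hq))
  let lam : I → G → ℕ := fun j g => Nat.findGreatest (fun c => c % n = r j ∧ good c g) (c₀ + n)
  have spec : ∀ j ∈ T, ∀ g, lam j g % n = r j ∧ good (lam j g) g := by
    intro j hj g
    have hr := hF.r_lt j hj
    refine Nat.findGreatest_spec (P := fun c => c % n = r j ∧ good c g) (m := r j) (by omega)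
      ⟨Nat.mod_eq_of_lt hr, fun q hq => ?_⟩
    rw [hF.bot _ hr, Subgroup.mem_bot] at hq
    simp [hq]
  have hmax : ∀ j, ∀ g ∈ S', ∀ c, c % n = r j → good c g → c ≤ lam j g := by
    intro j g hg c h1 h2
    have := not_good g hg c h2
    exact Nat.le_findGreatest (P := fun c => c % n = r j ∧ good c g) (by omega) ⟨h1, h2⟩
  have hlam : ∀ j ∈ T, ∀ g ∈ S', ∀ k ∈ S', k ∈ K j → lam j (g * k) = lam j g := by
    intro j hj g _ k hk hkj
    have : (fun c => c % n = r j ∧ good c (g * k)) = fun c => c % n = r j ∧ good c g := by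
      funext c
      refine propext (and_congr_right fun hc => ⟨fun h q hq => ?_, fun h q hq => ?_⟩)
      · have := h _ (hF.stab j hj c hc k⁻¹ (S'.inv_mem hk) ((K j).inv_mem hkj) q hq)
        simpa [mul_assoc] using this
      · have := h _ (hF.stab j hj c hc k hk hkj q hq)
        simpa [mul_assoc] using this
    simp only [lam, this]
  have hbad : ∀ J ⊆ T, ∀ g ∈ S', (Bad K Q N J g ↔ a ≤ mxl lam J g) := by
    intro J hJ g hg
    choose! cut h1 h2 h3 using fun j (hj : j ∈ T) => Morse_cut a (hF.r_lt j hj)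
    constructor
    · intro hb
      rcases J.eq_empty_or_nonempty with rfl | hne
      · exact absurd (fun q hq => hb q hq (by simp)) (hQ g hg)
      · obtain ⟨j, hj, hmin⟩ := J.exists_min_image cut hne
        have hjT := hJ hj
        have hg' : good (cut j) g := fun q hq =>
          hb q ((hF.cut j hjT _ (h1 j hjT) (h2 j hjT) (h3 j hjT) q).2 hq).1 fun i hi =>
            ((hF.cut i (hJ hi) _ (h1 i (hJ hi)) (h2 i (hJ hi)) (h3 i (hJ hi)) q).2
              (hF.mono (hmin i hi) hq)).2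
        exact (h1 j hjT).trans ((hmax j g hg _ (h3 j hjT) hg').trans
          (Finset.le_sup (f := fun j => lam j g) hj))
    · intro ha q hq hqJ
      obtain ⟨j, hj, hle⟩ := (Finset.le_sup_iff (f := fun j => lam j g) hF.apos).1 ha
      have hjT := hJ hj
      have hle' : cut j ≤ lam j g :=
        Nat.ModEq.le_of_lt_add (m := n) ((h3 j hjT).trans (spec j hjT g).1.symm)
          (by have := h2 j hjT; omega)
      exact (spec j hjT g).2 q (hF.mono hle'
        ((hF.cut j hjT _ (h1 j hjT) (h2 j hjT) (h3 j hjT) q).1 ⟨hq, hqJ j hj⟩))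
  have hlev : ∀ J ⊆ T, ∀ g ∈ S', (Bad K Q N J g ↔ a * (T.card + 1) ≤ lev T lam J g) := by
    intro J hJ g hg
    rw [hbad J hJ g hg]
    exact (Morse_lev (card_le_card ((filter_subset _ _).trans hJ))).symm
  intro f hf hc hz
  refine (shell (M := M) (K := K) (H := S') (T := T) (ok := fun _ _ => True)
    (lam := lam) (okInv_true T) hlam (L₀ := a * (T.card + 1))
    (Nat.mul_pos hF.apos (Nat.succ_pos _)) (m := m) ?_ hf hc
    (fun J g hJ ha hl => hz J g hJ ha fun hb =>
      absurd ((hlev J ha.1 g ha.2.1).1 hb) (not_le.2 hl))).elim ?_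
  swap
  · rintro y ⟨hy, h1, h2⟩
    refine ⟨y, hy, fun J g hg hb => ?_, h2⟩
    by_contra h
    exact hb ((hlev J (h1 J g h).1.1 g hg).2 (h1 J g h).2)
  · intro ρ g₀ c ha hρ hc hL hm
    obtain ⟨j, hj⟩ := hρ
    have hjT := ha.1 hj
    have hg₀ : g₀ ∈ S' := ha.2.1
    have hcj : c % n = r j := by rw [← hc j hj]; exact (spec j hjT g₀).1
    obtain rfl : ρ = {j} := by
      refine Finset.eq_singleton_iff_unique_mem.2 ⟨hj, fun i hi => hF.r_inj i (ha.1 hi) j hjT ?_⟩
      rw [← hcj, ← hc i hi]; exact (spec i (ha.1 hi) g₀).1.symm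
    have hac : a ≤ c := (Morse_lev (card_le_card ha.1)).1 hL
    rw [card_singleton] at hm ⊢
    have hgood : good c g₀ := by rw [← hc j hj]; exact (spec j hjT g₀).2
    refine (hlink j hjT c hac hcj (N.comap (MulAut.conj g₀).toMonoidHom) (fun q hq => hgood q hq)
      (fun h => ?_) hm).congr fun J k => ?_
    · have := hmax j g₀ hg₀ (c + n) (by rw [Nat.add_mod_right, hcj]) fun q hq => h hq
      have h3 := hF.npos
      rw [hc j hj] at this
      omega
    · refine and_congr_right fun hJ => and_congr_right fun hk => forall₂_congr fun i hi => ?_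
      have hiT : i ∈ T := (mem_sdiff.1 (hJ hi)).1
      have hij : i ≠ j := fun h => (mem_sdiff.1 (hJ hi)).2 (mem_singleton.2 h)
      have hgk : g₀ * k ∈ S' := S'.mul_mem hg₀ hk.1
      have key : ∀ c', (∀ q ∈ F c', k * q * k⁻¹ ∈ N.comap (MulAut.conj g₀).toMonoidHom) ↔
          good c' (g₀ * k) := fun c' => forall₂_congr fun q _ => by
        rw [Subgroup.mem_comap]; simp [mul_assoc]
      constructor
      · rintro ⟨-, h⟩ c' h1 h2 h3
        have := hmax i _ hgk c' h1 ((key c').1 h3)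
        omega
      · intro h
        refine ⟨trivial, ?_⟩
        have h1 := spec i hiT (g₀ * k)
        have h2 : ¬ c < lam i (g₀ * k) := fun h' => h _ h1.1 h' ((key _).2 h1.2)
        have h3 : lam i (g₀ * k) ≠ c := fun h' =>
          hij (hF.r_inj i hiT j hjT (by rw [← h1.1, h', hcj]))
        omega

end Crest.Agent.R66
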