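import Crest.Agent.R66.Basic

/-! Task R66-QChar: decomposition under the characters of an abelian normal subgroup; the
"center kills" averaging argument. -/
set_option autoImplicit false
set_option linter.unusedSectionVars false
namespace Crest.Agent.R66
open Finset

variable {I G : Type} [DecidableEq I] [Group G] [Finite G] {K : I → Subgroup G}

theorem QChar_odd {M : Type} [AddCommGroup M] [Module (ZMod 2) M] {n : ℕ} (hn : Odd n) (x : M) :
    n • x = x := by
  obtain ⟨k, rfl⟩ := hn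
  rw [add_nsmul, one_nsmul, mul_nsmul, two_nsmul, add_self2, nsmul_zero, zero_add]

theorem QChar_odd_sub (hodd : Odd (Nat.card G)) (Q : Subgroup G) : Odd (Nat.card Q) :=
  hodd.of_dvd_nat (Subgroup.card_subgroup_dvd_card Q)

/- PLAN (extension lemma).  For `s ∈ S` write `s = q s'` (`dec`, unique by `disj`), `Y J s := χ q * y J s'`, `0` off `S`.
Invariance under `k = q₁ k'` (`dec`; `q₁, k' ∈ K_J`): `s k = (q · s' q₁ s'⁻¹) · s' k'`; if `y J s' ≠ 0` then
`χ (s' q₁ s'⁻¹) = 1` by `hy0`. -/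
theorem semi_extend {S S' Q : Subgroup G} (hS : Semi K S S' Q) {T : Finset I} {m : ℕ}
    (χ : G → FF) (hχ : ∀ a ∈ Q, ∀ b ∈ Q, χ (a * b) = χ a * χ b)
    {f : Finset I → G → FF} (hf : ∀ J, ∀ q ∈ Q, ∀ g, f J (q * g) = χ q * f J g)
    {y : Finset I → G → FF} (hy : Inv K S' y)
    (hy0 : ∀ J, ∀ g ∈ S', y J g ≠ 0 → ∀ q ∈ Q, (∀ j ∈ J, q ∈ K j) → χ (g * q * g⁻¹) = 1)
    (e : ∀ J g, J.card = m → full S' T J g → f J g = dl y J g) : Cob K S (full S T) m f := by
  classical
  choose! qf hq sf hs hdec hK using hS.dec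
  have uniq : ∀ s ∈ S, ∀ q ∈ Q, ∀ s' ∈ S', s = q * s' → qf s = q ∧ sf s = s' := by
    intro s hsS q hqQ s' hs' h
    have h1 : q⁻¹ * qf s = s' * (sf s)⁻¹ := by
      have h0 : q * s' = qf s * sf s := h.symm.trans (hdec s hsS)
      calc q⁻¹ * qf s = q⁻¹ * (qf s * sf s) * (sf s)⁻¹ := by group
        _ = s' * (sf s)⁻¹ := by rw [← h0]; group
    have h2 : q⁻¹ * qf s = 1 := hS.disj _ (Q.mul_mem (Q.inv_mem hqQ) (hq s hsS))
      (h1 ▸ S'.mul_mem hs' (S'.inv_mem (hs s hsS)))
    exact ⟨(inv_mul_eq_one.1 h2).symm, (mul_inv_eq_one.1 (h1 ▸ h2)).symm⟩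
  refine ⟨fun J s => if s ∈ S then χ (qf s) * y J (sf s) else 0, fun J s k hk hJ => ?_,
    fun J s hJ ha => ?_⟩
  · by_cases hsS : s ∈ S
    · have hsk : s * k ∈ S := S.mul_mem hsS hk
      have hc : sf s * qf k * (sf s)⁻¹ ∈ Q := hS.norm _ (hs s hsS) _ (hq k hk)
      obtain ⟨e1, e2⟩ := uniq (s * k) hsk (qf s * (sf s * qf k * (sf s)⁻¹))
        (Q.mul_mem (hq s hsS) hc) (sf s * sf k) (S'.mul_mem (hs s hsS) (hs k hk))
        (by conv_lhs => rw [hdec s hsS, hdec k hk]
            group)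
      have hqK : ∀ j ∈ J, qf k ∈ K j := fun j hj => hK k hk j (hJ j hj)
      have hsK : ∀ j ∈ J, sf k ∈ K j := fun j hj => by
        have : sf k = (qf k)⁻¹ * k := by rw [eq_inv_mul_iff_mul_eq]; exact (hdec k hk).symm
        rw [this]; exact (K j).mul_mem ((K j).inv_mem (hqK j hj)) (hJ j hj)
      simp only [if_pos hsS, if_pos hsk]
      rw [e1, e2, hy J _ _ (hs k hk) hsK, hχ _ (hq s hsS) _ hc]
      by_cases h0 : y J (sf s) = 0
      · rw [h0, mul_zero, mul_zero]
      · rw [hy0 J _ (hs s hsS) h0 _ (hq k hk) hqK, mul_one]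
    · have hsk : s * k ∉ S := fun h => hsS (by simpa using S.mul_mem h (S.inv_mem hk))
      simp only [if_neg hsS, if_neg hsk]
  · have hsS : s ∈ S := ha.2.1
    have h1 : f J s = χ (qf s) * f J (sf s) := by
      conv_lhs => rw [hdec s hsS]
      exact hf J _ (hq s hsS) _
    rw [h1, e J _ hJ ⟨ha.1, hs s hsS, fun _ _ => trivial⟩]
    simp only [dl, if_pos hsS, Finset.mul_sum]

/- PLAN.  `↥Q` is a finite commutative group of odd order (`comm`; build the `CommGroup` structure),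
`HasEnoughRootsOfUnity FF (Monoid.exponent Q)` (`NeZero (exponent : ZMod 2)`).  For `χ : Q →* FFˣ` put
`f^χ J g = ∑_{q : Q} (χ q)⁻¹ f J (q g)`; `∑_χ f^χ = |Q̂| f = f` (`∑_χ (χ q)⁻¹ = 0` for `q ≠ 1` by
`CommGroup.exists_apply_ne_one_of_hasEnoughRootsOfUnity`; `card_monoidHom_of_hasEnoughRootsOfUnity`, odd
numbers are `1` in `FF`).  For `χ ≠ 1`, `N = χ.ker.map Q.subtype`: `f^χ` is invariant, a cocycle, vanishes off
`Bad` (if `q₁ ∈ Q ⊓ K_J`, `f^χ J g = f^χ J (g q₁) = χ(g q₁ g⁻¹) f^χ J g`), so `hrel` + `semi_extend` give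
`Cob K S … f^χ`.  Hence `f - f¹` is a coboundary on `S`. -/
theorem semi_avg (hodd : Odd (Nat.card G)) {S S' Q : Subgroup G} (hS : Semi K S S' Q)
    {T : Finset I} {m : ℕ} (hrel : ∀ N : Subgroup G, ¬ Q ≤ N → RelEx FF K S' T Q N m)
    {f : Finset I → G → FF} (hf : Inv K S f) (hc : Cocyc (full S T) m f) :
    ∃ f₁ : Finset I → G → FF, Inv K S f₁ ∧ (∀ J, ∀ q ∈ Q, ∀ g, f₁ J (q * g) = f₁ J g) ∧
      Cob K S (full S T) m (f - f₁) := by
  classical
  letI : CommGroup Q :=
    { (inferInstance : Group Q) with mul_comm := fun a b => Subtype.ext (hS.comm a a.2 b b.2) }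
  letI : Fintype Q := Fintype.ofFinite Q
  have hoQ := QChar_odd_sub hodd Q
  haveI : NeZero ((Monoid.exponent Q : ℕ) : ZMod 2) := by
    have h1 : Odd (Monoid.exponent Q) := hoQ.of_dvd_nat Group.exponent_dvd_nat_card
    exact ⟨by rw [h1.natCast_zmod_two]; exact one_ne_zero⟩
  have hcard : Nat.card (Q →* FFˣ) = Nat.card Q :=
    CommGroup.card_monoidHom_of_hasEnoughRootsOfUnity Q FF
  haveI : Finite (Q →* FFˣ) := Nat.finite_of_card_ne_zero (by rw [hcard]; exact hoQ.pos.ne')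
  letI : Fintype (Q →* FFˣ) := Fintype.ofFinite _
  let F : (Q →* FFˣ) → Finset I → G → FF := fun χ J g => ∑ q : Q, (χ q : FF) * f J ((q : G)⁻¹ * g)
  have hFinv : ∀ χ, Inv K S (F χ) := fun χ J g k hk hJ =>
    Finset.sum_congr rfl fun q _ => by rw [← mul_assoc, hf J _ k hk hJ]
  have hFeq : ∀ χ J (q : Q) g, F χ J (q * g) = χ q * F χ J g := by
    intro χ J q g
    simp only [F, Finset.mul_sum]
    rw [← Equiv.sum_comp (Equiv.mulLeft q)]
    refine Finset.sum_congr rfl fun q' _ => ?_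
    simp [mul_assoc]
  have hFc : ∀ χ, Cocyc (full S T) m (F χ) := by
    intro χ J g hJ ha
    simp only [dl, F]
    rw [Finset.sum_comm]
    refine Finset.sum_eq_zero fun q _ => ?_
    rw [← Finset.mul_sum]
    have := hc J ((q : G)⁻¹ * g) hJ
      ⟨ha.1, S.mul_mem (S.inv_mem (hS.q_le q.2)) ha.2.1, fun _ _ => trivial⟩
    simp only [dl] at this
    rw [this, mul_zero]
  have hFcob : ∀ χ, χ ≠ 1 → Cob K S (full S T) m (F χ) := by
    intro χ hχ
    have hmem : ∀ g (hg : g ∈ Q), g ∈ χ.ker.map Q.subtype ↔ (χ ⟨g, hg⟩ : FF) = 1 := by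
      intro g hg
      rw [Units.val_eq_one, ← MonoidHom.mem_ker]
      exact Subgroup.mem_map_iff_mem (f := Q.subtype) (x := ⟨g, hg⟩) Subtype.val_injective
    have hN : ¬ Q ≤ χ.ker.map Q.subtype := fun h =>
      hχ (MonoidHom.ext fun q => Units.val_eq_one.1 ((hmem q q.2).1 (h q.2)))
    obtain ⟨y, hy, hy0, e⟩ := hrel _ hN (F χ) ((hFinv χ).mono hS.s_le)
      ((hFc χ).mono (full_mono hS.s_le subset_rfl)) (by
        intro J g _ ha hb
        simp only [Bad, not_forall] at hb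
        obtain ⟨q, hq, hqJ, hb⟩ := hb
        have hcq : g * q * g⁻¹ ∈ Q := hS.norm g ha.2.1 q hq
        have h1 := hFeq χ J ⟨_, hcq⟩ g
        have h2 : g * q * g⁻¹ * g = g * q := by group
        simp only [h2] at h1
        rw [hFinv χ J g q (hS.q_le hq) hqJ] at h1
        by_contra h0
        exact hb ((hmem _ hcq).2 (mul_right_cancel₀ h0 (by rw [← h1, one_mul]))))
    refine semi_extend hS (fun g => if h : g ∈ Q then (χ ⟨g, h⟩ : FF) else 0) ?_ ?_ hy ?_ e
    · intro a ha b hb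
      rw [dif_pos ha, dif_pos hb, dif_pos (Q.mul_mem ha hb), ← Units.val_mul, ← map_mul]
      rfl
    · intro J q hq g
      rw [dif_pos hq]
      exact hFeq χ J ⟨q, hq⟩ g
    · intro J g hg h0 q hq hqJ
      have hcq : g * q * g⁻¹ ∈ Q := hS.norm g hg q hq
      rw [dif_pos hcq, ← hmem]
      by_contra h
      exact h0 (hy0 J g hg fun hb => h (hb q hq hqJ))
  have hsum : ∀ J g, ∑ χ, F χ J g = f J g := by
    intro J g
    simp only [F]
    rw [Finset.sum_comm, Finset.sum_eq_single (1 : Q)]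
    · simp only [map_one, Units.val_one, one_mul, OneMemClass.coe_one, inv_one, Finset.sum_const,
        Finset.card_univ]
      exact QChar_odd (by rw [← Nat.card_eq_fintype_card, hcard]; exact hoQ) _
    · intro q _ hq
      rw [← Finset.sum_mul]
      obtain ⟨φ, hφ⟩ := CommGroup.exists_apply_ne_one_of_hasEnoughRootsOfUnity Q FF hq
      have := sum_hom_units_eq_zero
        ((Units.coeHom FF).comp (MonoidHom.eval q : (Q →* FFˣ) →* FFˣ)) fun h =>
          hφ (Units.val_eq_one.1 (DFunLike.congr_fun h φ))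
      rw [show (∑ χ : Q →* FFˣ, (χ q : FF)) = 0 from this, zero_mul]
    · simp
  refine ⟨F 1, hFinv 1, fun J q hq g => by simpa using hFeq 1 J ⟨q, hq⟩ g, ?_⟩
  refine (Cob.sum (univ.erase 1) fun χ hχ => hFcob χ (ne_of_mem_erase hχ)).congr fun J g _ _ => ?_
  rw [Pi.sub_apply, Pi.sub_apply, ← hsum J g, ← Finset.add_sum_erase _ _ (mem_univ 1)]
  exact add_sub_cancel_left _ _

/- PLAN: `f - f(q·) = (f - f₁) - (f - f₁)(q ·)`; `Cob.transl`. -/
theorem semi_Qa (hodd : Odd (Nat.card G)) {S S' Q : Subgroup G} (hS : Semi K S S' Q)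
    {T : Finset I} {m : ℕ} (hrel : ∀ N : Subgroup G, ¬ Q ≤ N → RelEx FF K S' T Q N m)
    {f : Finset I → G → FF} (hf : Inv K S f) (hc : Cocyc (full S T) m f) {q : G} (hq : q ∈ Q) :
    Cob K S (full S T) m (fun J g => f J g - f J (q * g)) := by
  obtain ⟨f₁, -, h1, h2⟩ := semi_avg hodd hS hrel hf hc
  refine (h2.sub (h2.transl (hS.q_le hq))).congr fun J g _ _ => ?_
  simp only [Pi.sub_apply, h1 J q hq g]
  abel

/- PLAN: `f₁ = f - (f - f₁)` is a coboundary on `S'`; `semi_extend` with `χ = 1`. -/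
theorem semi_Qb (hodd : Odd (Nat.card G)) {S S' Q : Subgroup G} (hS : Semi K S S' Q)
    {T : Finset I} {m : ℕ} (hrel : ∀ N : Subgroup G, ¬ Q ≤ N → RelEx FF K S' T Q N m)
    {f : Finset I → G → FF} (hf : Inv K S f) (hc : Cocyc (full S T) m f)
    (h : Cob K S' (full S' T) m f) : Cob K S (full S T) m f := by
  obtain ⟨f₁, -, h1, h2⟩ := semi_avg hodd hS hrel hf hc
  obtain ⟨y, hy, e⟩ := h.sub (h2.mono hS.s_le (full_mono hS.s_le subset_rfl))
  have h3 : Cob K S (full S T) m f₁ :=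
    semi_extend hS (fun _ => 1) (fun _ _ _ _ => (one_mul _).symm)
      (fun J q hq g => by rw [h1 J q hq g, one_mul]) hy (fun _ _ _ _ _ _ _ => rfl)
      fun J g hJ ha => by rw [← e J g hJ ha]; simp
  exact (h2.add h3).congr fun J g _ _ => by simp

/- PLAN.  `D = {d ∈ H | ∀ f, Inv → Cocyc → Cob K G' (full G' T') m (f - f(d ·))}` is a subgroup (`subOfMul`:
`f - f(d d' ·) = (f - f(d' ·)) + (f_d' … )`: apply the property of `d'` to the cocycle `f(d ·)`), contains `X`, is
normalised by its own elements and by `G'` (`Cob.transl`), hence by `H` (`hgen1`).  By `hgen2` and closure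
induction every `k ∈ H ⊓ K_J` is `d k'` with `d ∈ D`, `k' ∈ H ⊓ K_J ⊓ K_e`... precisely: `k = d * k'`,
`k' ∈ H`, `k' ∈ K j (j ∈ J)`, `k' ∈ K e`.  WLOG `g = 1` (`f (g ·)` is again an invariant cocycle).
`f̄ J g = ∑_{d ∈ D} f J (d g)` is an invariant cocycle, left `D`-invariant, and a coboundary on `H`:
`y J g = if g ∈ H ∧ e ∉ J then f̄ (insert e J) g else 0` (invariant by the factorisation and normality).
`f - f̄ = ∑_d (f - f(d ·))` as `|D|` is odd; each term is a coboundary on `S1` by `hinj`. -/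
theorem center_kill {M : Type} [AddCommGroup M] [Module (ZMod 2) M] (hodd : Odd (Nat.card G))
    {H S1 G' : Subgroup G} (h1 : S1 ≤ H) (h2 : G' ≤ H) {T T' : Finset I} {e : I} (he : e ∈ T)
    {m : ℕ} {X : Set G} (hX : ∀ x ∈ X, x ∈ H)
    (hq : ∀ x ∈ X, ∀ f : Finset I → G → M, Inv K H f → Cocyc (full H T) m f →
      Cob K G' (full G' T') m (fun J g => f J g - f J (x * g)))
    (hgen1 : H ≤ Subgroup.closure (X ∪ G'))
    (hgen2 : ∀ J : Finset I, ∀ k ∈ H, (∀ j ∈ J, k ∈ K j) → k ∈ Subgroup.closure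
      {x | x ∈ H ∧ (∀ j ∈ J, x ∈ K j) ∧ (x ∈ K e ∨ x ∈ Subgroup.closure X)})
    (hinj : ∀ ω : Finset I → G → M, Inv K S1 ω → Cocyc (full S1 T) m ω →
      Cob K G' (full G' T') m ω → Cob K S1 (full S1 T) m ω)
    {f : Finset I → G → M} (hf : Inv K H f) (hc : Cocyc (full H T) m f) {g : G} (hg : g ∈ H) :
    Cob K S1 (full S1 T) m (fun J k => f J (g * k)) := by
  classical
  let D : Subgroup G := subOfMul {d | d ∈ H ∧ ∀ f : Finset I → G → M, Inv K H f →
      Cocyc (full H T) m f → Cob K G' (full G' T') m (fun J g => f J g - f J (d * g))}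
    ⟨H.one_mem, fun f _ _ => Cob.zero.congr fun J g _ _ => by simp⟩
    (by
      rintro d ⟨hd, hd'⟩ d' ⟨he1, he2⟩
      refine ⟨H.mul_mem hd he1, fun f hf hc => ?_⟩
      refine ((hd' f hf hc).add (he2 _ (hf.transl d) (hc.transl hd))).congr fun J g _ _ => ?_
      simp [mul_assoc])
  have memD : ∀ d, d ∈ D ↔ d ∈ H ∧ ∀ f : Finset I → G → M, Inv K H f →
      Cocyc (full H T) m f → Cob K G' (full G' T') m (fun J g => f J g - f J (d * g)) :=
    fun _ => Iff.rfl
  have hXD : Subgroup.closure X ≤ D :=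
    (Subgroup.closure_le D).2 fun x hx => (memD x).2 ⟨hX x hx, hq x hx⟩
  have hnorm : ∀ a ∈ H, ∀ d ∈ D, a * d * a⁻¹ ∈ D := by
    let W : Subgroup G := subOfMul {a | ∀ d ∈ D, a * d * a⁻¹ ∈ D} (fun d hd => by simpa using hd)
      (fun a ha b hb d hd => by
        have := ha _ (hb d hd)
        simpa [mul_assoc] using this)
    have : Subgroup.closure (X ∪ G') ≤ W := by
      refine (Subgroup.closure_le W).2 ?_
      rintro a (ha | ha) d hd
      · have haD : a ∈ D := hXD (Subgroup.subset_closure ha)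
        exact D.mul_mem (D.mul_mem haD hd) (D.inv_mem haD)
      · have haH : a ∈ H := h2 ha
        refine (memD _).2 ⟨H.mul_mem (H.mul_mem haH ((memD d).1 hd).1) (H.inv_mem haH),
          fun f hf hc => ?_⟩
        refine ((((memD d).1 hd).2 _ (hf.transl a) (hc.transl haH)).transl
          (G'.inv_mem ha)).congr fun J g _ _ => ?_
        simp [mul_assoc]
    exact fun a ha => this (hgen1 ha)
  have hfac : ∀ J : Finset I, ∀ k ∈ H, (∀ j ∈ J, k ∈ K j) →
      ∃ d ∈ D, ∃ k' ∈ H, (∀ j ∈ J, k' ∈ K j) ∧ k' ∈ K e ∧ k = d * k' := by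
    intro J k hk hJ
    let W : Subgroup G :=
      subOfMul {k | ∃ d ∈ D, ∃ k' ∈ H, (∀ j ∈ J, k' ∈ K j) ∧ k' ∈ K e ∧ k = d * k'}
        ⟨1, D.one_mem, 1, H.one_mem, fun j _ => (K j).one_mem, (K e).one_mem, by simp⟩
        (by
          rintro _ ⟨d, hd, k, hk, hJ, hke, rfl⟩ _ ⟨d', hd', k', hk', hJ', hke', rfl⟩
          exact ⟨d * (k * d' * k⁻¹), D.mul_mem hd (hnorm k hk d' hd'), k * k', H.mul_mem hk hk',
            fun j hj => (K j).mul_mem (hJ j hj) (hJ' j hj), (K e).mul_mem hke hke', by group⟩)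
    refine (Subgroup.closure_le W).2 ?_ (hgen2 J k hk hJ)
    rintro x ⟨hx, hxJ, hx' | hx'⟩
    · exact ⟨1, D.one_mem, x, hx, hxJ, hx', by simp⟩
    · exact ⟨x, hXD hx', 1, H.one_mem, fun j _ => (K j).one_mem, (K e).one_mem, by simp⟩
  letI : Fintype D := Fintype.ofFinite D
  suffices main : ∀ f : Finset I → G → M, Inv K H f → Cocyc (full H T) m f →
      Cob K S1 (full S1 T) m f from main _ (hf.transl g) (hc.transl hg)
  intro f hf hc
  let F : Finset I → G → M := fun J g => ∑ d : D, f J (d * g)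
  have hFinv : Inv K H F := Inv.sum univ fun (d : D) _ => hf.transl d
  have hFD : ∀ J, ∀ d ∈ D, ∀ g, F J (d * g) = F J g := by
    intro J d hd g
    simp only [F]
    rw [← Equiv.sum_comp (Equiv.mulRight (⟨d, hd⟩ : D)) (fun d' : D => f J (d' * g))]
    refine Finset.sum_congr rfl fun q' _ => ?_
    simp [mul_assoc]
  have hFc : Cocyc (full H T) m F := by
    intro J g hJ ha
    simp only [dl, F]
    rw [Finset.sum_comm]
    exact Finset.sum_eq_zero fun d _ =>
      hc J (d * g) hJ ⟨ha.1, H.mul_mem ((memD d).1 d.2).1 ha.2.1, fun _ _ => trivial⟩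
  have hFcob : Cob K H (full H T) m F := by
    refine ⟨fun J g => if g ∈ H ∧ e ∉ J then F (insert e J) g else 0, fun J g k hk hJ => ?_,
      fun J g hJ ha => ?_⟩
    · have hiff : g * k ∈ H ↔ g ∈ H := H.mul_mem_cancel_right hk
      simp only [hiff]
      split_ifs with h
      · obtain ⟨d, hd, k', hk', hJ', hke, rfl⟩ := hfac J k hk hJ
        have : g * (d * k') = g * d * g⁻¹ * (g * k') := by group
        rw [this, hFD _ _ (hnorm g h.1 d hd), hFinv _ g k' hk']
        intro j hj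
        rcases mem_insert.1 hj with rfl | hj
        · exact hke
        · exact hJ' j hj
      · rfl
    · have hgH : g ∈ H := ha.2.1
      simp only [dl]
      by_cases heJ : e ∈ J
      · rw [Finset.sum_eq_single e, if_pos ⟨hgH, notMem_erase e J⟩, insert_erase heJ]
        · intro j _ hj
          exact if_neg fun h => h.2 (mem_erase.2 ⟨hj.symm, heJ⟩)
        · exact fun h => absurd heJ h
      · have h0 := hFc (insert e J) g (by rw [card_insert_of_notMem heJ, hJ])
          ⟨insert_subset he ha.1, hgH, fun _ _ => trivial⟩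
        simp only [dl] at h0
        rw [Finset.sum_insert heJ, erase_insert heJ, add_eq_zero_iff_eq_neg, neg_self2] at h0
        rw [h0]
        refine Finset.sum_congr rfl fun j hj => ?_
        have hje : e ≠ j := fun h => heJ (h ▸ hj)
        rw [if_pos ⟨hgH, fun h => heJ (mem_of_mem_erase h)⟩, erase_insert_of_ne hje]
  have hterm : ∀ d : D, Cob K S1 (full S1 T) m (fun J g => f J g - f J (d * g)) := fun d =>
    hinj _ ((hf.sub (hf.transl d)).mono h1)
      ((hc.sub (hc.transl ((memD d).1 d.2).1)).mono (full_mono h1 subset_rfl))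
      (((memD d).1 d.2).2 f hf hc)
  refine ((Cob.sum univ fun d _ => hterm d).add
    (hFcob.mono h1 (full_mono h1 subset_rfl))).congr fun J g _ _ => ?_
  simp only [Pi.add_apply, F, Finset.sum_sub_distrib, sub_add_cancel, Finset.sum_const,
    Finset.card_univ]
  exact (QChar_odd (by rw [← Nat.card_eq_fintype_card]; exact QChar_odd_sub hodd D) _).symm

end Crest.Agent.R66
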