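import Crest.Agent.R66.Basic

/-! Task R66-Shell: discrete Morse / shelling lemma for cochains. -/
set_option autoImplicit false
set_option linter.unusedSectionVars false
namespace Crest.Agent.R66
open Finset

variable {I G M : Type} [DecidableEq I] [Group G] [AddCommGroup M]
  {K : I → Subgroup G} {H : Subgroup G} {T : Finset I} {ok : I → G → Prop} {lam : I → G → ℕ}

private theorem Shell_le_mxl {J : Finset I} {g : G} {j : I} (hj : j ∈ J) :
    lam j g ≤ mxl lam J g := Finset.le_sup (f := fun j => lam j g) hj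

private theorem Shell_mem_tp {J : Finset I} {g : G} {j : I} :
    j ∈ tp lam J g ↔ j ∈ J ∧ lam j g = mxl lam J g := Finset.mem_filter

private theorem Shell_tp_subset (J : Finset I) (g : G) : tp lam J g ⊆ J := Finset.filter_subset _ _

private theorem Shell_tp_nonempty {J : Finset I} (hJ : J.Nonempty) (g : G) :
    (tp lam J g).Nonempty := by
  obtain ⟨i, hi, e⟩ := Finset.exists_mem_eq_sup J hJ (fun j => lam j g)
  exact ⟨i, Shell_mem_tp.2 ⟨hi, e.symm⟩⟩

private theorem Shell_congr {J : Finset I} {g g' : G} (h : ∀ j ∈ J, lam j g' = lam j g) :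
    mxl lam J g' = mxl lam J g ∧ tp lam J g' = tp lam J g := by
  have h1 : mxl lam J g' = mxl lam J g := Finset.sup_congr rfl h
  refine ⟨h1, ?_⟩
  unfold tp
  exact Finset.filter_congr fun j hj => by rw [h1, h j hj]

/-- removing a vertex of maximal level lowers `lev` -/
theorem lev_erase_lt {J : Finset I} (hJ : J ⊆ T) {g : G} {j : I} (hj : j ∈ tp lam J g) :
    lev T lam (J.erase j) g < lev T lam J g := by
  have hle : mxl lam (J.erase j) g ≤ mxl lam J g := Finset.sup_mono (Finset.erase_subset _ _)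
  unfold lev
  rcases hle.lt_or_eq with h | h
  · have h1 : (tp lam (J.erase j) g).card ≤ T.card :=
      Finset.card_le_card ((Shell_tp_subset _ _).trans ((Finset.erase_subset _ _).trans hJ))
    have h2 : (mxl lam (J.erase j) g + 1) * (T.card + 1) ≤ mxl lam J g * (T.card + 1) :=
      Nat.mul_le_mul_right _ h
    rw [Nat.add_mul] at h2
    omega
  · have h1 : tp lam (J.erase j) g = (tp lam J g).erase j := by
      ext i
      simp only [Shell_mem_tp, Finset.mem_erase, h, and_assoc]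
    rw [h, h1]
    have := Finset.card_erase_lt_of_mem hj
    omega

/-- removing another vertex changes nothing -/
theorem lev_erase_eq {J : Finset I} {g : G} {j : I} (hj : j ∈ J) (hj' : j ∉ tp lam J g) :
    mxl lam (J.erase j) g = mxl lam J g ∧ tp lam (J.erase j) g = tp lam J g := by
  have h1 : mxl lam (J.erase j) g = mxl lam J g := by
    refine le_antisymm (Finset.sup_mono (Finset.erase_subset _ _)) ?_
    obtain ⟨i, hi⟩ := Shell_tp_nonempty (lam := lam) ⟨j, hj⟩ g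
    have hij : i ≠ j := fun h => hj' (h ▸ hi)
    rw [← (Shell_mem_tp.1 hi).2]
    exact Shell_le_mxl (Finset.mem_erase.2 ⟨hij, (Shell_mem_tp.1 hi).1⟩)
  refine ⟨h1, ?_⟩
  ext i
  simp only [Shell_mem_tp, Finset.mem_erase, h1]
  constructor
  · exact fun h => ⟨h.1.2, h.2⟩
  · exact fun h => ⟨⟨fun e => hj' (e ▸ Shell_mem_tp.2 h), h.1⟩, h.2⟩

theorem lev_erase_le {J : Finset I} (hJ : J ⊆ T) (g : G) (j : I) :
    lev T lam (J.erase j) g ≤ lev T lam J g := by
  by_cases h1 : j ∈ tp lam J g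
  · exact (lev_erase_lt hJ h1).le
  by_cases h2 : j ∈ J
  · obtain ⟨e1, e2⟩ := lev_erase_eq h2 h1
    unfold lev
    rw [e1, e2]
  · rw [Finset.erase_eq_of_notMem h2]

/-- a star: `ρ` nonempty of constant level `c`, `J` of lower levels -/
theorem lev_union {J ρ : Finset I} {g : G} {c : ℕ} (hρ : ρ.Nonempty) (h1 : ∀ j ∈ ρ, lam j g = c)
    (h2 : ∀ i ∈ J, lam i g < c) : mxl lam (J ∪ ρ) g = c ∧ tp lam (J ∪ ρ) g = ρ := by
  have e : mxl lam (J ∪ ρ) g = c := by
    apply le_antisymm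
    · refine Finset.sup_le fun i hi => ?_
      rcases Finset.mem_union.1 hi with hi | hi
      · exact (h2 i hi).le
      · exact (h1 i hi).le
    · obtain ⟨j, hj⟩ := hρ
      rw [← h1 j hj]
      exact Shell_le_mxl (Finset.mem_union_right _ hj)
  refine ⟨e, ?_⟩
  ext i
  rw [Shell_mem_tp, e, Finset.mem_union]
  constructor
  · rintro ⟨hi | hi, h⟩
    · exact absurd h (h2 i hi).ne
    · exact hi
  · exact fun hi => ⟨Or.inr hi, h1 i hi⟩

/-- chosen coset representative -/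
private noncomputable def Shell_rep (N : Subgroup G) (g : G) : G :=
  Quotient.out (QuotientGroup.mk g : G ⧸ N)

private theorem Shell_rep_mem (N : Subgroup G) (g : G) : (Shell_rep N g)⁻¹ * g ∈ N := by
  rw [← QuotientGroup.eq]
  exact Quotient.out_eq _

private theorem Shell_rep_mul (N : Subgroup G) (g : G) {k : G} (hk : k ∈ N) :
    Shell_rep N (g * k) = Shell_rep N g := by
  unfold Shell_rep
  rw [QuotientGroup.mk_mul_of_mem g hk]

/- PLAN.  For `(ρ, g₀, c)` as in `hloc` choose a primitive `Y ρ g₀` (junk `0` otherwise).  For `(J, g)` allowed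
with `lev = L` let `ρ = tp lam J g` (nonempty since `L ≥ 1`), `g₀ = Quotient.out` of the coset
`g (H ⊓ KJ K ρ)` in `G ⧸ (H ⊓ KJ K ρ)` (so `g₀⁻¹ g ∈ H ⊓ KJ K ρ`, `(ρ, g₀)` is allowed with constant level
`mxl`), and `y J g := Y ρ g₀ (J \ ρ) (g₀⁻¹ g)`; `y = 0` elsewhere.  `mxl`, `tp`, `lev` are invariant under
`H ⊓ K_J` on allowed simplices.  For card `m` and `lev = L`: faces `J.erase j`, `j ∈ ρ`, have smaller
level, the others have the same `ρ`, `g₀` and `(J.erase j) \ ρ = (J \ ρ).erase j`. -/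
theorem shell_step (hok : OkInv K H T ok)
    (hlam : ∀ j ∈ T, ∀ g ∈ H, ∀ k ∈ H, k ∈ K j → lam j (g * k) = lam j g)
    {L : ℕ} (hL : 1 ≤ L) {m : ℕ} {f : Finset I → G → M}
    (hz : ∀ J g, J.card = m → alw H T ok J g → lev T lam J g < L → f J g = 0)
    (hloc : ∀ ρ g₀ c, alw H T ok ρ g₀ → ρ.Nonempty → (∀ j ∈ ρ, lam j g₀ = c) →
      c * (T.card + 1) + ρ.card = L → ρ.card ≤ m →
      Cob K (H ⊓ KJ K ρ)
        (alw (H ⊓ KJ K ρ) (T \ ρ) (fun i k => ok i (g₀ * k) ∧ lam i (g₀ * k) < c))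
        (m - ρ.card) (fun J k => f (J ∪ ρ) (g₀ * k))) :
    ∃ y : Finset I → G → M, Inv K H y ∧ (∀ J g, y J g ≠ 0 → alw H T ok J g ∧ lev T lam J g = L) ∧
      ∀ J g, J.card = m → alw H T ok J g → lev T lam J g ≤ L → f J g = dl y J g := by
  classical
  have hloc' : ∀ (ρ : Finset I) (g₀ : G) (c : ℕ), ∃ Y : Finset I → G → M,
      Inv K (H ⊓ KJ K ρ) Y ∧ (alw H T ok ρ g₀ → ρ.Nonempty → (∀ j ∈ ρ, lam j g₀ = c) →
        c * (T.card + 1) + ρ.card = L → ρ.card ≤ m → ∀ J k, J.card = m - ρ.card →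
        alw (H ⊓ KJ K ρ) (T \ ρ) (fun i k => ok i (g₀ * k) ∧ lam i (g₀ * k) < c) J k →
        f (J ∪ ρ) (g₀ * k) = dl Y J k) := by
    intro ρ g₀ c
    by_cases h : alw H T ok ρ g₀ ∧ ρ.Nonempty ∧ (∀ j ∈ ρ, lam j g₀ = c) ∧
        c * (T.card + 1) + ρ.card = L ∧ ρ.card ≤ m
    · obtain ⟨Y, hY, e⟩ := hloc ρ g₀ c h.1 h.2.1 h.2.2.1 h.2.2.2.1 h.2.2.2.2
      exact ⟨Y, hY, fun _ _ _ _ _ => e⟩
    · exact ⟨0, Inv.zero, fun a b c d e => absurd ⟨a, b, c, d, e⟩ h⟩
  choose Y hY eY using hloc'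
  let y : Finset I → G → M := fun J g =>
    if alw H T ok J g ∧ lev T lam J g = L then
      Y (tp lam J g) (Shell_rep (H ⊓ KJ K (tp lam J g)) g) (mxl lam J g) (J \ tp lam J g)
        ((Shell_rep (H ⊓ KJ K (tp lam J g)) g)⁻¹ * g)
    else 0
  have hsupp : ∀ J g, y J g ≠ 0 → alw H T ok J g ∧ lev T lam J g = L := by
    intro J g h
    by_contra h'
    exact h (if_neg h')
  refine ⟨y, ?_, hsupp, ?_⟩
  · intro J g k hk hJ
    by_cases ha : alw H T ok J g
    · obtain ⟨e1, e2⟩ := Shell_congr (lam := lam) (J := J) (g := g) (g' := g * k)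
        fun j hj => hlam j (ha.1 hj) g ha.2.1 k hk (hJ j hj)
      have e3 : lev T lam J (g * k) = lev T lam J g := by
        unfold lev
        rw [e1, e2]
      have hk' : k ∈ H ⊓ KJ K (tp lam J g) :=
        ⟨hk, mem_KJ.2 fun j hj => hJ j (Shell_tp_subset _ _ hj)⟩
      simp only [y, alw_mul hok hk hJ, e1, e2, e3, Shell_rep_mul _ g hk']
      split_ifs
      · rw [← mul_assoc]
        exact hY _ _ _ _ _ k hk' fun j hj => hJ j (Finset.mem_sdiff.1 hj).1
      · rfl
    · have ha' : ¬ alw H T ok J (g * k) := fun h => ha ((alw_mul hok hk hJ).1 h)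
      simp only [y, ha, ha', false_and, if_false]
  · intro J g hJ ha hle
    rcases hle.lt_or_eq with hlt | heq
    · rw [hz J g hJ ha hlt]
      refine (Finset.sum_eq_zero fun j _ => ?_).symm
      by_contra h
      have h1 := (hsupp _ _ h).2
      have h2 := lev_erase_le (lam := lam) ha.1 g j
      omega
    · have hJne : J.Nonempty := by
        rw [Finset.nonempty_iff_ne_empty]
        rintro rfl
        simp [lev, mxl, tp] at heq
        omega
      have hρJ : tp lam J g ⊆ J := Shell_tp_subset _ _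
      have hk := Shell_rep_mem (H ⊓ KJ K (tp lam J g)) g
      set g₀ := Shell_rep (H ⊓ KJ K (tp lam J g)) g with hg₀
      have hk1 : (g₀⁻¹ * g)⁻¹ ∈ H := H.inv_mem hk.1
      have hk2 : ∀ j ∈ tp lam J g, (g₀⁻¹ * g)⁻¹ ∈ K j := fun j hj =>
        (K j).inv_mem (mem_KJ.1 hk.2 j hj)
      have eg : g * (g₀⁻¹ * g)⁻¹ = g₀ := by group
      have eg' : g₀ * (g₀⁻¹ * g) = g := by group
      have a1 : alw H T ok (tp lam J g) g₀ := by
        rw [← eg]
        exact (alw_mul hok hk1 hk2).2 (alw_subset ha hρJ)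
      have a2 : ∀ j ∈ tp lam J g, lam j g₀ = mxl lam J g := by
        intro j hj
        rw [← eg, hlam j (ha.1 (hρJ hj)) g ha.2.1 _ hk1 (hk2 j hj)]
        exact (Shell_mem_tp.1 hj).2
      have key := eY (tp lam J g) g₀ (mxl lam J g) a1 (Shell_tp_nonempty hJne g) a2 heq
        (hJ ▸ Finset.card_le_card hρJ) (J \ tp lam J g) (g₀⁻¹ * g)
        (by rw [Finset.card_sdiff_of_subset hρJ, hJ])
        ⟨Finset.sdiff_subset_sdiff ha.1 le_rfl, hk, fun i hi => by
          obtain ⟨hi1, hi2⟩ := Finset.mem_sdiff.1 hi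
          show ok i (g₀ * (g₀⁻¹ * g)) ∧ lam i (g₀ * (g₀⁻¹ * g)) < mxl lam J g
          rw [eg']
          exact ⟨ha.2.2 i hi1, lt_of_le_of_ne (Shell_le_mxl hi1)
            fun h => hi2 (Shell_mem_tp.2 ⟨hi1, h⟩)⟩⟩
      rw [Finset.sdiff_union_of_subset hρJ, eg'] at key
      rw [key, dl, dl, ← Finset.sum_sdiff hρJ, Finset.sum_eq_zero (s := tp lam J g), add_zero]
      · refine Finset.sum_congr rfl fun j hj => ?_
        obtain ⟨hj1, hj2⟩ := Finset.mem_sdiff.1 hj
        obtain ⟨e1, e2⟩ := lev_erase_eq hj1 hj2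
        have e3 : lev T lam (J.erase j) g = L := by
          rw [← heq]
          unfold lev
          rw [e1, e2]
        have e4 : J.erase j \ tp lam J g = (J \ tp lam J g).erase j := by
          ext i
          simp only [Finset.mem_sdiff, Finset.mem_erase, and_assoc]
        simp only [y, alw_subset ha (Finset.erase_subset j J), e1, e2, e3, e4, and_self, if_true,
          ← hg₀]
      · intro j hj
        by_contra h
        have h1 := (hsupp _ _ h).2
        have h2 := lev_erase_lt ha.1 hj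
        omega

/- PLAN: `dl f (J ∪ ρ) (g₀ k) = 0`; the terms `j ∈ ρ` vanish by `hz` (`lev_union`, `lev_erase_lt`). -/
theorem shell_loc (hok : OkInv K H T ok)
    (hlam : ∀ j ∈ T, ∀ g ∈ H, ∀ k ∈ H, k ∈ K j → lam j (g * k) = lam j g)
    {m : ℕ} {f : Finset I → G → M} (hc : Cocyc (alw H T ok) m f)
    {ρ : Finset I} {g₀ : G} {c : ℕ} (ha : alw H T ok ρ g₀) (hρ : ρ.Nonempty)
    (h1 : ∀ j ∈ ρ, lam j g₀ = c) (hm : ρ.card ≤ m)
    (hz : ∀ J g, J.card = m → alw H T ok J g → lev T lam J g < c * (T.card + 1) + ρ.card →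
      f J g = 0) :
    Cocyc (alw (H ⊓ KJ K ρ) (T \ ρ) (fun i k => ok i (g₀ * k) ∧ lam i (g₀ * k) < c))
      (m - ρ.card) (fun J k => f (J ∪ ρ) (g₀ * k)) := by
  intro J k hJ hA
  obtain ⟨b1, b2, b3⟩ := hA
  have hdisj : Disjoint J ρ := Finset.disjoint_left.2 fun i hi => (Finset.mem_sdiff.1 (b1 hi)).2
  have hkρ : ∀ j ∈ ρ, k ∈ K j := mem_KJ.1 b2.2
  have a1 : alw H T ok ρ (g₀ * k) := (alw_mul hok b2.1 hkρ).2 ha
  have a2 : alw H T ok (J ∪ ρ) (g₀ * k) := by
    refine ⟨Finset.union_subset (b1.trans Finset.sdiff_subset) ha.1, a1.2.1, fun j hj => ?_⟩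
    rcases Finset.mem_union.1 hj with hj | hj
    · exact (b3 j hj).1
    · exact a1.2.2 j hj
  have hcard : (J ∪ ρ).card = m + 1 := by
    rw [Finset.card_union_of_disjoint hdisj, hJ]
    omega
  obtain ⟨e1, e2⟩ := lev_union (lam := lam) (J := J) (g := g₀ * k) (c := c) hρ
    (fun j hj => by rw [hlam j (ha.1 hj) g₀ ha.2.1 k b2.1 (hkρ j hj), h1 j hj])
    (fun i hi => (b3 i hi).2)
  have h0 := hc (J ∪ ρ) (g₀ * k) hcard a2
  rw [dl, Finset.sum_union hdisj, Finset.sum_eq_zero (s := ρ), add_zero] at h0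
  · rw [← h0, dl]
    refine Finset.sum_congr rfl fun j hj => ?_
    have : (J ∪ ρ).erase j = J.erase j ∪ ρ := by
      rw [Finset.erase_union_distrib, Finset.erase_eq_of_notMem (Finset.disjoint_left.1 hdisj hj)]
    rw [this]
  · intro j hj
    refine hz _ _ ?_ (alw_subset a2 (Finset.erase_subset _ _)) ?_
    · rw [Finset.card_erase_of_mem (Finset.mem_union_right _ hj), hcard, Nat.add_sub_cancel]
    · have := lev_erase_lt (lam := lam) (g := g₀ * k) (j := j) a2.1 (by rw [e2]; exact hj)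
      rw [lev.eq_def T lam (J ∪ ρ), e1, e2] at this
      exact this

/- PLAN: `lev` is bounded by some `Bd` on allowed simplices (`G` finite, `J ⊆ T`); downward induction on
`L₀` (induct on `Bd + 1 - L₀`): `shell_step` at `L₀` (the local cochain is invariant, and a cocycle by
`shell_loc`), then continue with `f - dl y` (`Cocyc.sub`, `Cocyc.dl`). -/
theorem shell [Finite G] [Module (ZMod 2) M] (hok : OkInv K H T ok)
    (hlam : ∀ j ∈ T, ∀ g ∈ H, ∀ k ∈ H, k ∈ K j → lam j (g * k) = lam j g)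
    {L₀ : ℕ} (hL : 1 ≤ L₀) {m : ℕ}
    (hlink : ∀ ρ g₀ c, alw H T ok ρ g₀ → ρ.Nonempty → (∀ j ∈ ρ, lam j g₀ = c) →
      L₀ ≤ c * (T.card + 1) + ρ.card → ρ.card ≤ m →
      Ex M K (H ⊓ KJ K ρ)
        (alw (H ⊓ KJ K ρ) (T \ ρ) (fun i k => ok i (g₀ * k) ∧ lam i (g₀ * k) < c)) (m - ρ.card))
    {f : Finset I → G → M} (hf : Inv K H f) (hc : Cocyc (alw H T ok) m f)
    (hz : ∀ J g, J.card = m → alw H T ok J g → lev T lam J g < L₀ → f J g = 0) :
    ∃ y : Finset I → G → M, Inv K H y ∧ (∀ J g, y J g ≠ 0 → alw H T ok J g ∧ L₀ ≤ lev T lam J g) ∧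
      ∀ J g, J.card = m → alw H T ok J g → f J g = dl y J g := by
  obtain ⟨Bd, hBd⟩ : ∃ Bd : ℕ, ∀ J ⊆ T, ∀ g, lev T lam J g < Bd := by
    have := Fintype.ofFinite G
    refine ⟨(T.sup fun j => Finset.univ.sup (lam j)) * (T.card + 1) + T.card + 1,
      fun J hJ g => ?_⟩
    have h1 : mxl lam J g ≤ T.sup fun j => Finset.univ.sup (lam j) := by
      refine Finset.sup_le fun j hj => ?_
      exact (Finset.le_sup (f := lam j) (Finset.mem_univ g)).trans
        (Finset.le_sup (f := fun j => Finset.univ.sup (lam j)) (hJ hj))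
    have h2 : (tp lam J g).card ≤ T.card :=
      Finset.card_le_card ((Shell_tp_subset _ _).trans hJ)
    have h3 := Nat.mul_le_mul_right (T.card + 1) h1
    unfold lev
    omega
  obtain ⟨d, hd⟩ : ∃ d, Bd ≤ L₀ + d := ⟨Bd, Nat.le_add_left _ _⟩
  induction d generalizing L₀ f with
  | zero =>
    refine ⟨0, Inv.zero, fun J g h => absurd rfl h, fun J g hJ ha => ?_⟩
    rw [dl_zero, hz J g hJ ha (lt_of_lt_of_le (hBd J ha.1 g) hd)]
    rfl
  | succ d ih =>
    obtain ⟨y₁, hy₁, s₁, e₁⟩ := shell_step hok hlam hL hz (by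
      intro ρ g₀ c ha hρ h1 hLe hm
      refine hlink ρ g₀ c ha hρ h1 hLe.ge hm _ ?_
        (shell_loc hok hlam hc ha hρ h1 hm (by rw [hLe]; exact hz))
      intro J g k hk hJ
      show f (J ∪ ρ) (g₀ * (g * k)) = f (J ∪ ρ) (g₀ * g)
      rw [← mul_assoc]
      refine hf _ _ k hk.1 fun j hj => ?_
      rcases Finset.mem_union.1 hj with hj | hj
      · exact hJ j hj
      · exact mem_KJ.1 hk.2 j hj)
    obtain ⟨y₂, hy₂, s₂, e₂⟩ := ih (L₀ := L₀ + 1) (f := f - dl y₁) (by omega)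
      (fun ρ g₀ c ha hρ h1 hLe hm => hlink ρ g₀ c ha hρ h1 (by omega) hm)
      (hf.sub hy₁.dl) (hc.sub (Cocyc.dl _)) (by
        intro J g hJ ha hlt
        rw [Pi.sub_apply, Pi.sub_apply, e₁ J g hJ ha (by omega), sub_self]) (by omega)
    refine ⟨y₁ + y₂, hy₁.add hy₂, fun J g h => ?_, fun J g hJ ha => ?_⟩
    · by_cases h1 : y₁ J g = 0
      · have h2 : y₂ J g ≠ 0 := by
          intro h2
          exact h (by rw [Pi.add_apply, Pi.add_apply, h1, h2, add_zero])
        exact ⟨(s₂ J g h2).1, by have := (s₂ J g h2).2; omega⟩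
      · exact ⟨(s₁ J g h1).1, (s₁ J g h1).2.ge⟩
    · have := e₂ J g hJ ha
      rw [Pi.sub_apply, Pi.sub_apply, sub_eq_iff_eq_add'] at this
      rw [dl_add, Pi.add_apply, Pi.add_apply, this]

end Crest.Agent.R66
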