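import Crest.Agent.R66.Basic
import Crest.Agent.R66.Angle

/-! Task R66-Spec: the spectral estimate from the Heisenberg relations. -/
set_option autoImplicit false
set_option linter.unusedSectionVars false
namespace Crest.Agent.R66
open Finset
open scoped RealInnerProductSpace

/-
PLAN.  `E = EuclideanSpace ℝ G`, `V a` = functions invariant under right multiplication by all `x a γ`.
Right translations are isometries; `avg_b u g = p⁻¹ ∑_γ u (g * x b γ)` is self-adjoint, lands in `V b`, fixes `V b`.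
Pairwise bound with `1/√p`: for `u ∈ V a`, `u ⊥ V a ⊓ V b`, `v ∈ V b`: `⟪u,v⟫ = ⟪avg_b u, v⟫` and
`‖avg_b u‖² = ⟪avg_b u, u⟫ = p⁻¹ ∑_β ⟪y(β) u, u⟫`.  Commuting case: `avg_b u ∈ V a ⊓ V b`, so it is `0`.
Heisenberg case (symmetric in the two groups: replace `z γ` by `z (-γ)`): for `β ≠ 0`,
`⟪y(β)u, u⟫ = ⟪y(β) z(αβ) u, u⟫` for all `α`, so `= ⟪y(β) P_z u, u⟫`; hence
`‖avg_b u‖² = p⁻¹‖u‖² - p⁻¹⟪P_z u, u⟫ + ⟪avg_b P_z u, u⟫ ≤ p⁻¹ ‖u‖²` because `avg_b P_z u ∈ V a ⊓ V b` and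
`⟪P_z u, u⟫ = ‖P_z u‖² ≥ 0`.  `a = b`: `u = 0`.
Then `angle` with `S = Rᶜ`, `S' = Jᶜ`, `u₀ = u - avg (KJ K (R ∩ J)) u`: careful, `u₀ ∈ ⨅_{a ∈ Rᶜ} V a` because
`avg (KJ K (R ∩ J)) u` is invariant under `KJ K (R ∩ J) ∋ x a γ`; `u₀ ⊥` the functions invariant under all
`x a γ`, `a ∉ R ∩ J`, which are `KJ K (R ∩ J)`-invariant by `hgen`; `‖u₀‖ ≤ ‖u‖`.
-/
section SpecAux
variable {G : Type} [Group G] {p : ℕ} [Fact p.Prime]

theorem spec_hom_zero {z : ZMod p → G} (hz : ∀ a b, z (a + b) = z a * z b) : z 0 = 1 := by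
  have := hz 0 0
  rw [add_zero] at this
  exact left_eq_mul.mp this

theorem spec_heis_symm {x y : ZMod p → G} (h : Heis x y) : Heis y x := by
  obtain ⟨z, h1, h2, h3, h4⟩ := h
  refine ⟨fun a => z (-a), fun a b => by simp only [neg_add, h1], fun a b => h3 _ _, fun a b => h2 _ _,
    fun a b => ?_⟩
  rw [h4, mul_assoc, ← h1, mul_comm a b, add_neg_cancel, spec_hom_zero h1, mul_one]

theorem spec_heis_of_comm {x y : ZMod p → G} (h : ∀ a b, Commute (x a) (y b)) : Heis x y :=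
  ⟨fun _ => 1, by simp, by simp, by simp, fun a b => by rw [mul_one, h a b]⟩

variable {E : Type} [NormedAddCommGroup E] [InnerProductSpace ℝ E]

/-- average over a one-parameter group -/
noncomputable def specAv (ρ : G → E →ₗ[ℝ] E) (y : ZMod p → G) (u : E) : E :=
  (p : ℝ)⁻¹ • ∑ γ, ρ (y γ) u

theorem specAv_fix {ρ : G → E →ₗ[ℝ] E} {y : ZMod p → G} {u : E} (h : ∀ γ, ρ (y γ) u = u) :
    specAv ρ y u = u := by
  have : (p : ℝ) ≠ 0 := Nat.cast_ne_zero.mpr (Fact.out : p.Prime).ne_zero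
  simp only [specAv, h, sum_const, card_univ, ZMod.card]
  rw [← Nat.cast_smul_eq_nsmul ℝ, smul_smul, inv_mul_cancel₀ this, one_smul]

theorem specAv_inv {ρ : G → E →ₗ[ℝ] E} (hm : ∀ g h u, ρ (g * h) u = ρ g (ρ h u)) {y : ZMod p → G}
    (hy : ∀ a b, y (a + b) = y a * y b) (u : E) (β : ZMod p) :
    ρ (y β) (specAv ρ y u) = specAv ρ y u := by
  simp only [specAv, map_smul, map_sum, ← hm, ← hy]
  congr 1
  exact Fintype.sum_equiv (Equiv.addLeft β) _ _ fun _ => rfl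

theorem spec_adj {ρ : G → E →ₗ[ℝ] E} (hm : ∀ g h u, ρ (g * h) u = ρ g (ρ h u))
    (h1 : ∀ u, ρ 1 u = u) (hi : ∀ g u v, ⟪ρ g u, ρ g v⟫ = ⟪u, v⟫) {y : ZMod p → G}
    (hy : ∀ a b, y (a + b) = y a * y b) (γ : ZMod p) (u v : E) :
    ⟪ρ (y γ) u, v⟫ = ⟪u, ρ (y (-γ)) v⟫ := by
  rw [← hi (y γ) u, ← hm, ← hy, add_neg_cancel, spec_hom_zero hy, h1]

theorem specAv_adj {ρ : G → E →ₗ[ℝ] E} (hm : ∀ g h u, ρ (g * h) u = ρ g (ρ h u))
    (h1 : ∀ u, ρ 1 u = u) (hi : ∀ g u v, ⟪ρ g u, ρ g v⟫ = ⟪u, v⟫) {y : ZMod p → G}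
    (hy : ∀ a b, y (a + b) = y a * y b) (u v : E) :
    ⟪specAv ρ y u, v⟫ = ⟪u, specAv ρ y v⟫ := by
  simp only [specAv, real_inner_smul_left, real_inner_smul_right, sum_inner, inner_sum,
    spec_adj hm h1 hi hy]
  congr 1
  exact Fintype.sum_equiv (Equiv.neg _) _ _ fun _ => rfl

theorem spec_pair {ρ : G → E →ₗ[ℝ] E} (hm : ∀ g h u, ρ (g * h) u = ρ g (ρ h u))
    (h1 : ∀ u, ρ 1 u = u) (hi : ∀ g u v, ⟪ρ g u, ρ g v⟫ = ⟪u, v⟫) {x y : ZMod p → G}
    (hy : ∀ a b, y (a + b) = y a * y b) (h : Heis x y)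
    {u : E} (hu : ∀ γ, ρ (x γ) u = u)
    (hu' : ∀ w, (∀ γ, ρ (x γ) w = w) → (∀ γ, ρ (y γ) w = w) → ⟪w, u⟫ = 0) :
    ‖specAv ρ y u‖ ^ 2 ≤ (p : ℝ)⁻¹ * ‖u‖ ^ 2 := by
  obtain ⟨z, hz, zx, zy, hr⟩ := h
  have hp : (0 : ℝ) < p := Nat.cast_pos.mpr (Fact.out : p.Prime).pos
  have hsq : ∀ {y : ZMod p → G}, (∀ a b, y (a + b) = y a * y b) →
      ‖specAv ρ y u‖ ^ 2 = ⟪specAv ρ y u, u⟫ := fun {y} hy => by
    rw [← real_inner_self_eq_norm_sq, specAv_adj hm h1 hi hy, specAv_fix (specAv_inv hm hy u),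
      real_inner_comm]
  set w := specAv ρ z u with hw
  have wz : ∀ γ, ρ (z γ) w = w := specAv_inv hm hz u
  have wx : ∀ γ, ρ (x γ) w = w := fun γ => by
    simp only [hw, specAv, map_smul, map_sum, ← hm, ← (zx _ _).eq]
    simp only [hm, hu]
  have e1 : ∀ β, β ≠ 0 → ⟪ρ (y β) u, u⟫ = ⟪ρ (y β) w, u⟫ := fun β hβ => by
    have e : ∀ α, ⟪ρ (y β) (ρ (z (α * β)) u), u⟫ = ⟪ρ (y β) u, u⟫ := fun α => by
      conv_rhs => rw [← hi (x α), hu, ← hm, hr, mul_assoc, ← (zx _ _).eq, hm, hm, hu]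
    have e2 : ∑ γ, ⟪ρ (y β) (ρ (z γ) u), u⟫ = ∑ α, ⟪ρ (y β) (ρ (z (α * β)) u), u⟫ :=
      (Fintype.sum_equiv (Equiv.mulRight₀ β hβ) _ _ fun _ => rfl).symm
    simp only [hw, specAv, map_smul, map_sum, real_inner_smul_left, sum_inner]
    rw [e2]
    simp only [e, sum_const, card_univ, ZMod.card, nsmul_eq_mul]
    field_simp
  have e3 : ⟪specAv ρ y w, u⟫ = 0 := by
    refine hu' _ (fun γ => ?_) (specAv_inv hm hy w)
    simp only [specAv, map_smul, map_sum, ← hm, hr]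
    simp only [hm, wz, wx]
  have e4 : 0 ≤ ⟪w, u⟫ := by rw [hw, ← hsq hz]; positivity
  have e5 : ∑ β, ⟪ρ (y β) u, u⟫ - ∑ β, ⟪ρ (y β) w, u⟫ = ‖u‖ ^ 2 - ⟪w, u⟫ := by
    rw [← sum_sub_distrib, sum_eq_single 0 (fun β _ hβ => by rw [e1 β hβ, sub_self]) (by simp),
      spec_hom_zero hy, h1, h1, real_inner_self_eq_norm_sq]
  simp only [specAv, real_inner_smul_left, sum_inner] at e3
  rw [hsq hy]
  simp only [specAv, real_inner_smul_left, sum_inner]
  have e6 : ∑ β, ⟪ρ (y β) w, u⟫ = 0 := (mul_eq_zero.mp e3).resolve_left (by positivity)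
  gcongr
  linarith

/-- right translation -/
def specR [Fintype G] (k : G) : EuclideanSpace ℝ G →ₗ[ℝ] EuclideanSpace ℝ G where
  toFun u := WithLp.toLp 2 fun g => u (g * k)
  map_add' u v := by ext; simp
  map_smul' c u := by ext; simp

theorem spec_inner [Fintype G] (u v : EuclideanSpace ℝ G) : ⟪u, v⟫ = ∑ g, u g * v g := by
  simp [PiLp.inner_apply, mul_comm]

theorem spec_avg_inv [Fintype G] (H : Subgroup G) (u : G → ℝ) (g : G) {h : G} (hh : h ∈ H) :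
    avg H u (g * h) = avg H u g := by
  classical
  unfold avg
  congr 1
  refine sum_bij' (fun k _ => h * k) (fun k _ => h⁻¹ * k) ?_ ?_ ?_ ?_ ?_
  · intro k hk; simpa using H.mul_mem hh (by simpa using hk)
  · intro k hk; simpa using H.mul_mem (H.inv_mem hh) (by simpa using hk)
  · intro k _; simp
  · intro k _; simp
  · intro k _; rw [mul_assoc]

theorem spec_avg_orth [Fintype G] (H : Subgroup G) (u w : G → ℝ)
    (hw : ∀ g k, k ∈ H → w (g * k) = w g) : ∑ g, avg H u g * w g = ∑ g, u g * w g := by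
  classical
  unfold avg
  have hc : ((univ.filter fun k : G => k ∈ H).card : ℝ) ≠ 0 :=
    Nat.cast_ne_zero.mpr (card_ne_zero.mpr ⟨1, by simp⟩)
  simp only [div_mul_eq_mul_div, ← sum_div, sum_mul]
  rw [div_eq_iff (by convert hc), sum_comm, mul_comm, ← nsmul_eq_mul, ← sum_const]
  refine sum_congr (by convert rfl) fun k hk => ?_
  refine Fintype.sum_equiv (Equiv.mulRight k) _ _ fun g => ?_
  simp only [Equiv.coe_mulRight]
  rw [hw g k (by simpa using hk)]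

end SpecAux

theorem spec_of_roots (n : ℕ) (lam : ℝ) (hlam : 0 < lam) : ∃ p₀ : ℕ, ∀ (p : ℕ) [Fact p.Prime],
    p₀ ≤ p → ∀ (I G : Type) [Fintype I] [DecidableEq I] [Group G] [Fintype G]
      (K : I → Subgroup G) (x : I → ZMod p → G), Fintype.card I ≤ n →
      (∀ a γ γ', x a (γ + γ') = x a γ * x a γ') → (∀ a j γ, a ≠ j → x a γ ∈ K j) →
      (∀ J : Finset I, KJ K J ≤ Subgroup.closure {g | ∃ a, a ∉ J ∧ ∃ γ, g = x a γ}) →
      (∀ a b, a ≠ b → (∀ γ γ', Commute (x a γ) (x b γ')) ∨ Heis (x a) (x b) ∨ Heis (x b) (x a)) →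
      Spec K lam := by
  obtain ⟨ε, hε, H⟩ := angle n lam hlam
  refine ⟨⌈1 / ε ^ 2⌉₊, fun p _ hp I G _ _ _ _ K x hn hx hK hgen hrel R J u v hu hv => ?_⟩
  have hm : ∀ (g h : G) u, specR (g * h) u = specR g (specR h u) := fun g h u => by
    ext; simp [specR, mul_assoc]
  have h1 : ∀ u, specR (1 : G) u = u := fun u => by ext; simp [specR]
  have hi : ∀ (g : G) u v, ⟪specR g u, specR g v⟫ = ⟪u, v⟫ := fun g u v => by
    rw [spec_inner, spec_inner]
    exact Fintype.sum_equiv (Equiv.mulRight g) _ _ fun _ => rfl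
  let V : I → Submodule ℝ (EuclideanSpace ℝ G) := fun a =>
    ⨅ γ, LinearMap.eqLocus (specR (x a γ)) LinearMap.id
  have hV : ∀ a w, w ∈ V a ↔ ∀ γ, specR (x a γ) w = w := fun a w => by
    simp [V, Submodule.mem_iInf]
  have hV' : ∀ a w, w ∈ V a ↔ ∀ γ g, w (g * x a γ) = w g := fun a w => by
    rw [hV]
    exact forall_congr' fun γ => ⟨fun h g => congrArg (fun f : EuclideanSpace ℝ G => f g) h,
      fun h => by ext g; exact h g⟩
  have hpe : (p : ℝ)⁻¹ ≤ ε ^ 2 := by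
    have hp0 : (0 : ℝ) < p := Nat.cast_pos.mpr (Fact.out : p.Prime).pos
    have : 1 / ε ^ 2 ≤ p := (Nat.le_ceil _).trans (by exact_mod_cast hp)
    rw [div_le_iff₀ (by positivity)] at this
    rw [inv_le_iff_one_le_mul₀' hp0]; exact this
  have hpair : ∀ a b, ∀ u ∈ V a, u ∈ (V a ⊓ V b)ᗮ → ∀ v ∈ V b, ⟪u, v⟫ ≤ ε * (‖u‖ * ‖v‖) := by
    intro a b u hu hu' v hv
    have hh : Heis (x a) (x b) := by
      by_cases hab : a = b
      · subst hab
        exact spec_heis_of_comm fun γ γ' => by rw [Commute, SemiconjBy, ← hx, ← hx, add_comm]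
      rcases hrel a b hab with h | h | h
      exacts [spec_heis_of_comm h, h, spec_heis_symm h]
    have h2 := spec_pair hm h1 hi (hx b) hh ((hV a u).mp hu)
      fun w h h' => hu' w ⟨(hV a w).mpr h, (hV b w).mpr h'⟩
    have h3 : ‖specAv specR (x b) u‖ ≤ ε * ‖u‖ := by
      refine (pow_le_pow_iff_left₀ (norm_nonneg _) (by positivity) two_ne_zero).mp (h2.trans ?_)
      rw [mul_pow]; gcongr
    rw [← specAv_fix ((hV b v).mp hv), ← specAv_adj hm h1 hi (hx b), specAv_fix ((hV b v).mp hv),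
      ← mul_assoc]
    exact (real_inner_le_norm _ _).trans (mul_le_mul_of_nonneg_right h3 (norm_nonneg _))
  have hxK : ∀ (T : Finset I) a γ, a ∉ T → x a γ ∈ KJ K T := fun T a γ ha =>
    mem_KJ.mpr fun j hj => hK a j γ (by rintro rfl; exact ha hj)
  set A := avg (KJ K (R ∩ J)) u with hA
  let u₀ : EuclideanSpace ℝ G := WithLp.toLp 2 fun g => u g - A g
  let v₀ : EuclideanSpace ℝ G := WithLp.toLp 2 v
  have horth : ∀ w : G → ℝ, (∀ g k, k ∈ KJ K (R ∩ J) → w (g * k) = w g) →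
      ∑ g, (u g - A g) * w g = 0 := fun w hw => by
    simp only [sub_mul, sum_sub_distrib, hA, spec_avg_orth _ u w hw, sub_self]
  have key := H (EuclideanSpace ℝ G) I V hn hpair Rᶜ Jᶜ u₀ ?_ ?_ v₀ ?_
  · have e1 : ‖v₀‖ = √(∑ g, v g ^ 2) := by simp [v₀, EuclideanSpace.norm_eq]
    have e2 : ‖u₀‖ ≤ √(∑ g, u g ^ 2) := by
      rw [EuclideanSpace.norm_eq]
      refine Real.sqrt_le_sqrt ?_
      have h0 := horth A fun g k hk => spec_avg_inv _ u g hk
      have e : ∑ g, u g ^ 2 = ∑ g, ((u g - A g) ^ 2 + 2 * ((u g - A g) * A g) + A g ^ 2) :=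
        sum_congr rfl fun g _ => by ring
      rw [e, sum_add_distrib, sum_add_distrib, ← mul_sum, h0]
      have : 0 ≤ ∑ g, A g ^ 2 := sum_nonneg fun g _ => sq_nonneg _
      simp only [u₀, Real.norm_eq_abs, sq_abs]
      linarith
    rw [spec_inner, e1] at key
    simp only [u₀, v₀, sub_mul, sum_sub_distrib] at key
    have : lam * (‖u₀‖ * √(∑ g, v g ^ 2)) ≤ lam * (√(∑ g, u g ^ 2) * √(∑ g, v g ^ 2)) := by
      gcongr
    linarith
  · simp only [Submodule.mem_iInf]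
    intro a ha
    refine (hV' a _).mpr fun γ g => ?_
    have ha' : a ∉ R := by simpa using ha
    simp only [u₀, hA]
    rw [hu g _ (hxK R a γ ha'), spec_avg_inv _ u g (hxK _ a γ (by simp [ha']))]
  · intro w hw
    simp only [Submodule.mem_iInf] at hw
    rw [real_inner_comm, spec_inner]
    refine horth w fun g k hk => ?_
    have hk' := hgen _ hk
    clear hk
    induction hk' using Subgroup.closure_induction generalizing g with
    | mem k hk =>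
      obtain ⟨a, ha, γ, rfl⟩ := hk
      exact (hV' a w).mp (hw a (by simpa [← compl_inter] using ha)) γ g
    | one => rw [mul_one]
    | mul k k' _ _ ih ih' => rw [← mul_assoc, ih', ih]
    | inv k _ ih => rw [← ih (g * k⁻¹), inv_mul_cancel_right]
  · simp only [Submodule.mem_iInf]
    intro a ha
    exact (hV' a _).mpr fun γ g => hv g _ (hxK J a γ (by simpa using ha))

end Crest.Agent.R66
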