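import Crest.Agent.R66.LinkGeo
import Crest.Agent.R66.GrpRow
import Crest.Agent.R66.GrpCol
import Crest.Agent.R66.GrpCard
import Crest.Agent.R66.GrpGen
import Crest.Agent.R66.MainStep
import Crest.Agent.R66.QChar
import Crest.Agent.R66.Morse

/-! Vanishing of the cohomology of the coset complexes in low degree. -/
set_option autoImplicit false
set_option linter.unusedSectionVars false
namespace Crest.Agent.R66
open Finset Matrix

variable {p : ℕ} [Fact p.Prime] {A : Type} [CommRing A] [Algebra (ZMod p) A] [Finite A]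
  {n : ℕ} [NeZero n] {t : A}

theorem relEx_row (hg : Good p t) {N κ : ℕ} (hc : ConeConst n N κ) (hp : 2 * N < p)
    {Rc Rr : Finset (Fin n)} {e : Fin n} (he : e ∈ Rc) (he' : e ∉ Rr) (hR : Rr ⊆ Rc) {m : ℕ}
    (hm : m < Rcᶜ.card) (N' : Subgroup (GG n t)) (hN : ¬ GR t Rc (univ.erase e) ≤ N') :
    RelEx FF (KK p t) (GR t Rc (insert e Rr)) Rcᶜ (GR t Rc (univ.erase e)) N' m := by
  refine relEx_of_filt (filt_row hg he) (semi_row hg he he').norm ?_ N' hN
  intro j hj c hac hcj N'' h1 h2 hm1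
  have hj' : j ∉ Rc := by simpa using hj
  obtain ⟨W', hW, hiff⟩ := link_row (Rr := Rr) hg he hj' hac hcj h1 h2
  have hb := link_bcone hg hc hp (j := j) (J0 := {j}) (Rc := Rc) (Rr := insert e Rr)
    (mem_singleton_self j) (by simpa using hj') (insert_subset he hR) (OkKind.row W' hW)
    (fun i hi hij => absurd (mem_singleton.1 hi) hij)
  have hcard : m - 1 < (Rcᶜ \ {j}).card := by
    rw [card_sdiff_of_subset (by simpa using hj')]; simp only [card_singleton]; omega
  refine (ex_of_bcone hb hcard).congr fun J g => ?_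
  have key : ∀ i ∈ Rcᶜ \ {j}, g ∈ GR t Rc (insert e Rr) ⊓ KJ (KK p t) {j} → _ := fun i hi hg' =>
    hiff i (by simpa using (mem_sdiff.1 hi).1) (by simpa using (mem_sdiff.1 hi).2) g hg'.1
      (mem_KJ.1 hg'.2 j (mem_singleton_self j))
  exact ⟨fun h => ⟨h.1, h.2.1, fun i hi => (key i (h.1 hi) h.2.1).1 (h.2.2 i hi)⟩,
    fun h => ⟨h.1, h.2.1, fun i hi => (key i (h.1 hi) h.2.1).2 (h.2.2 i hi)⟩⟩

theorem relEx_col (hg : Good p t) {N κ : ℕ} (hc : ConeConst n N κ) (hp : 2 * N < p)
    {R : Finset (Fin n)} {e : Fin n} (he : e ∉ R) {m : ℕ}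
    (hm : m < (insert e R)ᶜ.card) (N' : Subgroup (GG n t))
    (hN : ¬ GR t (univ.erase e) (insert e R) ≤ N') :
    RelEx FF (KK p t) (GR t (insert e R) (insert e R)) (insert e R)ᶜ
      (GR t (univ.erase e) (insert e R)) N' m := by
  refine relEx_of_filt (filt_col hg (mem_insert_self e R)) (semi_col hg he).norm ?_ N' hN
  intro j hj c hac hcj N'' h1 h2 hm1
  have hj' : j ∉ insert e R := mem_compl.1 hj
  obtain ⟨H, hB, hH, hiff⟩ := link_col hg (mem_insert_self e R) hj' hac hcj h1 h2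
  have hb := link_bcone hg hc hp (j := j) (J0 := {j}) (Rc := insert e R) (Rr := insert e R)
    (mem_singleton_self j) (disjoint_singleton_left.2 hj') subset_rfl (OkKind.col H rfl hB hH)
    (fun i hi hij => absurd (mem_singleton.1 hi) hij)
  have hcard : m - 1 < ((insert e R)ᶜ \ {j}).card := by
    rw [card_sdiff_of_subset (singleton_subset_iff.2 hj)]; simp only [card_singleton]; omega
  refine (ex_of_bcone hb hcard).congr fun J g => ?_
  have key : ∀ i ∈ (insert e R)ᶜ \ {j}, g ∈ GR t (insert e R) (insert e R) ⊓ KJ (KK p t) {j} → _ :=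
    fun i hi hg' => hiff i (mem_compl.1 (mem_sdiff.1 hi).1) (by simpa using (mem_sdiff.1 hi).2) g
      hg'.1 (mem_KJ.1 hg'.2 j (mem_singleton_self j))
  exact ⟨fun h => ⟨h.1, h.2.1, fun i hi => (key i (h.1 hi) h.2.1).1 (h.2.2 i hi)⟩,
    fun h => ⟨h.1, h.2.1, fun i hi => (key i (h.1 hi) h.2.1).2 (h.2.2 i hi)⟩⟩

/-- unfreezing rows -/
theorem cob_rows (hg : Good p t) (hp2 : 2 < p) {N κ : ℕ} (hc : ConeConst n N κ) (hp : 2 * N < p)
    {Rc : Finset (Fin n)} {m : ℕ} (hm : m < Rcᶜ.card) (D : Finset (Fin n)) (hD : D ⊆ Rc)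
    {f : Finset (Fin n) → GG n t → FF} (hf : Inv (KK p t) (GR t Rc (Rc \ D)) f)
    (hcf : Cocyc (full (GR t Rc (Rc \ D)) Rcᶜ) m f)
    (h : Cob (KK p t) (GR t Rc Rc) (full (GR t Rc Rc) Rcᶜ) m f) :
    Cob (KK p t) (GR t Rc (Rc \ D)) (full (GR t Rc (Rc \ D)) Rcᶜ) m f := by
  induction D using Finset.induction_on with
  | empty => simpa using h
  | insert e D heD ih =>
    have he : e ∈ Rc := hD (mem_insert_self e D)
    have he' : e ∉ Rc \ insert e D := by simp
    have heq : insert e (Rc \ insert e D) = Rc \ D := by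
      ext x
      simp only [mem_insert, mem_sdiff, not_or]
      constructor
      · rintro (rfl | ⟨h1, _, h3⟩)
        · exact ⟨he, heD⟩
        · exact ⟨h1, h3⟩
      · rintro ⟨h1, h3⟩
        by_cases hx : x = e
        · exact Or.inl hx
        · exact Or.inr ⟨h1, hx, h3⟩
    have hS := semi_row hg he he'
    have hle : GR t Rc (Rc \ D) ≤ GR t Rc (Rc \ insert e D) := heq ▸ hS.s_le
    refine semi_Qb (odd_card_GG hg hp2) hS
      (fun N' hN => relEx_row hg hc hp he he' sdiff_subset hm N' hN) hf hcf ?_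
    rw [heq]
    exact ih ((subset_insert e D).trans hD) (hf.mono hle) (hcf.mono (full_mono hle subset_rfl))

/-- unfreezing rows and adding the redundant types -/
theorem cob_link (hg : Good p t) (hp2 : 2 < p) {N κ : ℕ} (hc : ConeConst n N κ) (hp : 2 * N < p)
    {R τ : Finset (Fin n)} (hd : Disjoint τ R) {m : ℕ} (hm : m < (R ∪ τ)ᶜ.card)
    {f : Finset (Fin n) → GG n t → FF} (hf : Inv (KK p t) (GR t (R ∪ τ) R) f)
    (hcf : Cocyc (full (GR t (R ∪ τ) R) Rᶜ) m f)
    (h : Cob (KK p t) (GR t (R ∪ τ) (R ∪ τ)) (full (GR t (R ∪ τ) (R ∪ τ)) (R ∪ τ)ᶜ) m f) :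
    Cob (KK p t) (GR t (R ∪ τ) R) (full (GR t (R ∪ τ) R) Rᶜ) m f := by
  have e1 : (R ∪ τ) \ τ = R := by
    rw [union_sdiff_right]; exact sdiff_eq_self_of_disjoint hd.symm
  have e2 : Rᶜ \ τ = (R ∪ τ)ᶜ := by ext x; simp
  have hne : (R ∪ τ)ᶜ.Nonempty := card_pos.1 (by omega)
  refine cob_of_red (τ := τ) (fun a _ => ?_) hf hcf ?_
  · obtain ⟨b, hb, hb'⟩ := red_incl (Rr := R) hg hne a
    simp only [mem_union, not_or] at hb
    exact ⟨b, mem_compl.2 hb.1, hb.2, hb'⟩
  · rw [e2]
    have := cob_rows hg hp2 hc hp hm τ subset_union_right (f := f) (by rwa [e1])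
      (by rw [e1]; exact hcf.mono (full_mono le_rfl (e2 ▸ sdiff_subset))) h
    rwa [e1] at this

theorem vanish_aux (hg : Good p t) (hp2 : 2 < p) {N κ : ℕ} (hc : ConeConst n N κ)
    (hp : 2 * N < p) (m : ℕ) : ∀ R : Finset (Fin n), 2 * m + 1 ≤ Rᶜ.card →
      Ex FF (KK p t) (GR t R R) (full (GR t R R) Rᶜ) m := by
  induction m using Nat.strong_induction_on with
  | _ m ih =>
  intro R hR
  rcases Nat.eq_zero_or_pos m with rfl | hm0
  · exact ex_zero (card_pos.1 (by omega))
  intro f hf hcf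
  obtain ⟨Pos, hPos, hcard⟩ := Finset.exists_subset_card_eq (s := Rᶜ) (n := m + 1) (by omega)
  have hdis : Disjoint Pos R := by
    rw [disjoint_left]; intro a ha; exact mem_compl.1 (hPos ha)
  obtain ⟨b, hb, hb'⟩ : ∃ b, b ∈ Rᶜ ∧ b ∉ Pos := by
    by_contra hcon
    push Not at hcon
    have := card_le_card (show Rᶜ ⊆ Pos from hcon)
    omega
  have hcu : ∀ τ : Finset (Fin n), Disjoint τ R → (R ∪ τ)ᶜ.card + τ.card = Rᶜ.card := by
    intro τ hτ
    have h1 := card_compl (R ∪ τ)
    have h2 := card_compl R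
    have h3 := card_union_of_disjoint hτ.symm
    have h4 := card_le_univ (R ∪ τ)
    omega
  refine main_step (S := fun a : Fin n => GR t {a} ∅) (Pos := Pos) (by omega) ?_ ?_ hf hcf ?_
  · intro J _ τ hτ a ha haτ k hk hJ
    exact join_cols hg hdis (mem_compl.1 hb) hb' J τ hτ ha haτ hk hJ
  · intro τ hτ h2 h3
    have hd : Disjoint τ R := hdis.mono_left hτ
    have := hcu τ hd
    rw [GR_inf_cols]
    intro ω hω hcω
    have hle : GR t (R ∪ τ) (R ∪ τ) ≤ GR t (R ∪ τ) R := GR_anti subset_rfl subset_union_left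
    exact cob_link hg hp2 hc hp hd (by omega) hω hcω
      (ih (m + 1 - τ.card) (by omega) (R ∪ τ) (by omega) ω (hω.mono hle)
        (hcω.mono (full_mono hle (compl_subset_compl.2 subset_union_left))))
  · intro e hePos g hg'
    have he : e ∉ R := disjoint_left.1 hdis hePos
    have hd : Disjoint {e} R := disjoint_singleton_left.2 he
    have hce := hcu {e} hd
    rw [card_singleton] at hce
    have hu : R ∪ {e} = insert e R := by ext x; simp [or_comm]
    rw [GR_inf_cols]
    have hodd := odd_card_GG (n := n) hg hp2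
    have hm' : m < (insert e R)ᶜ.card := by rw [← hu]; omega
    have hsub : (insert e R)ᶜ ⊆ Rᶜ := compl_subset_compl.2 (subset_insert e R)
    have hSr := semi_row (Rc := insert e R) (Rr := R) hg (mem_insert_self e R) he
    have hSc := semi_col hg he
    have l1 : GR t (insert e R) R ≤ GR t R R := GR_anti (subset_insert e R) subset_rfl
    have l2 : GR t R (insert e R) ≤ GR t R R := GR_anti subset_rfl (subset_insert e R)
    refine center_kill (G' := GR t (insert e R) (insert e R)) (T' := (insert e R)ᶜ) (e := e)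
      (X := (GR t (insert e R) (univ.erase e) : Set (GG n t)) ∪ GR t (univ.erase e) (insert e R))
      hodd (GR_anti subset_union_left subset_rfl) (hSr.s_le.trans l1) (mem_compl.2 he) ?_ ?_
      (gen_center1 hg he) (fun J k hk hJ => gen_center2 hg he J hk hJ) ?_ hf hcf hg'
    · rintro x (hx | hx)
      · exact l1 (hSr.q_le hx)
      · exact l2 (hSc.q_le hx)
    · rintro x (hx | hx) ω hω hcω
      · exact (semi_Qa hodd hSr
          (fun N' hN => relEx_row hg hc hp (mem_insert_self e R) he (subset_insert e R) hm' N' hN)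
          (hω.mono l1) (hcω.mono (full_mono l1 hsub)) hx).mono hSr.s_le
          (full_mono hSr.s_le subset_rfl)
      · exact (semi_Qa hodd hSc (fun N' hN => relEx_col hg hc hp he hm' N' hN)
          (hω.mono l2) (hcω.mono (full_mono l2 hsub)) hx).mono hSc.s_le
          (full_mono hSc.s_le subset_rfl)
    · intro ω hω hcω h
      exact cob_link hg hp2 hc hp hd (by omega) hω hcω (by rwa [hu])

theorem vanish (hg : Good p t) (hp2 : 2 < p) {N κ : ℕ} (hc : ConeConst n N κ)
    (hp : 2 * N < p) {m : ℕ} (hm : 2 * m + 1 ≤ n) :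
    Ex (ZMod 2) (KK p t) (⊤ : Subgroup (GG n t)) (full ⊤ univ) m := by
  have := vanish_aux hg hp2 hc hp m ∅ (by simpa using hm)
  rw [GR_empty, compl_empty] at this
  exact ex_descend this

/-- links of nonempty faces are coboundary expanders -/
theorem link_exp (hg : Good p t) {N κ : ℕ} (hc : ConeConst n N κ) (hp : 2 * N < p)
    {R : Finset (Fin n)} (hR : R.Nonempty) {m : ℕ} (hm : m + R.card < n) :
    CobExp (KK p t) (KJ (KK p t) R) Rᶜ m (2 ^ n * κ) := by
  obtain ⟨j, hj⟩ := hR
  have hb := link_bcone hg hc hp (j := j) (J0 := R) (Rc := ∅) (Rr := ∅) hj (by simp) subset_rfl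
    OkKind.none (fun _ _ _ => trivial)
  rw [GR_empty, top_inf_eq, compl_empty, ← compl_eq_univ_sdiff] at hb
  have hcard : Rᶜ.card = n - R.card := by rw [card_compl, Fintype.card_fin]
  have h := cobExp_of_bcone (m := m) hb (by omega)
  intro f hf
  obtain ⟨y, hy, hle⟩ := h f hf
  refine ⟨y, hy, hle.trans (Nat.mul_le_mul_right _ (Nat.mul_le_mul_right _ ?_))⟩
  exact Nat.pow_le_pow_right (by norm_num) (by omega)

end Crest.Agent.R66
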